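import Vale.Agent.P309.Defs

open MeasureTheory ProbabilityTheory
open scoped RealInnerProductSpace ENNReal

namespace Vale.Agent.P309

/-- Index of the level-`l` cell of `s`: half-open cubes of side `2⁻ˡ/√d` (diameter at most
`2⁻ˡ`). -/
noncomputable def cell (d l : ℕ) (s : E d) : Fin d → ℤ :=
  fun i => ⌊(2 : ℝ) ^ l * Real.sqrt d * s i⌋

/-- The level-`l` cell of `s`. -/
def Q (d l : ℕ) (s : E d) : Set (E d) := {t | cell d l t = cell d l s}

/-- The law of `n` independent standard Gaussian rows. -/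
noncomputable def rows (d n : ℕ) : Measure (Fin n → E d) :=
  Measure.pi fun _ => stdGaussian (E d)

/-- The labels of the signal `s` for the rows `x`. -/
noncomputable def obs {d n : ℕ} (x : Fin n → E d) (s : E d) : Fin n → ℝ := fun i => ⟪x i, s⟫

/-- Probability (over `n` fresh rows) that the block transition `F` leads to `k` when the signal
is `s`. -/
noncomputable def tr {d n : ℕ} {ι : Type*} (F : (Fin n → E d) → (Fin n → ℝ) → ι) (k : ι)
    (s : E d) : ℝ≥0∞ := rows d n {x | F x (obs x s) = k}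

/-- Level-`j` dyadic cube of `u` in `ℝⁿ`. -/
def cube (n j : ℕ) (u : Fin n → ℝ) : Set (Fin n → ℝ) :=
  {u' | ∀ i, ⌊(2 : ℝ) ^ j * u' i⌋ = ⌊(2 : ℝ) ^ j * u i⌋}

/-- One block: `w m` is the law of the signal on the event that the state is `m`; the result is
the same for the next state. -/
noncomputable def stepM {d n : ℕ} {ι : Type*} [Fintype ι]
    (F : ι → (Fin n → E d) → (Fin n → ℝ) → ι) (w : ι → Measure (E d)) (k : ι) : Measure (E d) :=
  ∑ m, (w m).withDensity (tr (F m) k)

/-- The sub-laws of the signal after `j` blocks of `n` rows. -/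
noncomputable def chain {d n : ℕ} {ι : Type*} [Fintype ι]
    (F : ℕ → ι → (Fin n → E d) → (Fin n → ℝ) → ι) (w₀ : ι → Measure (E d)) :
    ℕ → ι → Measure (E d)
  | 0 => w₀
  | j + 1 => stepM (F j) (chain F w₀ j)

/-- `max_{l ≤ L} f l 2^{bl}`. -/
noncomputable def phi (L b : ℕ) (f : ℕ → ℝ≥0∞) : ℝ≥0∞ :=
  (Finset.range (L + 1)).sup fun l => f l * 2 ^ (b * l)

instance (d n : ℕ) : IsProbabilityMeasure (rows d n) := by
  unfold rows; infer_instance

theorem measurable_cell (d l : ℕ) : Measurable (cell d l) := by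
  unfold cell
  refine measurable_pi_lambda _ fun i => ?_
  exact Int.measurable_floor.comp ((PiLp.continuous_apply 2 _ i).measurable.const_mul _)

theorem measurableSet_Q (d l : ℕ) (s : E d) : MeasurableSet (Q d l s) :=
  measurable_cell d l (measurableSet_singleton (cell d l s))

theorem self_mem_Q (d l : ℕ) (s : E d) : s ∈ Q d l s := rfl

theorem Q_eq_of_mem {d l : ℕ} {s t : E d} (h : t ∈ Q d l s) : Q d l t = Q d l s := by
  have h' : cell d l t = cell d l s := h
  simp only [Q, h']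

theorem cell_mono {d l' l : ℕ} (h : l' ≤ l) {s t : E d} (hst : cell d l t = cell d l s) :
    cell d l' t = cell d l' s := by
  obtain ⟨k, rfl⟩ := Nat.exists_eq_add_of_le h
  funext i
  have hi := congrFun hst i
  simp only [cell] at hi ⊢
  have key : ∀ x : ℝ, ⌊(2 : ℝ) ^ l' * Real.sqrt d * x⌋ =
      ⌊(2 : ℝ) ^ (l' + k) * Real.sqrt d * x⌋ / (2 ^ k : ℕ) := by
    intro x
    rw [← Int.floor_div_natCast]
    congr 1
    push_cast
    rw [pow_add]
    field_simp
  rw [key, key, hi]

theorem Q_anti {d l' l : ℕ} (h : l' ≤ l) (s : E d) : Q d l s ⊆ Q d l' s :=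
  fun _ ht => cell_mono h ht

theorem norm_sub_le_of_mem_Q {d l : ℕ} {s t : E d} (h : t ∈ Q d l s) :
    ‖t - s‖ ≤ (1 / 2) ^ l := by
  rcases Nat.eq_zero_or_pos d with rfl | hd
  · have : t - s = 0 := Subsingleton.elim _ _
    rw [this, norm_zero]; positivity
  have hd' : (0 : ℝ) < d := by exact_mod_cast hd
  have hs : 0 < Real.sqrt d := Real.sqrt_pos.2 hd'
  have hb : ∀ i, ((t - s) i) ^ 2 ≤ ((1 / 2) ^ l) ^ 2 / d := by
    intro i
    have h1 : |(2 : ℝ) ^ l * Real.sqrt d * t i - (2 : ℝ) ^ l * Real.sqrt d * s i| < 1 :=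
      Int.abs_sub_lt_one_of_floor_eq_floor (congrFun h i)
    have h2 : (2 : ℝ) ^ l * Real.sqrt d * t i - (2 : ℝ) ^ l * Real.sqrt d * s i =
        (2 : ℝ) ^ l * Real.sqrt d * (t - s) i := by
      simp only [PiLp.sub_apply]; ring
    rw [h2] at h1
    have h3 : ((2 : ℝ) ^ l * Real.sqrt d * (t - s) i) ^ 2 ≤ 1 := by
      rw [← sq_abs]; exact pow_le_one₀ (abs_nonneg _) h1.le
    have h4 : ((2 : ℝ) ^ l * Real.sqrt d * (t - s) i) ^ 2 =
        ((2 : ℝ) ^ l) ^ 2 * d * ((t - s) i) ^ 2 := by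
      rw [mul_pow, mul_pow, Real.sq_sqrt hd'.le]
    rw [h4] at h3
    rw [le_div_iff₀ hd', one_div, inv_pow, inv_pow, ← one_div, le_div_iff₀ (by positivity)]
    linarith
  rw [EuclideanSpace.norm_eq]
  apply Real.sqrt_le_iff.2 ⟨by positivity, ?_⟩
  calc ∑ i, ‖(t - s) i‖ ^ 2 = ∑ i, ((t - s) i) ^ 2 := by
        simp only [Real.norm_eq_abs, sq_abs]
    _ ≤ ∑ _i : Fin d, ((1 / 2) ^ l) ^ 2 / (d : ℝ) := Finset.sum_le_sum fun i _ => hb i
    _ = ((1 / 2) ^ l) ^ 2 := by
        rw [Finset.sum_const, Finset.card_univ, Fintype.card_fin, nsmul_eq_mul]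
        field_simp

theorem measurable_obs_pair {d n : ℕ} :
    Measurable fun p : (Fin n → E d) × E d => obs p.1 p.2 := by
  unfold obs
  refine measurable_pi_lambda _ fun i => ?_
  exact ((measurable_pi_apply i).comp measurable_fst).inner measurable_snd

theorem measurable_obs {d n : ℕ} (x : Fin n → E d) : Measurable (obs x : E d → Fin n → ℝ) :=
  measurable_obs_pair.comp (measurable_const.prodMk measurable_id)

theorem measurable_tr {d n : ℕ} {ι : Type*} (F : (Fin n → E d) → (Fin n → ℝ) → ι) (k : ι)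
    (hF : MeasurableSet {p : (Fin n → E d) × (Fin n → ℝ) | F p.1 p.2 = k}) :
    Measurable (tr (d := d) F k) := by
  unfold tr
  have : MeasurableSet {q : E d × (Fin n → E d) | F q.2 (obs q.2 q.1) = k} :=
    (measurable_snd.prodMk (measurable_obs_pair.comp
      (measurable_snd.prodMk measurable_fst))) hF
  exact measurable_measure_prodMk_left this

theorem tr_le_one {d n : ℕ} {ι : Type*} (F : (Fin n → E d) → (Fin n → ℝ) → ι) (k : ι)
    (s : E d) : tr F k s ≤ 1 := prob_le_one

theorem sum_tr {d n : ℕ} {ι : Type*} [Fintype ι] (F : (Fin n → E d) → (Fin n → ℝ) → ι)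
    (hF : ∀ k, MeasurableSet {p : (Fin n → E d) × (Fin n → ℝ) | F p.1 p.2 = k}) (s : E d) :
    ∑ k, tr F k s = 1 := by
  classical
  unfold tr
  have hm : ∀ k, MeasurableSet {x : Fin n → E d | F x (obs x s) = k} := fun k =>
    (measurable_id.prodMk (measurable_obs_pair.comp
      (measurable_id.prodMk measurable_const))) (hF k)
  rw [← measure_biUnion_finset (fun i _ j _ hij => by
    refine Set.disjoint_left.2 fun x hx hx' => hij ?_
    simp only [Set.mem_ofPred_eq] at hx hx'
    rw [← hx, hx']) (fun k _ => hm k)]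
  have : (⋃ b ∈ Finset.univ, {x : Fin n → E d | F x (obs x s) = b}) = Set.univ := by
    ext x; simp
  rw [this, measure_univ]

end Vale.Agent.P309
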