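import Vale.Agent.P309.Base

open MeasureTheory ProbabilityTheory
open scoped RealInnerProductSpace ENNReal

namespace Vale.Agent.P309

section Blk

variable {d : ℕ} {ι : Type*}

/-- Composition of `n` one-sample transitions, the first one having index `t₀`. -/
def blk (g : ℕ → ι → E d → ℝ → ι) : (n : ℕ) → (t₀ : ℕ) → ι → (Fin n → E d) → (Fin n → ℝ) → ι
  | 0, _, m, _, _ => m
  | n + 1, t₀, m, x, y =>
    g (t₀ + n) (blk g n t₀ m (Fin.init x) (Fin.init y)) (x (Fin.last n)) (y (Fin.last n))

theorem measurable_init {α : Type*} [MeasurableSpace α] (n : ℕ) :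
    Measurable (fun x : Fin (n + 1) → α => (Fin.init x : Fin n → α)) :=
  measurable_pi_lambda _ fun i => measurable_pi_apply i.castSucc

variable [Fintype ι] [MeasurableSpace ι] [MeasurableSingletonClass ι]

theorem measurable_blk (g : ℕ → ι → E d → ℝ → ι)
    (hg : ∀ t l, Measurable fun p : E d × ℝ => g t l p.1 p.2) (n t₀ : ℕ) (m : ι) :
    Measurable fun p : (Fin n → E d) × (Fin n → ℝ) => blk g n t₀ m p.1 p.2 := by
  induction n with
  | zero => exact measurable_const
  | succ n ih =>
    have hG : Measurable fun q : ι × (E d × ℝ) => g (t₀ + n) q.1 q.2.1 q.2.2 :=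
      measurable_from_prod_countable_right fun l => hg (t₀ + n) l
    have hH : Measurable fun p : (Fin (n + 1) → E d) × (Fin (n + 1) → ℝ) =>
        ((blk g n t₀ m (Fin.init p.1) (Fin.init p.2), (p.1 (Fin.last n), p.2 (Fin.last n))) :
          ι × (E d × ℝ)) := by
      refine (ih.comp (((measurable_init n).comp measurable_fst).prodMk
        ((measurable_init n).comp measurable_snd))).prodMk ?_
      exact ((measurable_pi_apply _).comp measurable_fst).prodMk
        ((measurable_pi_apply _).comp measurable_snd)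
    exact hG.comp hH

theorem measurableSet_blk (g : ℕ → ι → E d → ℝ → ι)
    (hg : ∀ t l, Measurable fun p : E d × ℝ => g t l p.1 p.2) (n t₀ : ℕ) (m k : ι) :
    MeasurableSet {p : (Fin n → E d) × (Fin n → ℝ) | blk g n t₀ m p.1 p.2 = k} :=
  measurable_blk g hg n t₀ m (measurableSet_singleton k)

theorem measurable_blk_obs (g : ℕ → ι → E d → ℝ → ι)
    (hg : ∀ t l, Measurable fun p : E d × ℝ => g t l p.1 p.2) (n t₀ : ℕ) (m : ι) (s : E d) :
    Measurable fun x : Fin n → E d => blk g n t₀ m x (obs x s) :=
  (measurable_blk g hg n t₀ m).comp (measurable_id.prodMk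
    (measurable_obs_pair.comp (measurable_id.prodMk measurable_const)))

theorem measurable_step (g : ℕ → ι → E d → ℝ → ι)
    (hg : ∀ t l, Measurable fun p : E d × ℝ => g t l p.1 p.2) (t : ℕ) (l : ι) (s : E d) :
    Measurable fun x : E d => g t l x ⟪x, s⟫ :=
  (hg t l).comp (measurable_id.prodMk (measurable_id.inner measurable_const))

theorem tr_blk_zero [DecidableEq ι] (g : ℕ → ι → E d → ℝ → ι) (t₀ : ℕ) (m k : ι) (s : E d) :
    tr (blk g 0 t₀ m) k s = if m = k then 1 else 0 := by
  unfold tr
  simp only [blk]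
  split_ifs with h
  · simp [h]
  · simp [h]

theorem tr_blk_succ (g : ℕ → ι → E d → ℝ → ι)
    (hg : ∀ t l, Measurable fun p : E d × ℝ => g t l p.1 p.2) (n t₀ : ℕ) (m k : ι) (s : E d) :
    tr (blk g (n + 1) t₀ m) k s =
      ∑ l, tr (blk g n t₀ m) l s * stdGaussian (E d) {x | g (t₀ + n) l x ⟪x, s⟫ = k} := by
  classical
  have hmp := measurePreserving_piFinSuccAbove (fun _ : Fin (n + 1) => stdGaussian (E d))
    (Fin.last n)
  have hset : {x : Fin (n + 1) → E d | blk g (n + 1) t₀ m x (obs x s) = k} =
      (MeasurableEquiv.piFinSuccAbove (fun _ : Fin (n + 1) => E d) (Fin.last n)) ⁻¹'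
        (⋃ l ∈ (Finset.univ : Finset ι), {x : E d | g (t₀ + n) l x ⟪x, s⟫ = k} ×ˢ
          {x' : Fin n → E d | blk g n t₀ m x' (obs x' s) = l}) := by
    ext x
    simp only [Set.mem_ofPred_eq, Set.mem_preimage, Set.mem_iUnion, Set.mem_prod,
      Finset.mem_univ, exists_prop, true_and]
    have e1 : (MeasurableEquiv.piFinSuccAbove (fun _ : Fin (n + 1) => E d) (Fin.last n) x).1 =
        x (Fin.last n) := rfl
    have e2 : (MeasurableEquiv.piFinSuccAbove (fun _ : Fin (n + 1) => E d) (Fin.last n) x).2 =
        Fin.init x := by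
      funext i
      change x ((Fin.last n).succAbove i) = x i.castSucc
      rw [Fin.succAbove_last]
    rw [e1, e2]
    have e3 : blk g (n + 1) t₀ m x (obs x s) =
        g (t₀ + n) (blk g n t₀ m (Fin.init x) (obs (Fin.init x) s)) (x (Fin.last n))
          ⟪x (Fin.last n), s⟫ := rfl
    rw [e3]
    constructor
    · intro h
      exact ⟨_, h, rfl⟩
    · rintro ⟨l, h1, h2⟩
      rw [h2]; exact h1
  unfold tr rows
  rw [hset, hmp.measure_preimage_equiv, measure_biUnion_finset]
  · refine Finset.sum_congr rfl fun l _ => ?_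
    rw [Measure.prod_prod, mul_comm]
  · intro i _ j _ hij
    refine Set.disjoint_left.2 fun p hp hp' => hij ?_
    rw [← hp.2, ← hp'.2]
  · intro l _
    exact (measurable_step g hg _ l s (measurableSet_singleton k)).prod
      (measurable_blk_obs g hg n t₀ m s (measurableSet_singleton l))

theorem tr_blk_add (g : ℕ → ι → E d → ℝ → ι)
    (hg : ∀ t l, Measurable fun p : E d × ℝ => g t l p.1 p.2) (a b t₀ : ℕ) (m k : ι) (s : E d) :
    tr (blk g (a + b) t₀ m) k s =
      ∑ l, tr (blk g a t₀ m) l s * tr (blk g b (t₀ + a) l) k s := by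
  classical
  induction b generalizing k with
  | zero =>
    simp only [tr_blk_zero, mul_ite, mul_one, mul_zero, Finset.sum_ite_eq',
      Finset.mem_univ, if_true]
    rfl
  | succ b ih =>
    rw [← add_assoc, tr_blk_succ g hg]
    simp only [ih]
    simp only [tr_blk_succ g hg b]
    simp only [Finset.sum_mul, Finset.mul_sum]
    rw [Finset.sum_comm]
    refine Finset.sum_congr rfl fun l _ => Finset.sum_congr rfl fun r _ => ?_
    rw [mul_assoc, add_assoc]

theorem chain_blk [DecidableEq ι] (σ : Measure (E d)) (g : ℕ → ι → E d → ℝ → ι)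
    (hg : ∀ t l, Measurable fun p : E d × ℝ => g t l p.1 p.2) (n : ℕ) (k₀ : ι) (j : ℕ) (k : ι) :
    chain (fun j m => blk g n (n * j) m) (fun k => if k = k₀ then σ else 0) j k =
      σ.withDensity (tr (blk g (n * j) 0 k₀) k) := by
  induction j generalizing k with
  | zero =>
    have h0 : tr (blk g (n * 0) 0 k₀) k = fun _ => if k₀ = k then 1 else 0 := by
      funext s; exact tr_blk_zero g 0 k₀ k s
    rw [h0]
    simp only [chain]
    by_cases h : k = k₀
    · rw [if_pos h, if_pos h.symm]; simp
    · rw [if_neg h, if_neg (Ne.symm h)]; simp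
  | succ j ih =>
    have hm : ∀ a t₀ m k, Measurable (tr (blk g a t₀ m) k) := fun a t₀ m k =>
      measurable_tr _ _ (measurableSet_blk g hg a t₀ m k)
    simp only [chain, stepM, ih]
    ext S hS
    rw [Measure.finsetSum_apply, withDensity_apply _ hS]
    have e : ∀ s, tr (blk g (n * (j + 1)) 0 k₀) k s =
        ∑ m, tr (blk g (n * j) 0 k₀) m s * tr (blk g n (n * j) m) k s := by
      intro s
      have := tr_blk_add g hg (n * j) n 0 k₀ k s
      rw [zero_add] at this
      exact this
    simp only [e]
    have e3 : ∫⁻ s in S, ∑ m, tr (blk g (n * j) 0 k₀) m s * tr (blk g n (n * j) m) k s ∂σ =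
        ∑ m, ∫⁻ s in S, tr (blk g (n * j) 0 k₀) m s * tr (blk g n (n * j) m) k s ∂σ :=
      lintegral_finsetSum Finset.univ (fun m _ => (hm _ _ _ _).mul (hm _ _ _ _))
    rw [e3]
    refine Finset.sum_congr rfl fun m _ => ?_
    rw [← withDensity_mul _ (hm _ _ _ _) (hm _ _ _ _), withDensity_apply _ hS]
    rfl

end Blk

section Learner

variable {d K : ℕ} (L : Learner d K)

theorem measurable_run (t : ℕ) :
    Measurable fun z : L.Ω × E d × (Fin t → E d) => L.run z.1 z.2.1 t z.2.2 := by
  induction t with
  | zero =>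
    exact measurable_const.prodMk ((L.meas_init.comp measurable_fst).prodMk measurable_const)
  | succ t ih =>
    have hG : Measurable fun q : (ℕ × Fin K × Bool) × (L.Ω × E d × ℝ) =>
        (if q.1.2.2 then q.1 else (t + 1, L.next t q.2.1 q.1.2.1 q.2.2.1 q.2.2.2,
          L.stop t q.2.1 q.1.2.1 q.2.2.1 q.2.2.2) : ℕ × Fin K × Bool) := by
      refine measurable_from_prod_countable_right fun r => ?_
      by_cases h : r.2.2
      · simp only [h, if_true]; exact measurable_const
      · simp only [h]
        exact measurable_const.prodMk ((L.meas_next t r.2.1).prodMk (L.meas_stop t r.2.1))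
    have hx : Measurable fun z : L.Ω × E d × (Fin (t + 1) → E d) => z.2.2 (Fin.last t) :=
      (measurable_pi_apply _).comp (measurable_snd.comp measurable_snd)
    have hs : Measurable fun z : L.Ω × E d × (Fin (t + 1) → E d) => z.2.1 :=
      measurable_fst.comp measurable_snd
    have hH : Measurable fun z : L.Ω × E d × (Fin (t + 1) → E d) =>
        ((L.run z.1 z.2.1 t (Fin.init z.2.2),
          (z.1, z.2.2 (Fin.last t), ⟪z.2.2 (Fin.last t), z.2.1⟫)) :
          (ℕ × Fin K × Bool) × (L.Ω × E d × ℝ)) := by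
      refine (ih.comp (measurable_fst.prodMk (hs.prodMk
        ((measurable_init t).comp (measurable_snd.comp measurable_snd))))).prodMk ?_
      exact measurable_fst.prodMk (hx.prodMk (hx.inner hs))
    exact hG.comp hH

theorem measurable_output (T : ℕ) :
    Measurable fun z : L.Ω × E d × (Fin T → E d) => L.output T z.1 z.2.1 z.2.2 := by
  have hG : Measurable fun q : (ℕ × Fin K × Bool) × L.Ω => L.out q.1.1 q.2 q.1.2.1 :=
    measurable_from_prod_countable_right fun r => L.meas_out r.1 r.2.1
  exact hG.comp ((measurable_run L T).prodMk measurable_fst)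

/-- One sample of the deterministic learner obtained by fixing the randomness, on the finite state
space `Fin (T+1) × Fin K × Bool`. -/
noncomputable def gstep (T : ℕ) (ω : L.Ω) (t : ℕ) (m : Fin (T + 1) × Fin K × Bool) (x : E d)
    (y : ℝ) : Fin (T + 1) × Fin K × Bool :=
  if m.2.2 then m
  else if h : t < T then
    (⟨t + 1, Nat.succ_lt_succ h⟩, L.next t ω m.2.1 x y, L.stop t ω m.2.1 x y)
  else m

theorem measurable_gstep (T : ℕ) (ω : L.Ω) (t : ℕ) (m : Fin (T + 1) × Fin K × Bool) :
    Measurable fun p : E d × ℝ => gstep L T ω t m p.1 p.2 := by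
  unfold gstep
  by_cases h : m.2.2
  · simp only [h, if_true]; exact measurable_const
  · simp only [h]
    by_cases h' : t < T
    · simp only [h', dif_pos]
      have hw : Measurable fun p : E d × ℝ => ((ω, p.1, p.2) : L.Ω × E d × ℝ) :=
        measurable_const.prodMk (measurable_fst.prodMk measurable_snd)
      exact measurable_const.prodMk (((L.meas_next t m.2.1).comp hw).prodMk
        ((L.meas_stop t m.2.1).comp hw))
    · simp only [h', dif_neg, not_false_iff]; exact measurable_const

theorem run_eq (T : ℕ) (ω : L.Ω) (s : E d) (t : ℕ) (ht : t ≤ T) (x : Fin t → E d) :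
    L.run ω s t x = (((blk (gstep L T ω) t 0 (0, L.init ω, false) x (obs x s)).1 : ℕ),
      (blk (gstep L T ω) t 0 (0, L.init ω, false) x (obs x s)).2) := by
  induction t with
  | zero => rfl
  | succ t ih =>
    have ih' := ih (by omega) (Fin.init x)
    set b := blk (gstep L T ω) t 0 (0, L.init ω, false) (Fin.init x) (obs (Fin.init x) s) with hb
    have e : blk (gstep L T ω) (t + 1) 0 (0, L.init ω, false) x (obs x s) =
        gstep L T ω (0 + t) b (x (Fin.last t)) ⟪x (Fin.last t), s⟫ := rfl
    rw [e, zero_add]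
    have e2 : L.run ω s (t + 1) x =
        (if (L.run ω s t (Fin.init x)).2.2 then L.run ω s t (Fin.init x)
        else (t + 1, L.next t ω (L.run ω s t (Fin.init x)).2.1 (x (Fin.last t))
          ⟪x (Fin.last t), s⟫, L.stop t ω (L.run ω s t (Fin.init x)).2.1 (x (Fin.last t))
          ⟪x (Fin.last t), s⟫)) := rfl
    rw [e2, ih']
    unfold gstep
    by_cases h : b.2.2
    · simp only [h, if_true]
    · have h' : t < T := by omega
      simp only [h, h', dif_pos]
      rfl

theorem blk_const (T : ℕ) (ω : L.Ω) (c : ℕ) (m : Fin (T + 1) × Fin K × Bool)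
    (x : Fin c → E d) (y : Fin c → ℝ) : blk (gstep L T ω) c T m x y = m := by
  induction c with
  | zero => rfl
  | succ c ih =>
    have e : blk (gstep L T ω) (c + 1) T m x y =
        gstep L T ω (T + c) (blk (gstep L T ω) c T m (Fin.init x) (Fin.init y))
          (x (Fin.last c)) (y (Fin.last c)) := rfl
    rw [e, ih]
    unfold gstep
    have : ¬ (T + c < T) := by omega
    simp only [this, dif_neg, not_false_iff, ite_self]

theorem bridge {d K T : ℕ} (L : Learner d K) {ε : ℝ} (h : L.Succeeds T ε) (n B : ℕ)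
    (hn : T ≤ n * B) :
    ∃ (F : ℕ → (Fin (T + 1) × Fin K × Bool) → (Fin n → E d) → (Fin n → ℝ) →
        (Fin (T + 1) × Fin K × Bool)) (k₀ : Fin (T + 1) × Fin K × Bool)
      (z : (Fin (T + 1) × Fin K × Bool) → E d),
      (∀ j m k, MeasurableSet {p : (Fin n → E d) × (Fin n → ℝ) | F j m p.1 p.2 = k}) ∧
      (∀ k, ‖z k‖ = 1) ∧
      2 / 3 ≤ ∑ k, chain F (fun k => if k = k₀ then unifSphere d else 0) B k
        {s | Real.arccos ⟪z k, s⟫ ≤ ε} := by
  classical
  haveI : SFinite (unifSphere d) := by unfold unifSphere; infer_instance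
  have hA : MeasurableSet {z : L.Ω × E d × (Fin T → E d) |
      Real.arccos ⟪L.output T z.1 z.2.1 z.2.2, z.2.1⟫ ≤ ε} := by
    have h1 : Measurable fun z : L.Ω × E d × (Fin T → E d) =>
        Real.arccos ⟪L.output T z.1 z.2.1 z.2.2, z.2.1⟫ :=
      Real.continuous_arccos.measurable.comp
        ((measurable_output L T).inner (measurable_fst.comp measurable_snd))
    exact h1 measurableSet_Iic
  unfold Learner.Succeeds at h
  rw [Measure.prod_apply hA] at h
  set f : L.Ω → ℝ≥0∞ := fun ω => ((unifSphere d).prod (Measure.pi fun _ : Fin T =>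
    stdGaussian (E d))) (Prod.mk ω ⁻¹' {z : L.Ω × E d × (Fin T → E d) |
      Real.arccos ⟪L.output T z.1 z.2.1 z.2.2, z.2.1⟫ ≤ ε}) with hf
  obtain ⟨ω, hω⟩ : ∃ ω, 2 / 3 ≤ f ω := by
    by_contra hcon
    push Not at hcon
    have h2 : ∫⁻ ω, f ω ∂L.P < 2 / 3 := by
      have hlt : ∫⁻ ω, f ω ∂L.P < ∫⁻ _ω, (2 / 3 : ℝ≥0∞) ∂L.P := by
        have hfm : Measurable f := measurable_measure_prodMk_left hA
        have hfin : ∫⁻ ω, f ω ∂L.P ≠ ∞ := by
          refine ne_top_of_le_ne_top ?_ (lintegral_mono fun ω => (hcon ω).le)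
          simp only [lintegral_const, measure_univ, mul_one]
          exact ENNReal.div_ne_top (by norm_num) (by norm_num)
        refine lintegral_strict_mono (IsProbabilityMeasure.ne_zero L.P) aemeasurable_const hfin ?_
        exact Filter.Eventually.of_forall hcon
      simpa using hlt
    exact absurd h (not_le.2 h2)
  set g := gstep L T ω with hg
  set k₀ : Fin (T + 1) × Fin K × Bool := (0, L.init ω, false) with hk₀
  have hgm : ∀ t l, Measurable fun p : E d × ℝ => g t l p.1 p.2 := measurable_gstep L T ω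
  refine ⟨fun j m => blk g n (n * j) m, k₀, fun k => L.out k.1 ω k.2.1, ?_, ?_, ?_⟩
  · intro j m k
    exact measurableSet_blk g hgm n (n * j) m k
  · intro k
    exact L.norm_out _ _ _
  · refine hω.trans ?_
    have hsec : MeasurableSet (Prod.mk ω ⁻¹' {z : L.Ω × E d × (Fin T → E d) |
      Real.arccos ⟪L.output T z.1 z.2.1 z.2.2, z.2.1⟫ ≤ ε}) := measurable_prodMk_left hA
    have hAk : ∀ k : Fin (T + 1) × Fin K × Bool,
        MeasurableSet {s : E d | Real.arccos ⟪L.out k.1 ω k.2.1, s⟫ ≤ ε} := by
      intro k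
      have h1 : Measurable fun s : E d => Real.arccos ⟪L.out k.1 ω k.2.1, s⟫ :=
        Real.continuous_arccos.measurable.comp (measurable_const.inner measurable_id)
      exact h1 measurableSet_Iic
    simp only [hf]
    rw [Measure.prod_apply hsec]
    -- the density at time `n * B` equals the density at time `T`
    have htr : ∀ k s, tr (blk g (n * B) 0 k₀) k s = tr (blk g T 0 k₀) k s := by
      intro k s
      obtain ⟨c, hc⟩ := Nat.exists_eq_add_of_le hn
      rw [hc, tr_blk_add g hgm, zero_add]
      have : ∀ l, tr (blk g c T l) k s = if l = k then 1 else 0 := by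
        intro l
        unfold tr
        simp only [hg, blk_const]
        split_ifs with h
        · simp [h]
        · simp [h]
      simp only [this, mul_ite, mul_one, mul_zero, Finset.sum_ite_eq', Finset.mem_univ, if_true]
    have hchain : ∀ k, chain (fun j m => blk g n (n * j) m)
        (fun k => if k = k₀ then unifSphere d else 0) B k
        {s | Real.arccos ⟪L.out k.1 ω k.2.1, s⟫ ≤ ε} =
        ∫⁻ s, {s : E d | Real.arccos ⟪L.out k.1 ω k.2.1, s⟫ ≤ ε}.indicator
          (tr (blk g T 0 k₀) k) s ∂(unifSphere d) := by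
      intro k
      rw [chain_blk (unifSphere d) g hgm n k₀ B k, withDensity_apply _ (hAk k),
        lintegral_indicator (hAk k)]
      simp only [htr]
    simp only [hchain]
    rw [← lintegral_finsetSum]
    swap
    · intro k _
      exact (measurable_tr _ _ (measurableSet_blk g hgm T 0 k₀ k)).indicator (hAk k)
    refine lintegral_mono fun s => ?_
    have hsub : (Prod.mk s ⁻¹' (Prod.mk ω ⁻¹' {z : L.Ω × E d × (Fin T → E d) |
        Real.arccos ⟪L.output T z.1 z.2.1 z.2.2, z.2.1⟫ ≤ ε}) : Set (Fin T → E d)) ⊆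
        ⋃ k ∈ (Finset.univ : Finset (Fin (T + 1) × Fin K × Bool)),
          {x : Fin T → E d | blk g T 0 k₀ x (obs x s) = k ∧
            Real.arccos ⟪L.out k.1 ω k.2.1, s⟫ ≤ ε} := by
      intro x hx
      simp only [Set.mem_preimage, Set.mem_ofPred_eq] at hx
      refine Set.mem_biUnion (x := blk g T 0 k₀ x (obs x s)) (Finset.mem_coe.2
        (Finset.mem_univ _)) ⟨rfl, ?_⟩
      have := run_eq L T ω s T le_rfl x
      unfold Learner.output at hx
      rw [this] at hx
      exact hx
    refine (measure_mono hsub).trans ((measure_biUnion_finset_le _ _).trans ?_)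
    refine Finset.sum_le_sum fun k _ => ?_
    by_cases hk : Real.arccos ⟪L.out k.1 ω k.2.1, s⟫ ≤ ε
    · rw [Set.indicator_of_mem (show s ∈ {s : E d | Real.arccos ⟪L.out k.1 ω k.2.1, s⟫ ≤ ε}
        from hk)]
      unfold tr rows
      exact measure_mono fun x hx => hx.1
    · have : {x : Fin T → E d | blk g T 0 k₀ x (obs x s) = k ∧
            Real.arccos ⟪L.out k.1 ω k.2.1, s⟫ ≤ ε} = ∅ := by
        ext x; simp [hk]
      rw [this, measure_empty]
      exact zero_le

end Learner

end Vale.Agent.P309
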