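import Vale.Agent.P309.Base

open MeasureTheory ProbabilityTheory
open scoped RealInnerProductSpace ENNReal Pointwise

namespace Vale.Agent.P309

theorem toSphere_univ_ne_zero {d : ℕ} (hd : 1 ≤ d) :
    (volume : Measure (E d)).toSphere Set.univ ≠ 0 := by
  rw [Measure.toSphere_apply_univ]
  refine mul_ne_zero ?_ ?_
  · simp only [finrank_euclideanSpace, Fintype.card_fin, ne_eq, Nat.cast_eq_zero]
    omega
  · exact (Metric.measure_ball_pos _ _ one_pos).ne'

theorem toSphere_univ_ne_top (d : ℕ) :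
    (volume : Measure (E d)).toSphere Set.univ ≠ ∞ := measure_ne_top _ _

theorem unifSphere_prob (d : ℕ) (hd : 2 ≤ d) : IsProbabilityMeasure (unifSphere d) := by
  constructor
  rw [unifSphere, Measure.smul_apply, smul_eq_mul,
    Measure.map_apply measurable_subtype_coe MeasurableSet.univ, Set.preimage_univ]
  exact ENNReal.inv_mul_cancel (toSphere_univ_ne_zero (by omega)) (toSphere_univ_ne_top d)

theorem unifSphere_norm (d : ℕ) : unifSphere d {s | ‖s‖ ≠ 1} = 0 := by
  have hm : MeasurableSet {s : E d | ‖s‖ ≠ 1} :=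
    (measurable_norm (measurableSet_singleton (1 : ℝ))).compl
  rw [unifSphere, Measure.smul_apply, smul_eq_mul, Measure.map_apply measurable_subtype_coe hm]
  have : (Subtype.val ⁻¹' {s : E d | ‖s‖ ≠ 1} : Set (Metric.sphere (0 : E d) 1)) = ∅ := by
    ext x
    simp
  rw [this, measure_empty, mul_zero]

/-- The cone over the part of the unit sphere in `closedBall z ρ` is covered by balls of radius
`3ρ`. -/
theorem cone_subset {d : ℕ} (z : E d) {ρ : ℝ} (hρ : 0 < ρ) (hρ1 : ρ ≤ 1) (hz : ‖z‖ ≤ 2) :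
    (Set.Ioo (0 : ℝ) 1 • (Subtype.val '' {u : Metric.sphere (0 : E d) 1 | (u : E d) ∈
      Metric.closedBall z ρ}) : Set (E d)) ⊆
      ⋃ i ∈ Finset.range (⌊1 / ρ⌋₊ + 1), Metric.closedBall (((i : ℝ) * ρ) • z) (3 * ρ) := by
  rintro y ⟨r, ⟨hr0, hr1⟩, _, ⟨u, hu, rfl⟩, rfl⟩
  have hunorm : ‖(u : E d)‖ = 1 := by simp
  simp only [Set.mem_ofPred_eq, Metric.mem_closedBall, dist_eq_norm] at hu
  set i := ⌊r / ρ⌋₊ with hi
  have hi1 : (i : ℝ) * ρ ≤ r := by
    have := Nat.floor_le (div_nonneg hr0.le hρ.le)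
    rwa [le_div_iff₀ hρ] at this
  have hi2 : r ≤ (i : ℝ) * ρ + ρ := by
    have := (Nat.lt_floor_add_one (r / ρ)).le
    rw [div_le_iff₀ hρ] at this
    linarith
  refine Set.mem_biUnion (x := i) ?_ ?_
  · simp only [Finset.coe_range, Set.mem_Iio, Order.lt_add_one_iff]
    apply Nat.floor_le_floor
    gcongr
  · simp only [Metric.mem_closedBall, dist_eq_norm]
    have e : r • (u : E d) - ((i : ℝ) * ρ) • z = r • ((u : E d) - z) + (r - i * ρ) • z := by
      rw [smul_sub, sub_smul]; abel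
    rw [e]
    calc ‖r • ((u : E d) - z) + (r - i * ρ) • z‖
        ≤ ‖r • ((u : E d) - z)‖ + ‖(r - i * ρ) • z‖ := norm_add_le _ _
      _ = r * ‖(u : E d) - z‖ + (r - i * ρ) * ‖z‖ := by
          rw [norm_smul, norm_smul, Real.norm_eq_abs, Real.norm_eq_abs, abs_of_pos hr0,
            abs_of_nonneg (by linarith)]
      _ ≤ 1 * ρ + ρ * 2 := by
          gcongr
          linarith
      _ = 3 * ρ := by ring

theorem unifSphere_ball (d : ℕ) (hd : 2 ≤ d) (z : E d) {ρ : ℝ} (hρ : 0 < ρ) :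
    unifSphere d (Metric.closedBall z ρ) ≤ ENNReal.ofReal (2 * 3 ^ d * ρ ^ (d - 1)) := by
  haveI := unifSphere_prob d hd
  rcases lt_or_ge 1 ρ with h1 | h1
  · refine prob_le_one.trans ?_
    rw [← ENNReal.ofReal_one]
    apply ENNReal.ofReal_le_ofReal
    have h3 : (1 : ℝ) ≤ 3 ^ d := one_le_pow₀ (by norm_num)
    have h4 : (1 : ℝ) ≤ ρ ^ (d - 1) := one_le_pow₀ h1.le
    nlinarith
  have hm : MeasurableSet {u : Metric.sphere (0 : E d) 1 | (u : E d) ∈ Metric.closedBall z ρ} :=
    measurable_subtype_coe measurableSet_closedBall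
  rcases Set.eq_empty_or_nonempty
    {u : Metric.sphere (0 : E d) 1 | (u : E d) ∈ Metric.closedBall z ρ} with he | ⟨u₀, hu₀⟩
  · rw [unifSphere, Measure.smul_apply, smul_eq_mul,
      Measure.map_apply measurable_subtype_coe measurableSet_closedBall]
    have : (Subtype.val ⁻¹' Metric.closedBall z ρ : Set (Metric.sphere (0 : E d) 1)) = ∅ := he
    rw [this, measure_empty, mul_zero]
    exact zero_le
  have hz : ‖z‖ ≤ 2 := by
    have h2 : ‖(u₀ : E d)‖ = 1 := by simp
    have h3 : dist (u₀ : E d) z ≤ ρ := hu₀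
    calc ‖z‖ = ‖(u₀ : E d) - ((u₀ : E d) - z)‖ := by congr 1; abel
      _ ≤ ‖(u₀ : E d)‖ + ‖(u₀ : E d) - z‖ := norm_sub_le _ _
      _ ≤ 1 + ρ := by rw [h2, ← dist_eq_norm]; gcongr
      _ ≤ 2 := by linarith
  set V := (volume : Measure (E d)) (Metric.ball 0 1) with hV
  have hV0 : V ≠ 0 := (Metric.measure_ball_pos _ _ one_pos).ne'
  have hVt : V ≠ ∞ := measure_ball_lt_top.ne
  have hdim : Module.finrank ℝ (E d) = d := by simp
  -- volume of the cone
  have hcone : (volume : Measure (E d)) (Set.Ioo (0 : ℝ) 1 • (Subtype.val ''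
      {u : Metric.sphere (0 : E d) 1 | (u : E d) ∈ Metric.closedBall z ρ})) ≤
      ENNReal.ofReal (2 * 3 ^ d * ρ ^ (d - 1)) * V := by
    calc _ ≤ (volume : Measure (E d)) (⋃ i ∈ Finset.range (⌊1 / ρ⌋₊ + 1),
          Metric.closedBall (((i : ℝ) * ρ) • z) (3 * ρ)) := measure_mono (cone_subset z hρ h1 hz)
      _ ≤ ∑ i ∈ Finset.range (⌊1 / ρ⌋₊ + 1),
          (volume : Measure (E d)) (Metric.closedBall (((i : ℝ) * ρ) • z) (3 * ρ)) :=
          measure_biUnion_finset_le _ _
      _ = ∑ i ∈ Finset.range (⌊1 / ρ⌋₊ + 1), ENNReal.ofReal ((3 * ρ) ^ d) * V := by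
          refine Finset.sum_congr rfl fun i _ => ?_
          rw [Measure.addHaar_closedBall _ _ (by positivity), hdim]
      _ = (⌊1 / ρ⌋₊ + 1 : ℕ) * (ENNReal.ofReal ((3 * ρ) ^ d) * V) := by
          rw [Finset.sum_const, Finset.card_range, nsmul_eq_mul]
      _ ≤ ENNReal.ofReal (2 / ρ) * (ENNReal.ofReal ((3 * ρ) ^ d) * V) := by
          gcongr
          rw [← ENNReal.ofReal_natCast]
          apply ENNReal.ofReal_le_ofReal
          push_cast
          have := Nat.floor_le (div_nonneg zero_le_one hρ.le)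
          have h5 : 1 ≤ 1 / ρ := by rw [le_div_iff₀ hρ]; linarith
          have h6 : 2 / ρ = 1 / ρ + 1 / ρ := by ring
          linarith
      _ = ENNReal.ofReal (2 * 3 ^ d * ρ ^ (d - 1)) * V := by
          rw [← mul_assoc, ← ENNReal.ofReal_mul (by positivity)]
          congr 2
          obtain ⟨e, rfl⟩ : ∃ e, d = e + 1 := ⟨d - 1, by omega⟩
          simp only [add_tsub_cancel_right]
          field_simp
          ring
  rw [unifSphere, Measure.smul_apply, smul_eq_mul,
    Measure.map_apply measurable_subtype_coe measurableSet_closedBall, ← ENNReal.div_eq_inv_mul]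
  apply ENNReal.div_le_of_le_mul
  have e1 : (volume : Measure (E d)).toSphere (Subtype.val ⁻¹' Metric.closedBall z ρ) =
      d * (volume : Measure (E d)) (Set.Ioo (0 : ℝ) 1 • (Subtype.val ''
      {u : Metric.sphere (0 : E d) 1 | (u : E d) ∈ Metric.closedBall z ρ})) := by
    have := Measure.toSphere_apply' (volume : Measure (E d)) hm
    rw [hdim] at this
    exact this
  rw [e1, Measure.toSphere_apply_univ, hdim]
  calc (d : ℝ≥0∞) * _ ≤ d * (ENNReal.ofReal (2 * 3 ^ d * ρ ^ (d - 1)) * V) := by gcongr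
    _ = ENNReal.ofReal (2 * 3 ^ d * ρ ^ (d - 1)) * (d * V) := by ring

end Vale.Agent.P309
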