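import Vale.Agent.P309.Step
import Vale.Agent.P309.Sphere

open MeasureTheory ProbabilityTheory
open scoped RealInnerProductSpace ENNReal

namespace Vale.Agent.P309

/-- error of one block -/
noncomputable def err (d D L g z t N : ℕ) : ℝ≥0∞ :=
  (L + 1) ^ 2 * (2 * 2⁻¹ ^ z) + (L + 1) ^ 2 * (2 * 2⁻¹ ^ D + N * (2⁻¹ ^ g * 2 ^ (1626 * D)) ^ D) +
    N * (2 ^ (25 * d) * 2⁻¹ ^ t)

theorem sum_chain {d D : ℕ} {ι : Type*} [Fintype ι] (w₀ : ι → Measure (E d))
    (F : ℕ → ι → (Fin D → E d) → (Fin D → ℝ) → ι)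
    (hF : ∀ j m k, MeasurableSet {p : (Fin D → E d) × (Fin D → ℝ) | F j m p.1 p.2 = k}) (B : ℕ) :
    ∑ k, chain F w₀ B k = ∑ k, w₀ k := by
  induction B with
  | zero => rfl
  | succ B ih => rw [← ih]; exact sum_stepM _ _ (hF B)

theorem bad_chain {d D L : ℕ} (hd : 0 < d) (hD : 0 < D) (hdD : d ≤ 127 * D) {ι : Type*}
    [Fintype ι] (w₀ : ι → Measure (E d)) (U : Measure (E d)) (hU : ∑ m, w₀ m = U)
    (hU1 : U Set.univ ≤ 1) (hUs : U {s | 1 < ‖s‖} = 0) (t : ℕ)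
    (hdom : ∀ l, L < l → ∀ s, U (Q d l s) ≤ 2⁻¹ ^ t * 2⁻¹ ^ (8 * D * l))
    (F : ℕ → ι → (Fin D → E d) → (Fin D → ℝ) → ι)
    (hF : ∀ j m k, MeasurableSet {p : (Fin D → E d) × (Fin D → ℝ) | F j m p.1 p.2 = k})
    (g z : ℕ) (V : ℝ≥0∞) (B : ℕ) :
    bad L D (V * (2 ^ z * max (2 ^ (2 * g)) (2 ^ z)) ^ B) (chain F w₀ B) ≤
      bad L D V w₀ + B * err d D L g z t (Fintype.card ι) := by
  induction B with
  | zero => simp [chain]
  | succ B ih =>
    have h1 := block_step hd hD hdD (chain F w₀ B) U ((sum_chain w₀ F hF B).trans hU) hU1 hUs t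
      hdom (F B) (hF B) g z (V * (2 ^ z * max (2 ^ (2 * g)) (2 ^ z)) ^ B)
    have h2 : V * (2 ^ z * max (2 ^ (2 * g)) (2 ^ z)) ^ (B + 1) =
        V * (2 ^ z * max (2 ^ (2 * g)) (2 ^ z)) ^ B * (2 ^ z * max (2 ^ (2 * g)) (2 ^ z)) := by
      rw [pow_succ]; ring
    rw [h2]
    refine h1.trans ?_
    calc bad L D (V * (2 ^ z * max (2 ^ (2 * g)) (2 ^ z)) ^ B) (chain F w₀ B) +
          err d D L g z t (Fintype.card ι)
        ≤ bad L D V w₀ + B * err d D L g z t (Fintype.card ι) +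
          err d D L g z t (Fintype.card ι) := by gcongr
      _ = bad L D V w₀ + ((B + 1 : ℕ) : ℝ≥0∞) * err d D L g z t (Fintype.card ι) := by
          push_cast; ring

/-- Start of the potential. -/
theorem bad_start {d D L : ℕ} (hd : 0 < d) (hDd : 16 * D ≤ d - 1) {ι : Type*} [Fintype ι]
    [DecidableEq ι] (U : Measure (E d)) (hUs : U {s | 1 < ‖s‖} = 0)
    (hUQ : ∀ l s, U (Q d l s) ≤ 2 ^ (25 * d) * 2⁻¹ ^ ((d - 1) * l)) (k₀ : ι) :
    bad L D (2 ^ (50 * d + D)) (fun k => if k = k₀ then U else 0) ≤ 2⁻¹ ^ D := by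
  have hinv : ∀ n : ℕ, (2⁻¹ : ℝ≥0∞) ^ n * 2 ^ n = 1 := fun n => by
    rw [← mul_pow, ENNReal.inv_mul_cancel two_ne_zero ENNReal.ofNat_ne_top, one_pow]
  unfold bad
  rw [Finset.sum_eq_single k₀ (fun k _ hk => by simp [hk]) (fun h => absurd (Finset.mem_univ _) h)]
  simp only [if_true]
  have hsub : {s : E d | 2 ^ (50 * d + D) * phi L (8 * D) (mass U s) <
      phi L (16 * D) (mass U s)} ⊆ {s | mass U s 0 < 2⁻¹ ^ (25 * d + D)} := by
    intro s hs
    by_contra hc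
    have hc' : 2⁻¹ ^ (25 * d + D) ≤ mass U s 0 := not_lt.1 hc
    simp only [Set.mem_ofPred_eq] at hs
    refine absurd hs (not_lt.2 ?_)
    obtain ⟨l, hl, hphi⟩ := exists_phi_eq L (16 * D) (mass U s)
    rw [hphi]
    calc mass U s l * 2 ^ (16 * D * l)
        ≤ 2 ^ (25 * d) * 2⁻¹ ^ ((d - 1) * l) * 2 ^ ((d - 1) * l) := by
          gcongr
          · exact hUQ l s
          · exact one_le_two
      _ = 2 ^ (25 * d) := by rw [mul_assoc, hinv, mul_one]
      _ = 2 ^ (50 * d + D) * 2⁻¹ ^ (25 * d + D) := by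
          have : 50 * d + D = 25 * d + (25 * d + D) := by ring
          rw [this, pow_add (2 : ℝ≥0∞) (25 * d) (25 * d + D), mul_assoc,
            mul_comm ((2 : ℝ≥0∞) ^ (25 * d + D)), hinv, mul_one]
      _ ≤ 2 ^ (50 * d + D) * phi L (8 * D) (mass U s) := by
          gcongr
          refine hc'.trans ?_
          have := le_phi (L := L) (b := 8 * D) (mass U s) (Nat.zero_le L)
          simpa using this
  refine (measure_mono hsub).trans ((small_cell hd U hUs _).trans ?_)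
  rw [pow_add (2⁻¹ : ℝ≥0∞), ← mul_assoc, mul_comm ((2 : ℝ≥0∞) ^ (25 * d)), hinv, one_mul]

/-- Deterministic part of the end game. -/
theorem end_det {L D l : ℕ} (hl : l ≤ L) (α : ℕ → ℝ≥0∞) (M θ V : ℝ≥0∞) (hM0 : M ≠ 0)
    (hM : M ≠ ∞) (hθ0 : θ ≠ 0) (hθ : θ ≤ 1) (hα : ∀ j, α j ≤ M) (hαl : θ * M ≤ α l)
    (hmono : α l ≤ α 0)
    (hV : phi L (16 * D) α ≤ V * phi L (8 * D) α) : θ * 2 ^ (4 * D * l) ≤ V := by
  obtain ⟨s, hs, hphi⟩ := exists_phi_eq L (8 * D) α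
  have hα0 : α 0 ≠ 0 := by
    intro h0
    rw [h0] at hmono
    have := hαl.trans hmono
    simp only [nonpos_iff_eq_zero, mul_eq_zero] at this
    tauto
  have hne : phi L (8 * D) α ≠ 0 := phi_ne_zero hα0
  have hnt : phi L (8 * D) α ≠ ∞ := phi_ne_top fun j => ne_top_of_le_ne_top hM (hα j)
  rcases le_or_gt l (2 * s) with hle | hgt
  · have h1 : phi L (8 * D) α * 2 ^ (8 * D * s) ≤ phi L (8 * D) α * V := by
      calc phi L (8 * D) α * 2 ^ (8 * D * s) = α s * 2 ^ (16 * D * s) := by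
            rw [hphi, mul_assoc, ← pow_add]; congr 2; ring
        _ ≤ phi L (16 * D) α := le_phi α hs
        _ ≤ V * phi L (8 * D) α := hV
        _ = phi L (8 * D) α * V := mul_comm _ _
    have h2 : (2 : ℝ≥0∞) ^ (8 * D * s) ≤ V := (ENNReal.mul_le_mul_iff_right hne hnt).1 h1
    have h3 : 4 * D * l ≤ 8 * D * s := by nlinarith
    calc θ * 2 ^ (4 * D * l) ≤ 1 * 2 ^ (8 * D * s) :=
          mul_le_mul' hθ (pow_le_pow_right₀ one_le_two h3)
      _ = 2 ^ (8 * D * s) := one_mul _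
      _ ≤ V := h2
  · have h1 : (M * 2 ^ (4 * D * l)) * (θ * 2 ^ (4 * D * l)) ≤ (M * 2 ^ (4 * D * l)) * V := by
      calc (M * 2 ^ (4 * D * l)) * (θ * 2 ^ (4 * D * l))
          = (θ * M) * (2 ^ (4 * D * l + 4 * D * l)) := by rw [pow_add]; ring
        _ ≤ α l * 2 ^ (16 * D * l) :=
            mul_le_mul' hαl (pow_le_pow_right₀ one_le_two (by nlinarith))
        _ ≤ phi L (16 * D) α := le_phi α hl
        _ ≤ V * phi L (8 * D) α := hV
        _ = V * (α s * 2 ^ (8 * D * s)) := by rw [hphi]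
        _ ≤ V * (M * 2 ^ (4 * D * l)) :=
            mul_le_mul' le_rfl (mul_le_mul' (hα s)
              (pow_le_pow_right₀ one_le_two (by nlinarith)))
        _ = (M * 2 ^ (4 * D * l)) * V := mul_comm _ _
    exact (ENNReal.mul_le_mul_iff_right (mul_ne_zero hM0 (pow_ne_zero _ two_ne_zero))
      (ENNReal.mul_ne_top hM (ENNReal.pow_ne_top ENNReal.ofNat_ne_top))).1 h1

/-- End game. -/
theorem end_game {d D L l : ℕ} (hd : 0 < d) (hl : l ≤ L) {ι : Type*} [Fintype ι]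
    (w : ι → Measure (E d)) (hw : ∑ k, w k Set.univ ≤ 1) (z : ι → E d) (V : ℝ≥0∞)
    (hV : V < 2⁻¹ ^ (25 * d + D) * 2 ^ (4 * D * l)) :
    ∑ k, w k (Metric.closedBall (z k) ((1 / 2) ^ l)) ≤ 2⁻¹ ^ D + bad L D V w := by
  have hinv : ∀ n : ℕ, (2⁻¹ : ℝ≥0∞) ^ n * 2 ^ n = 1 := fun n => by
    rw [← mul_pow, ENNReal.inv_mul_cancel two_ne_zero ENNReal.ofNat_ne_top, one_pow]
  have hwk : ∀ k, w k Set.univ ≤ 1 := fun k =>
    (Finset.single_le_sum (f := fun k => w k Set.univ) (fun _ _ => bot_le)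
      (Finset.mem_univ k)).trans hw
  have key : ∀ k, w k (Metric.closedBall (z k) ((1 / 2) ^ l)) ≤
      2⁻¹ ^ D * w k Set.univ +
        w k {s | V * phi L (8 * D) (mass (w k) s) < phi L (16 * D) (mass (w k) s)} := by
    intro k
    by_cases h0 : w k Set.univ = 0
    · rw [measure_mono_null (Set.subset_univ _) h0]; exact bot_le
    obtain ⟨S, hS, hS'⟩ := count_ball d l hd (z k)
    set θ : ℝ≥0∞ := 2⁻¹ ^ (25 * d + D) with hθ
    have hsub : Metric.closedBall (z k) ((1 / 2) ^ l) ⊆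
        (⋃ c ∈ S, ({s | mass (w k) s l < θ * w k Set.univ} ∩ cell d l ⁻¹' {c})) ∪
        {s | V * phi L (8 * D) (mass (w k) s) < phi L (16 * D) (mass (w k) s)} := by
      intro s hs
      by_contra hcon
      simp only [Set.mem_union, not_or, Set.mem_iUnion, not_exists] at hcon
      obtain ⟨h1, h2⟩ := hcon
      have hcS : cell d l s ∈ S := by
        refine hS' s ?_
        rw [← dist_eq_norm]
        refine (Metric.mem_closedBall.1 hs).trans ?_
        have : (0 : ℝ) < (1 / 2) ^ l := by positivity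
        linarith
      have h3 : θ * w k Set.univ ≤ mass (w k) s l := by
        by_contra hc
        exact h1 (cell d l s) hcS ⟨not_le.1 hc, rfl⟩
      have h4 := end_det (D := D) hl (mass (w k) s) (w k Set.univ) θ V h0
        (ne_top_of_le_ne_top ENNReal.one_ne_top (hwk k))
        (by rw [hθ]; exact pow_ne_zero _ (ENNReal.inv_ne_zero.2 ENNReal.ofNat_ne_top))
        (by rw [hθ]; exact pow_le_one₀ bot_le (ENNReal.inv_le_one.2 one_le_two))
        (fun j => measure_mono (Set.subset_univ _)) h3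
        (measure_mono (Q_anti (Nat.zero_le l) s)) (not_lt.1 h2)
      exact absurd h4 (not_le.2 hV)
    refine (measure_mono hsub).trans ((measure_union_le _ _).trans (add_le_add ?_ le_rfl))
    calc w k (⋃ c ∈ S, ({s | mass (w k) s l < θ * w k Set.univ} ∩ cell d l ⁻¹' {c}))
        ≤ ∑ c ∈ S, w k ({s | mass (w k) s l < θ * w k Set.univ} ∩ cell d l ⁻¹' {c}) :=
          measure_biUnion_finset_le _ _
      _ ≤ ∑ _c ∈ S, θ * w k Set.univ := by
          refine Finset.sum_le_sum fun c _ => ?_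
          rcases Set.eq_empty_or_nonempty ({s | mass (w k) s l < θ * w k Set.univ} ∩
            cell d l ⁻¹' {c}) with he | ⟨s, hs, hc⟩
          · rw [he]; simp
          · refine le_trans (measure_mono (t := Q d l s) ?_) (le_of_lt hs)
            rintro x ⟨_, hx⟩
            have h1 : cell d l x = c := hx
            have h2 : cell d l s = c := hc
            exact h1.trans h2.symm
      _ = S.card * (θ * w k Set.univ) := by rw [Finset.sum_const, nsmul_eq_mul]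
      _ ≤ 2 ^ (25 * d) * (θ * w k Set.univ) := by
          gcongr
          exact_mod_cast hS
      _ = 2⁻¹ ^ D * w k Set.univ := by
          rw [hθ, pow_add (2⁻¹ : ℝ≥0∞)]
          calc (2 : ℝ≥0∞) ^ (25 * d) * (2⁻¹ ^ (25 * d) * 2⁻¹ ^ D * w k Set.univ)
              = (2⁻¹ ^ (25 * d) * 2 ^ (25 * d)) * (2⁻¹ ^ D * w k Set.univ) := by ring
            _ = _ := by rw [hinv, one_mul]
  calc ∑ k, w k (Metric.closedBall (z k) ((1 / 2) ^ l))
      ≤ ∑ k, (2⁻¹ ^ D * w k Set.univ +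
        w k {s | V * phi L (8 * D) (mass (w k) s) < phi L (16 * D) (mass (w k) s)}) :=
        Finset.sum_le_sum fun k _ => key k
    _ = 2⁻¹ ^ D * ∑ k, w k Set.univ + bad L D V w := by
        rw [Finset.sum_add_distrib, Finset.mul_sum]; rfl
    _ ≤ 2⁻¹ ^ D * 1 + bad L D V w := by gcongr
    _ = _ := by rw [mul_one]

theorem unifSphere_Q (d : ℕ) (hd : 2 ≤ d) (l : ℕ) (s : E d) :
    unifSphere d (Q d l s) ≤ 2 ^ (25 * d) * 2⁻¹ ^ ((d - 1) * l) := by
  have h1 : Q d l s ⊆ Metric.closedBall s ((1 / 2) ^ l) := fun t ht => by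
    rw [Metric.mem_closedBall, dist_eq_norm]
    exact norm_sub_le_of_mem_Q ht
  refine (measure_mono h1).trans ((unifSphere_ball d hd s (by positivity)).trans ?_)
  have h2 : (2 : ℝ≥0∞) ^ (25 * d) * 2⁻¹ ^ ((d - 1) * l) =
      ENNReal.ofReal (2 ^ (25 * d) * ((1 / 2) ^ ((d - 1) * l))) := by
    rw [ENNReal.ofReal_mul (by positivity), ENNReal.ofReal_pow (by norm_num),
      ENNReal.ofReal_pow (by norm_num), one_div, ENNReal.ofReal_inv_of_pos (by norm_num)]
    norm_num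
  rw [h2]
  refine ENNReal.ofReal_le_ofReal ?_
  have h3 : ((1 / 2 : ℝ) ^ l) ^ (d - 1) = (1 / 2) ^ ((d - 1) * l) := by
    rw [← pow_mul, mul_comm]
  rw [h3]
  gcongr
  calc (2 : ℝ) * 3 ^ d ≤ 4 ^ d * 4 ^ d := by
        gcongr
        · calc (2 : ℝ) ≤ 4 ^ 1 := by norm_num
            _ ≤ 4 ^ d := pow_le_pow_right₀ (by norm_num) (by omega)
        · norm_num
    _ = 2 ^ (4 * d) := by rw [← mul_pow, pow_mul]; norm_num
    _ ≤ 2 ^ (25 * d) := pow_le_pow_right₀ (by norm_num) (by omega)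

theorem core {d D L l B g z t : ℕ} (hd : 2 ≤ d) (hD : 0 < D) (hdD : d ≤ 127 * D)
    (hDd : 16 * D ≤ d - 1) (hl : l ≤ L)
    (hL : ∀ l, L < l → 25 * d + t + 8 * D * l ≤ (d - 1) * l) {ι : Type*} [Fintype ι]
    [DecidableEq ι]
    (F : ℕ → ι → (Fin D → E d) → (Fin D → ℝ) → ι)
    (hF : ∀ j m k, MeasurableSet {p : (Fin D → E d) × (Fin D → ℝ) | F j m p.1 p.2 = k})
    (k₀ : ι) (y : ι → E d)
    (hsmall : 2 * 2⁻¹ ^ D + B * err d D L g z t (Fintype.card ι) < 2 / 3)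
    (h : 2 / 3 ≤ ∑ k, chain F (fun k => if k = k₀ then unifSphere d else 0) B k
        (Metric.closedBall (y k) ((1 / 2) ^ l))) :
    4 * D * l ≤ 75 * d + 2 * D + (z + max (2 * g) z) * B := by
  have hprob := unifSphere_prob d hd
  set w₀ : ι → Measure (E d) := fun k => if k = k₀ then unifSphere d else 0 with hw₀
  have hsum : ∑ k, w₀ k = unifSphere d := by
    rw [hw₀, Finset.sum_ite_eq' Finset.univ k₀ (fun _ => unifSphere d)]
    simp
  have hinv : ∀ n : ℕ, (2⁻¹ : ℝ≥0∞) ^ n * 2 ^ n = 1 := fun n => by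
    rw [← mul_pow, ENNReal.inv_mul_cancel two_ne_zero ENNReal.ofNat_ne_top, one_pow]
  have hUs : unifSphere d {s | 1 < ‖s‖} = 0 := by
    refine measure_mono_null ?_ (unifSphere_norm d)
    intro s hs
    exact ne_of_gt hs
  have hUQ := unifSphere_Q d hd
  have hdom : ∀ l, L < l → ∀ s, unifSphere d (Q d l s) ≤ 2⁻¹ ^ t * 2⁻¹ ^ (8 * D * l) := by
    intro l hl s
    refine (hUQ l s).trans ?_
    obtain ⟨c, hc⟩ := Nat.exists_eq_add_of_le (hL l hl)
    have h1 : (2 : ℝ≥0∞) ^ (25 * d) * 2⁻¹ ^ ((d - 1) * l) =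
        (2⁻¹ ^ (25 * d) * 2 ^ (25 * d)) * (2⁻¹ ^ t * 2⁻¹ ^ (8 * D * l) * 2⁻¹ ^ c) := by
      rw [hc, pow_add, pow_add, pow_add]; ring
    rw [h1, hinv, one_mul]
    calc (2⁻¹ : ℝ≥0∞) ^ t * 2⁻¹ ^ (8 * D * l) * 2⁻¹ ^ c ≤ 2⁻¹ ^ t * 2⁻¹ ^ (8 * D * l) * 1 := by
          gcongr
          exact pow_le_one₀ bot_le (ENNReal.inv_le_one.2 one_le_two)
      _ = _ := mul_one _
  have hbad0 : bad L D (2 ^ (50 * d + D)) w₀ ≤ 2⁻¹ ^ D :=
    bad_start (by omega) hDd (unifSphere d) hUs hUQ k₀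
  have hbad := bad_chain (by omega) hD hdD w₀ (unifSphere d) hsum prob_le_one hUs t hdom F hF g z
    (2 ^ (50 * d + D)) B
  by_contra hcon
  push Not at hcon
  have hpow : (2 : ℝ≥0∞) ^ (50 * d + D) * (2 ^ z * max (2 ^ (2 * g)) (2 ^ z)) ^ B =
      2 ^ (50 * d + D + (z + max (2 * g) z) * B) := by
    have h1 : max ((2 : ℝ≥0∞) ^ (2 * g)) (2 ^ z) = 2 ^ max (2 * g) z := by
      rcases le_total (2 * g) z with hle | hle
      · rw [max_eq_right hle, max_eq_right (pow_le_pow_right₀ one_le_two hle)]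
      · rw [max_eq_left hle, max_eq_left (pow_le_pow_right₀ one_le_two hle)]
    rw [h1, ← pow_add, ← pow_mul, ← pow_add]
  rw [hpow] at hbad
  have hV : (2 : ℝ≥0∞) ^ (50 * d + D + (z + max (2 * g) z) * B) <
      2⁻¹ ^ (25 * d + D) * 2 ^ (4 * D * l) := by
    obtain ⟨c, hc⟩ := Nat.exists_eq_add_of_lt hcon
    have h1 : 4 * D * l = (25 * d + D) + (50 * d + D + (z + max (2 * g) z) * B + (c + 1)) := by
      rw [hc]; ring
    rw [h1, pow_add (2 : ℝ≥0∞) (25 * d + D), ← mul_assoc, hinv, one_mul,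
      pow_add (2 : ℝ≥0∞) _ (c + 1)]
    have h2 : (2 : ℝ≥0∞) ^ (50 * d + D + (z + max (2 * g) z) * B) ≠ ∞ :=
      ENNReal.pow_ne_top ENNReal.ofNat_ne_top
    have h3 : (2 : ℝ≥0∞) ^ (50 * d + D + (z + max (2 * g) z) * B) ≠ 0 :=
      pow_ne_zero _ two_ne_zero
    calc (2 : ℝ≥0∞) ^ (50 * d + D + (z + max (2 * g) z) * B)
        = 2 ^ (50 * d + D + (z + max (2 * g) z) * B) * 1 := (mul_one _).symm
      _ < 2 ^ (50 * d + D + (z + max (2 * g) z) * B) * 2 ^ (c + 1) :=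
          ENNReal.mul_lt_mul_right h3 h2 (one_lt_pow₀ ENNReal.one_lt_two (by omega))
  have hwtot : ∑ k, chain F w₀ B k Set.univ ≤ 1 := by
    rw [← Measure.finsetSum_apply, sum_chain w₀ F hF B, hsum]
    exact prob_le_one
  have hend := end_game (by omega) hl (chain F w₀ B) hwtot y _ hV
  have : (2 / 3 : ℝ≥0∞) ≤ 2 * 2⁻¹ ^ D + B * err d D L g z t (Fintype.card ι) := by
    calc (2 / 3 : ℝ≥0∞) ≤ _ := h
      _ ≤ _ := hend
      _ ≤ 2⁻¹ ^ D + (2⁻¹ ^ D + B * err d D L g z t (Fintype.card ι)) := by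
          gcongr
          refine hbad.trans ?_
          gcongr
      _ = _ := by ring
  exact absurd hsmall (not_lt.2 this)

end Vale.Agent.P309
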