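import Vale.Agent.P309.Base

/-! P309 piece [F] (helper15): volume of an `ℓ²` window in `ℝⁿ` and the Gaussian probability that
the labels of a short vector leave it. -/

open MeasureTheory ProbabilityTheory
open scoped RealInnerProductSpace ENNReal

namespace Vale.Agent.P309

/-- Tonelli for products over `Fin n`. -/
theorem lintegral_pi_prod {X : Type*} [MeasurableSpace X] (μ : Measure X) [SigmaFinite μ] :
    ∀ (n : ℕ) (f : Fin n → X → ℝ≥0∞), (∀ i, Measurable (f i)) →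
      ∫⁻ x : Fin n → X, ∏ i, f i (x i) ∂(Measure.pi fun _ => μ) = ∏ i, ∫⁻ x, f i x ∂μ := by
  intro n
  induction n with
  | zero =>
    intro f _
    rw [Measure.pi_of_empty]
    simp
  | succ n ih =>
    intro f hf
    have hmp := measurePreserving_piFinSuccAbove (fun _ : Fin (n + 1) => μ) 0
    have h1 : ∫⁻ x : Fin (n + 1) → X, ∏ i, f i (x i) ∂(Measure.pi fun _ => μ) =
        ∫⁻ y : X × (Fin n → X), f 0 y.1 * ∏ i : Fin n, f i.succ (y.2 i)
          ∂(μ.prod (Measure.pi fun _ => μ)) := by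
      rw [← hmp.lintegral_comp_emb (MeasurableEquiv.measurableEmbedding _)]
      refine lintegral_congr fun x => ?_
      rw [Fin.prod_univ_succ]
      rfl
    have hm : Measurable fun z : Fin n → X => ∏ i : Fin n, f i.succ (z i) :=
      Finset.measurable_prod _ fun i _ => (hf i.succ).comp (measurable_pi_apply i)
    rw [h1, lintegral_prod_mul (f := f 0) (g := fun z : Fin n → X => ∏ i : Fin n, f i.succ (z i))
      (hf 0).aemeasurable hm.aemeasurable, ih (fun i => f i.succ) fun i => hf i.succ,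
      Fin.prod_univ_succ]

theorem exp_sixteen_lt : Real.exp 16 < 2 ^ 24 := by
  have h := Real.exp_one_lt_d9
  have h1 : Real.exp 16 = Real.exp 1 ^ 16 := by
    rw [← Real.exp_nat_mul]; norm_num
  rw [h1]
  calc Real.exp 1 ^ 16 < 2.7182818286 ^ 16 :=
        pow_lt_pow_left₀ h (Real.exp_pos _).le (by norm_num)
    _ < 2 ^ 24 := by norm_num

theorem lintegral_gauss_window (c : ℝ) {ρ : ℝ} (hρ : 0 < ρ) :
    ∫⁻ u : ℝ, ENNReal.ofReal (Real.exp (16 - (u - c) ^ 2 / ρ ^ 2)) ≤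
      ENNReal.ofReal (2 ^ 25 * ρ) := by
  have hb : 0 < (ρ ^ 2)⁻¹ := by positivity
  have h1 : ∫⁻ u : ℝ, ENNReal.ofReal (Real.exp (16 - (u - c) ^ 2 / ρ ^ 2)) =
      ∫⁻ u : ℝ, ENNReal.ofReal (Real.exp (16 - u ^ 2 / ρ ^ 2)) :=
    lintegral_sub_right_eq_self
      (fun u : ℝ => ENNReal.ofReal (Real.exp (16 - u ^ 2 / ρ ^ 2))) c
  have h2 : ∀ u : ℝ, Real.exp (16 - u ^ 2 / ρ ^ 2) =
      Real.exp 16 * Real.exp (-(ρ ^ 2)⁻¹ * u ^ 2) := by
    intro u
    rw [← Real.exp_add]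
    congr 1
    rw [div_eq_mul_inv]
    ring
  have hint : Integrable fun u : ℝ => Real.exp 16 * Real.exp (-(ρ ^ 2)⁻¹ * u ^ 2) :=
    (integrable_exp_neg_mul_sq hb).const_mul _
  rw [h1]
  simp_rw [h2]
  rw [← ofReal_integral_eq_lintegral_ofReal hint
    (Filter.Eventually.of_forall fun u => by positivity), integral_const_mul, integral_gaussian]
  refine ENNReal.ofReal_le_ofReal ?_
  have h3 : Real.sqrt (Real.pi / (ρ ^ 2)⁻¹) = Real.sqrt Real.pi * ρ := by
    rw [div_inv_eq_mul, Real.sqrt_mul Real.pi_pos.le, Real.sqrt_sq hρ.le]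
  have h4 : Real.sqrt Real.pi ≤ 2 := by
    rw [Real.sqrt_le_left (by norm_num)]
    have := Real.pi_lt_four
    linarith
  rw [h3]
  calc Real.exp 16 * (Real.sqrt Real.pi * ρ) ≤ 2 ^ 24 * (2 * ρ) := by
        have := exp_sixteen_lt.le
        gcongr
    _ = 2 ^ 25 * ρ := by ring

theorem window_vol {n : ℕ} (c : Fin n → ℝ) {ρ : ℝ} (hρ : 0 < ρ) :
    volume {u : Fin n → ℝ | ∑ i, (u i - c i) ^ 2 ≤ 16 * n * ρ ^ 2} ≤
      ENNReal.ofReal (2 ^ 25 * ρ) ^ n := by
  have hmeas : ∀ i : Fin n, Measurable fun u : ℝ =>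
      ENNReal.ofReal (Real.exp (16 - (u - c i) ^ 2 / ρ ^ 2)) := fun i => by fun_prop
  have hset : MeasurableSet {u : Fin n → ℝ | ∑ i, (u i - c i) ^ 2 ≤ 16 * n * ρ ^ 2} := by
    refine measurableSet_le ?_ measurable_const
    fun_prop
  calc volume {u : Fin n → ℝ | ∑ i, (u i - c i) ^ 2 ≤ 16 * n * ρ ^ 2}
      = ∫⁻ u in {u : Fin n → ℝ | ∑ i, (u i - c i) ^ 2 ≤ 16 * n * ρ ^ 2}, 1 := by
        rw [setLIntegral_one]
    _ ≤ ∫⁻ u in {u : Fin n → ℝ | ∑ i, (u i - c i) ^ 2 ≤ 16 * n * ρ ^ 2},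
          ∏ i, ENNReal.ofReal (Real.exp (16 - (u i - c i) ^ 2 / ρ ^ 2)) := by
        refine setLIntegral_mono' hset fun u hu => ?_
        rw [← ENNReal.ofReal_prod_of_nonneg fun i _ => (Real.exp_pos _).le, ← Real.exp_sum,
          ← ENNReal.ofReal_one]
        refine ENNReal.ofReal_le_ofReal ?_
        rw [Real.one_le_exp_iff, Finset.sum_sub_distrib, ← Finset.sum_div]
        simp only [Finset.sum_const, Finset.card_univ, Fintype.card_fin, nsmul_eq_mul]
        rw [sub_nonneg, div_le_iff₀ (by positivity)]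
        calc ∑ i, (u i - c i) ^ 2 ≤ 16 * n * ρ ^ 2 := hu
          _ = n * 16 * ρ ^ 2 := by ring
    _ ≤ ∫⁻ u : Fin n → ℝ, ∏ i, ENNReal.ofReal (Real.exp (16 - (u i - c i) ^ 2 / ρ ^ 2)) :=
        setLIntegral_le_lintegral _ _
    _ = ∏ i : Fin n, ∫⁻ u : ℝ, ENNReal.ofReal (Real.exp (16 - (u - c i) ^ 2 / ρ ^ 2)) := by
        rw [volume_pi]
        exact lintegral_pi_prod volume n _ hmeas
    _ ≤ ∏ _i : Fin n, ENNReal.ofReal (2 ^ 25 * ρ) :=
        Finset.prod_le_prod' fun i _ => lintegral_gauss_window (c i) hρ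
    _ = ENNReal.ofReal (2 ^ 25 * ρ) ^ n := by
        rw [Finset.prod_const, Finset.card_univ, Fintype.card_fin]

theorem map_inner_stdGaussian {d : ℕ} (v : E d) :
    (stdGaussian (E d)).map (fun x => ⟪x, v⟫) = gaussianReal 0 (‖v‖ ^ 2).toNNReal := by
  have h := IsGaussian.map_eq_gaussianReal (μ := stdGaussian (E d)) (innerSL ℝ v)
  rw [integral_strongDual_stdGaussian, variance_dual_stdGaussian, innerSL_apply_norm] at h
  rw [← h]
  congr 1
  funext x
  rw [innerSL_apply_apply, real_inner_comm]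

theorem lintegral_exp_gaussianReal (s : NNReal) {ρ : ℝ} (hρ : 0 < ρ) (hs : (s : ℝ) ≤ ρ ^ 2) :
    ∫⁻ y, ENNReal.ofReal (Real.exp (y ^ 2 / (4 * ρ ^ 2) - 4)) ∂(gaussianReal 0 s) ≤ 2⁻¹ := by
  have he : Real.exp (-4) ≤ 1 / 4 := by
    have h1 : Real.exp (-4) = (Real.exp 4)⁻¹ := Real.exp_neg 4
    have h2 : (4 : ℝ) + 1 ≤ Real.exp 4 := Real.add_one_le_exp 4
    rw [h1, one_div]
    exact inv_anti₀ (by norm_num) (by linarith)
  have h2 : (2⁻¹ : ℝ≥0∞) = ENNReal.ofReal (1 / 2) := by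
    rw [one_div, ENNReal.ofReal_inv_of_pos (by norm_num)]
    norm_num
  rcases eq_or_ne s 0 with rfl | hs0
  · rw [gaussianReal_zero_var, lintegral_dirac' _ (by fun_prop), h2]
    refine ENNReal.ofReal_le_ofReal ?_
    norm_num
    linarith
  · have hspos : (0 : ℝ) < s := by positivity
    rw [gaussianReal_of_var_ne_zero _ hs0, lintegral_withDensity_eq_lintegral_mul _
      (measurable_gaussianPDF 0 s) (by fun_prop)]
    have hle : ∀ y : ℝ, (gaussianPDF 0 s * fun y =>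
        ENNReal.ofReal (Real.exp (y ^ 2 / (4 * ρ ^ 2) - 4))) y ≤
        ENNReal.ofReal (Real.exp (-4) * (Real.sqrt (2 * Real.pi * s))⁻¹ *
          Real.exp (-(4 * (s : ℝ))⁻¹ * y ^ 2)) := by
      intro y
      rw [Pi.mul_apply, gaussianPDF, ← ENNReal.ofReal_mul (gaussianPDFReal_nonneg _ _ _)]
      refine ENNReal.ofReal_le_ofReal ?_
      have h1 : y ^ 2 / (4 * ρ ^ 2) ≤ y ^ 2 / (4 * s) :=
        div_le_div_of_nonneg_left (sq_nonneg y) (by positivity) (by linarith)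
      have h3 : -(y - 0) ^ 2 / (2 * (s : ℝ)) + y ^ 2 / (4 * s) = -(4 * (s : ℝ))⁻¹ * y ^ 2 := by
        field_simp
        ring
      have h5 : Real.exp (-(y - 0) ^ 2 / (2 * (s : ℝ))) *
          Real.exp (y ^ 2 / (4 * ρ ^ 2) - 4) ≤
          Real.exp (-4) * Real.exp (-(4 * (s : ℝ))⁻¹ * y ^ 2) := by
        rw [← Real.exp_add, ← Real.exp_add]
        refine Real.exp_le_exp.2 ?_
        linarith
      unfold gaussianPDFReal
      calc (Real.sqrt (2 * Real.pi * s))⁻¹ * Real.exp (-(y - 0) ^ 2 / (2 * (s : ℝ))) *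
            Real.exp (y ^ 2 / (4 * ρ ^ 2) - 4)
          = (Real.sqrt (2 * Real.pi * s))⁻¹ * (Real.exp (-(y - 0) ^ 2 / (2 * (s : ℝ))) *
            Real.exp (y ^ 2 / (4 * ρ ^ 2) - 4)) := by ring
        _ ≤ (Real.sqrt (2 * Real.pi * s))⁻¹ *
            (Real.exp (-4) * Real.exp (-(4 * (s : ℝ))⁻¹ * y ^ 2)) :=
            mul_le_mul_of_nonneg_left h5 (by positivity)
        _ = _ := by ring
    calc ∫⁻ y : ℝ, (gaussianPDF 0 s * fun y =>
          ENNReal.ofReal (Real.exp (y ^ 2 / (4 * ρ ^ 2) - 4))) y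
        ≤ ∫⁻ y : ℝ, ENNReal.ofReal (Real.exp (-4) * (Real.sqrt (2 * Real.pi * s))⁻¹ *
          Real.exp (-(4 * (s : ℝ))⁻¹ * y ^ 2)) := lintegral_mono hle
      _ = ENNReal.ofReal (Real.exp (-4) * (Real.sqrt (2 * Real.pi * s))⁻¹ *
          Real.sqrt (Real.pi / (4 * (s : ℝ))⁻¹)) := by
          have hb : 0 < (4 * (s : ℝ))⁻¹ := by positivity
          rw [← ofReal_integral_eq_lintegral_ofReal
            ((integrable_exp_neg_mul_sq hb).const_mul _)
            (Filter.Eventually.of_forall fun y => by positivity), integral_const_mul,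
            integral_gaussian]
      _ ≤ ENNReal.ofReal (1 / 2) := by
          refine ENNReal.ofReal_le_ofReal ?_
          have h3 : Real.sqrt (Real.pi / (4 * (s : ℝ))⁻¹) =
              Real.sqrt 2 * Real.sqrt (2 * Real.pi * s) := by
            rw [← Real.sqrt_mul (by norm_num), div_inv_eq_mul]
            congr 1
            ring
          have hpos : 0 < Real.sqrt (2 * Real.pi * s) := Real.sqrt_pos.2 (by positivity)
          rw [h3, mul_assoc, ← mul_assoc (Real.sqrt (2 * Real.pi * s))⁻¹,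
            mul_comm (Real.sqrt (2 * Real.pi * s))⁻¹, mul_assoc, inv_mul_cancel₀ hpos.ne', mul_one]
          have h4 : Real.sqrt 2 ≤ 2 := by
            rw [Real.sqrt_le_left (by norm_num)]; norm_num
          calc Real.exp (-4) * Real.sqrt 2 ≤ 1 / 4 * 2 := by
                gcongr
            _ = 1 / 2 := by norm_num
      _ = 2⁻¹ := h2.symm

theorem window_prob {d n : ℕ} (v : E d) {ρ : ℝ} (hρ : 0 < ρ) (hv : ‖v‖ ≤ ρ) :
    rows d n {x | 16 * n * ρ ^ 2 < ∑ i, (obs x v i) ^ 2} ≤ (2⁻¹ : ℝ≥0∞) ^ n := by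
  have hmeas : Measurable fun x : E d =>
      ENNReal.ofReal (Real.exp (⟪x, v⟫ ^ 2 / (4 * ρ ^ 2) - 4)) := by fun_prop
  have hset : MeasurableSet {x : Fin n → E d | 16 * n * ρ ^ 2 < ∑ i, (obs x v i) ^ 2} := by
    refine measurableSet_lt measurable_const ?_
    unfold obs
    fun_prop
  have hone : ∫⁻ x, ENNReal.ofReal (Real.exp (⟪x, v⟫ ^ 2 / (4 * ρ ^ 2) - 4))
      ∂(stdGaussian (E d)) ≤ 2⁻¹ := by
    have h1 : ∫⁻ x, ENNReal.ofReal (Real.exp (⟪x, v⟫ ^ 2 / (4 * ρ ^ 2) - 4))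
        ∂(stdGaussian (E d)) =
        ∫⁻ y, ENNReal.ofReal (Real.exp (y ^ 2 / (4 * ρ ^ 2) - 4))
          ∂((stdGaussian (E d)).map (fun x => ⟪x, v⟫)) := by
      rw [lintegral_map (by fun_prop) (by fun_prop)]
    rw [h1, map_inner_stdGaussian]
    refine lintegral_exp_gaussianReal _ hρ ?_
    rw [Real.coe_toNNReal _ (by positivity)]
    exact pow_le_pow_left₀ (norm_nonneg _) hv 2
  calc rows d n {x | 16 * n * ρ ^ 2 < ∑ i, (obs x v i) ^ 2}
      = ∫⁻ x in {x | 16 * n * ρ ^ 2 < ∑ i, (obs x v i) ^ 2}, 1 ∂(rows d n) := by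
        rw [setLIntegral_one]
    _ ≤ ∫⁻ x in {x | 16 * n * ρ ^ 2 < ∑ i, (obs x v i) ^ 2},
          ∏ i, ENNReal.ofReal (Real.exp (⟪x i, v⟫ ^ 2 / (4 * ρ ^ 2) - 4)) ∂(rows d n) := by
        refine setLIntegral_mono' hset fun x hx => ?_
        rw [← ENNReal.ofReal_prod_of_nonneg fun i _ => (Real.exp_pos _).le, ← Real.exp_sum,
          ← ENNReal.ofReal_one]
        refine ENNReal.ofReal_le_ofReal ?_
        rw [Real.one_le_exp_iff, Finset.sum_sub_distrib, ← Finset.sum_div]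
        simp only [Finset.sum_const, Finset.card_univ, Fintype.card_fin, nsmul_eq_mul]
        rw [sub_nonneg, le_div_iff₀ (by positivity)]
        have hx' : 16 * n * ρ ^ 2 < ∑ i, ⟪x i, v⟫ ^ 2 := hx
        calc (n : ℝ) * 4 * (4 * ρ ^ 2) = 16 * n * ρ ^ 2 := by ring
          _ ≤ ∑ i, ⟪x i, v⟫ ^ 2 := hx'.le
    _ ≤ ∫⁻ x, ∏ i, ENNReal.ofReal (Real.exp (⟪x i, v⟫ ^ 2 / (4 * ρ ^ 2) - 4)) ∂(rows d n) :=
        setLIntegral_le_lintegral _ _
    _ = ∏ _i : Fin n, ∫⁻ x, ENNReal.ofReal (Real.exp (⟪x, v⟫ ^ 2 / (4 * ρ ^ 2) - 4))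
          ∂(stdGaussian (E d)) := by
        unfold rows
        exact lintegral_pi_prod (stdGaussian (E d)) n
          (fun _ x => ENNReal.ofReal (Real.exp (⟪x, v⟫ ^ 2 / (4 * ρ ^ 2) - 4))) fun _ => hmeas
    _ ≤ ∏ _i : Fin n, 2⁻¹ := Finset.prod_le_prod' fun i _ => hone
    _ = (2⁻¹ : ℝ≥0∞) ^ n := by
        rw [Finset.prod_const, Finset.card_univ, Fintype.card_fin]

end Vale.Agent.P309
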