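import Vale.Agent.P309.Hit
import Vale.Agent.P309.Window

/-! P309 piece [G] (helper15): a ball of radius `2·2⁻ˡ` meets at most `2^{25d}` level-`l` cells. -/

open MeasureTheory ProbabilityTheory
open scoped RealInnerProductSpace ENNReal

namespace Vale.Agent.P309

/-- A set of integer points whose unit cubes lie in a window is small. -/
theorem card_le_of_window {d : ℕ} (hd : 0 < d) (y : Fin d → ℝ) (F : Finset (Fin d → ℤ))
    (hF : ∀ k ∈ F, ∀ u ∈ cidx d 0 ⁻¹' {k}, ∑ i, (u i - y i) ^ 2 ≤ 16 * d) :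
    F.card ≤ 2 ^ (25 * d) := by
  have hvol : ∀ k : Fin d → ℤ, volume (cidx d 0 ⁻¹' {k}) = 1 := by
    intro k
    have := volume_cidx d 0 k
    simpa using this
  have h1 : (F.card : ℝ≥0∞) ≤ ENNReal.ofReal (2 ^ 25 * 1) ^ d := by
    calc (F.card : ℝ≥0∞) = ∑ k ∈ F, volume (cidx d 0 ⁻¹' {k}) := by
          rw [Finset.sum_congr rfl fun k _ => hvol k]
          simp
      _ = volume (⋃ k ∈ F, cidx d 0 ⁻¹' {k}) := by
          rw [measure_biUnion_finset]
          · intro k _ k' _ hkk'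
            refine Set.disjoint_left.2 fun u hu hu' => hkk' ?_
            simp only [Set.mem_preimage, Set.mem_singleton_iff] at hu hu'
            rw [← hu, hu']
          · intro k _
            exact measurableSet_cidx_preimage 0 _
      _ ≤ volume {u : Fin d → ℝ | ∑ i, (u i - y i) ^ 2 ≤ 16 * d * 1 ^ 2} := by
          refine measure_mono (Set.iUnion₂_subset fun k hk u hu => ?_)
          have := hF k hk u hu
          simp only [Set.mem_ofPred_eq, one_pow, mul_one]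
          exact this
      _ ≤ ENNReal.ofReal (2 ^ 25 * 1) ^ d := window_vol y one_pos
  have h2 : ENNReal.ofReal (2 ^ 25 * 1) ^ d = ((2 ^ (25 * d) : ℕ) : ℝ≥0∞) := by
    rw [mul_one, ENNReal.ofReal_pow (by norm_num), pow_mul]
    norm_num
  rw [h2] at h1
  exact_mod_cast h1

theorem count_ball (d l : ℕ) (hd : 0 < d) (x : E d) :
    ∃ S : Finset (Fin d → ℤ), S.card ≤ 2 ^ (25 * d) ∧
      ∀ s : E d, ‖s - x‖ ≤ 2 * (1 / 2) ^ l → cell d l s ∈ S := by
  classical
  set A : Set (Fin d → ℤ) := {k | ∃ s : E d, ‖s - x‖ ≤ 2 * (1 / 2) ^ l ∧ cell d l s = k} with hA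
  have hd' : (0 : ℝ) < d := by exact_mod_cast hd
  have hkey : ∀ F : Finset (Fin d → ℤ), (F : Set (Fin d → ℤ)) ⊆ A → F.card ≤ 2 ^ (25 * d) := by
    intro F hFA
    refine card_le_of_window hd (fun i => (2 : ℝ) ^ l * Real.sqrt d * x i) F ?_
    intro k hk u hu
    obtain ⟨s, hs, hsk⟩ := hFA hk
    -- `t = 2^l √d s`
    set t : Fin d → ℝ := fun i => (2 : ℝ) ^ l * Real.sqrt d * s i with ht
    have hut : ∀ i, (u i - t i) ^ 2 ≤ 1 := by
      intro i
      have hui : ⌊u i⌋ = k i := by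
        have := congrFun (show cidx d 0 u = k from hu) i
        simpa [cidx] using this
      have hti : ⌊t i⌋ = k i := congrFun hsk i
      have h1 : |u i - t i| < 1 := Int.abs_sub_lt_one_of_floor_eq_floor (hui.trans hti.symm)
      rw [← sq_abs]
      exact pow_le_one₀ (abs_nonneg _) h1.le
    have htx : ∑ i, (t i - (2 : ℝ) ^ l * Real.sqrt d * x i) ^ 2 ≤ 4 * d := by
      have h1 : ∑ i, (t i - (2 : ℝ) ^ l * Real.sqrt d * x i) ^ 2 =
          (2 ^ l) ^ 2 * d * ‖s - x‖ ^ 2 := by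
        rw [EuclideanSpace.real_norm_sq_eq, Finset.mul_sum]
        refine Finset.sum_congr rfl fun i _ => ?_
        rw [ht, PiLp.sub_apply]
        calc ((2 : ℝ) ^ l * Real.sqrt d * s i - (2 : ℝ) ^ l * Real.sqrt d * x i) ^ 2
            = (2 ^ l) ^ 2 * (Real.sqrt d) ^ 2 * (s i - x i) ^ 2 := by ring
          _ = _ := by rw [Real.sq_sqrt hd'.le]
      have h2 : ‖s - x‖ ^ 2 ≤ (2 * (1 / 2) ^ l) ^ 2 := pow_le_pow_left₀ (norm_nonneg _) hs 2
      rw [h1]
      calc (2 ^ l) ^ 2 * (d : ℝ) * ‖s - x‖ ^ 2 ≤ (2 ^ l) ^ 2 * d * (2 * (1 / 2) ^ l) ^ 2 := by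
            gcongr
        _ = 4 * d * ((2 : ℝ) ^ l * (1 / 2) ^ l) ^ 2 := by ring
        _ = 4 * d := by
            rw [← mul_pow]
            norm_num
    -- (a+b)^2 ≤ 3 a^2 + (3/2) b^2
    calc ∑ i, (u i - (2 : ℝ) ^ l * Real.sqrt d * x i) ^ 2
        ≤ ∑ i, (3 * (u i - t i) ^ 2 +
            3 / 2 * (t i - (2 : ℝ) ^ l * Real.sqrt d * x i) ^ 2) := by
          refine Finset.sum_le_sum fun i _ => ?_
          nlinarith [sq_nonneg (2 * (u i - t i) - (t i - (2 : ℝ) ^ l * Real.sqrt d * x i))]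
      _ = 3 * ∑ i, (u i - t i) ^ 2 +
            3 / 2 * ∑ i, (t i - (2 : ℝ) ^ l * Real.sqrt d * x i) ^ 2 := by
          rw [Finset.sum_add_distrib, Finset.mul_sum, Finset.mul_sum]
      _ ≤ 3 * ∑ _i : Fin d, (1 : ℝ) + 3 / 2 * (4 * d) := by
          gcongr with i
          exact hut i
      _ ≤ 16 * d := by
          simp only [Finset.sum_const, Finset.card_univ, Fintype.card_fin, nsmul_eq_mul, mul_one]
          linarith
  have hfin : A.Finite := by
    by_contra hinf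
    obtain ⟨F, hFA, hFc⟩ := Set.Infinite.exists_subset_card_eq hinf (2 ^ (25 * d) + 1)
    have := hkey F hFA
    omega
  refine ⟨hfin.toFinset, hkey _ (by simp), fun s hs => ?_⟩
  simp only [Set.Finite.mem_toFinset]
  exact ⟨s, hs, rfl⟩

end Vale.Agent.P309
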