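import Vale.Agent.P309.CountBall

/-! P309 piece [H] (helper15): number of level-`(lam+j)` cells meeting the `2^{-(lam+j)}`
neighbourhood of a low-dimensional subspace inside a ball of radius `2^{-lam}`. -/

open MeasureTheory ProbabilityTheory
open scoped RealInnerProductSpace ENNReal

namespace Vale.Agent.P309

/-- The ball of radius `2` is covered by `5^dim` unit balls. -/
theorem exists_cover_two (V : Type*) [NormedAddCommGroup V] [NormedSpace ℝ V]
    [FiniteDimensional ℝ V] :
    ∃ N : Finset V, N.card ≤ 5 ^ Module.finrank ℝ V ∧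
      ∀ x : V, ‖x‖ ≤ 2 → ∃ c ∈ N, ‖x - c‖ ≤ 1 := by
  classical
  set P : ℕ → Prop := fun m => ∃ s : Finset V, s.card = m ∧ (∀ c ∈ s, ‖c‖ ≤ 2) ∧
    ∀ c ∈ s, ∀ b ∈ s, c ≠ b → 1 ≤ ‖c - b‖ with hP
  have hP0 : P 0 := ⟨∅, by simp⟩
  have hspec := Nat.findGreatest_spec (P := P) (Nat.zero_le (5 ^ Module.finrank ℝ V)) hP0
  obtain ⟨s, hcard, hs2, hsep⟩ := hspec
  refine ⟨s, Besicovitch.card_le_of_separated s hs2 hsep, ?_⟩
  intro x hx
  by_contra hcon
  push Not at hcon
  have hxs : x ∉ s := by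
    intro hxs
    have := hcon x hxs
    rw [sub_self, norm_zero] at this
    linarith
  have hs2' : ∀ c ∈ insert x s, ‖c‖ ≤ 2 := by
    intro c hc
    rcases Finset.mem_insert.1 hc with rfl | hc
    · exact hx
    · exact hs2 c hc
  have hsep' : ∀ c ∈ insert x s, ∀ b ∈ insert x s, c ≠ b → 1 ≤ ‖c - b‖ := by
    intro c hc b hb hcb
    rcases Finset.mem_insert.1 hc with hc | hc
    · rcases Finset.mem_insert.1 hb with hb | hb
      · exact absurd (hc.trans hb.symm) hcb
      · rw [hc]; exact (hcon b hb).le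
    · rcases Finset.mem_insert.1 hb with hb | hb
      · rw [hb, norm_sub_rev]; exact (hcon c hc).le
      · exact hsep c hc b hb hcb
  have hle := Besicovitch.card_le_of_separated (insert x s) hs2' hsep'
  have hcard' : (insert x s).card = s.card + 1 := Finset.card_insert_of_notMem hxs
  have hPs : P (s.card + 1) := ⟨insert x s, hcard', hs2', hsep'⟩
  have hle' : s.card + 1 ≤ 5 ^ Module.finrank ℝ V := hcard' ▸ hle
  have hgr : s.card + 1 ≤ Nat.findGreatest P (5 ^ Module.finrank ℝ V) :=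
    Nat.le_findGreatest hle' hPs
  rw [← hcard] at hgr
  omega

/-- The unit ball is covered by `5^{dim·j}` balls of radius `2⁻ʲ`. -/
theorem exists_cover_pow (V : Type*) [NormedAddCommGroup V] [NormedSpace ℝ V]
    [FiniteDimensional ℝ V] (j : ℕ) :
    ∃ N : Finset V, N.card ≤ (5 ^ Module.finrank ℝ V) ^ j ∧
      ∀ x : V, ‖x‖ ≤ 1 → ∃ c ∈ N, ‖x - c‖ ≤ (1 / 2) ^ j := by
  classical
  obtain ⟨B, hBc, hB⟩ := exists_cover_two V
  induction j with
  | zero => exact ⟨{0}, by simp, fun x hx => ⟨0, by simp, by simpa using hx⟩⟩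
  | succ j ih =>
    obtain ⟨N, hNc, hN⟩ := ih
    refine ⟨(N ×ˢ B).image fun q => q.1 + ((1 / 2 : ℝ) ^ (j + 1)) • q.2, ?_, ?_⟩
    · refine Finset.card_image_le.trans ?_
      rw [Finset.card_product, pow_succ]
      exact Nat.mul_le_mul hNc hBc
    · intro x hx
      obtain ⟨c, hc, hxc⟩ := hN x hx
      have hy : ‖((2 : ℝ) ^ (j + 1)) • (x - c)‖ ≤ 2 := by
        rw [norm_smul, Real.norm_of_nonneg (by positivity)]
        calc (2 : ℝ) ^ (j + 1) * ‖x - c‖ ≤ 2 ^ (j + 1) * (1 / 2) ^ j := by gcongr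
          _ = 2 * ((2 : ℝ) ^ j * (1 / 2) ^ j) := by ring
          _ = 2 := by rw [← mul_pow]; norm_num
      obtain ⟨b, hb, hyb⟩ := hB _ hy
      refine ⟨c + ((1 / 2 : ℝ) ^ (j + 1)) • b, ?_, ?_⟩
      · exact Finset.mem_image.2 ⟨(c, b), Finset.mem_product.2 ⟨hc, hb⟩, rfl⟩
      · have h1 : x - (c + ((1 / 2 : ℝ) ^ (j + 1)) • b) =
            ((1 / 2 : ℝ) ^ (j + 1)) • (((2 : ℝ) ^ (j + 1)) • (x - c) - b) := by
          rw [smul_sub, smul_smul, ← mul_pow]
          norm_num
          abel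
        rw [h1, norm_smul, Real.norm_of_nonneg (by positivity)]
        calc (1 / 2 : ℝ) ^ (j + 1) * ‖((2 : ℝ) ^ (j + 1)) • (x - c) - b‖
            ≤ (1 / 2) ^ (j + 1) * 1 := by gcongr
          _ = (1 / 2) ^ (j + 1) := mul_one _

theorem count_near (d p : ℕ) (hd : 0 < d) (U : Submodule ℝ (E d))
    (hU : Module.finrank ℝ U ≤ p) (lam j : ℕ) (s₀ : E d) :
    ∃ S : Finset (Fin d → ℤ), S.card ≤ 2 ^ (25 * d + 3 * p * j) ∧
      ∀ s : E d, ‖s - s₀‖ ≤ (1 / 2) ^ lam →
        Metric.infDist (s - s₀) (U : Set (E d)) ≤ (1 / 2) ^ (lam + j) → cell d (lam + j) s ∈ S := by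
  classical
  obtain ⟨N, hNc, hN⟩ := exists_cover_pow U j
  choose Sx hSc hSx using fun x : E d => count_ball d (lam + j) hd x
  refine ⟨N.biUnion fun c => Sx (s₀ + ((1 / 2 : ℝ) ^ lam) • (c : E d)), ?_, ?_⟩
  · calc (N.biUnion fun c => Sx (s₀ + ((1 / 2 : ℝ) ^ lam) • (c : E d))).card
        ≤ N.card * 2 ^ (25 * d) := Finset.card_biUnion_le_card_mul _ _ _ fun c _ => hSc _
      _ ≤ (5 ^ Module.finrank ℝ U) ^ j * 2 ^ (25 * d) := Nat.mul_le_mul_right _ hNc
      _ ≤ (8 ^ p) ^ j * 2 ^ (25 * d) := by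
          refine Nat.mul_le_mul_right _ (Nat.pow_le_pow_left ?_ j)
          exact (Nat.pow_le_pow_left (by norm_num) _).trans (Nat.pow_le_pow_right (by norm_num) hU)
      _ = 2 ^ (25 * d + 3 * p * j) := by
          rw [show (8 : ℕ) = 2 ^ 3 by norm_num, ← pow_mul, ← pow_mul, ← pow_add, add_comm,
            mul_assoc]
  · intro s hs hsU
    set v := s - s₀ with hv
    -- the projection of `v`
    have hproj : Metric.infDist v (U : Set (E d)) = ‖v - U.starProjection v‖ := by
      apply le_antisymm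
      · rw [← dist_eq_norm]
        exact Metric.infDist_le_dist_of_mem (Submodule.starProjection_apply_mem U v)
      · rw [Metric.le_infDist ⟨0, U.zero_mem⟩]
        intro y hy
        rw [dist_eq_norm]
        have h1 : ‖v - y‖ ^ 2 = ‖v - U.starProjection v‖ ^ 2 + ‖U.starProjection v - y‖ ^ 2 := by
          have h2 : v - y = (v - U.starProjection v) + (U.starProjection v - y) := by abel
          have h3 : ⟪v - U.starProjection v, U.starProjection v - y⟫ = 0 := by
            apply Submodule.inner_left_of_mem_orthogonal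
              (U.sub_mem (Submodule.starProjection_apply_mem U v) hy)
            exact Submodule.sub_starProjection_mem_orthogonal v
          rw [h2, norm_add_sq_real, h3]
          ring
        nlinarith [sq_nonneg ‖U.starProjection v - y‖, norm_nonneg (v - y),
          norm_nonneg (v - U.starProjection v)]
    have hpn : ‖U.starProjection v‖ ≤ (1 / 2) ^ lam := by
      refine le_trans ?_ hs
      have := U.starProjection.le_opNorm v
      have h1 := Submodule.starProjection_norm_le U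
      nlinarith [norm_nonneg v]
    set u : U := ⟨U.starProjection v, Submodule.starProjection_apply_mem U v⟩ with hu
    have hun : ‖((2 : ℝ) ^ lam) • u‖ ≤ 1 := by
      rw [norm_smul, Real.norm_of_nonneg (by positivity)]
      calc (2 : ℝ) ^ lam * ‖u‖ ≤ 2 ^ lam * (1 / 2) ^ lam := by
            gcongr
            exact hpn
        _ = 1 := by rw [← mul_pow]; norm_num
    obtain ⟨c, hc, huc⟩ := hN _ hun
    refine Finset.mem_biUnion.2 ⟨c, hc, hSx _ s ?_⟩
    have h1 : s - (s₀ + ((1 / 2 : ℝ) ^ lam) • (c : E d)) =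
        (v - U.starProjection v) +
          ((1 / 2 : ℝ) ^ lam) • (((((2 : ℝ) ^ lam) • u - c : U)) : E d) := by
      rw [Submodule.coe_sub, Submodule.coe_smul, smul_sub, smul_smul, ← mul_pow, hu, hv]
      norm_num
      abel
    rw [h1]
    refine (norm_add_le _ _).trans ?_
    rw [norm_smul, Real.norm_of_nonneg (by positivity), ← hproj]
    have h2 : ‖(((((2 : ℝ) ^ lam) • u - c : U)) : E d)‖ ≤ (1 / 2) ^ j := huc
    calc Metric.infDist v (U : Set (E d)) +
          (1 / 2) ^ lam * ‖(((((2 : ℝ) ^ lam) • u - c : U)) : E d)‖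
        ≤ (1 / 2) ^ (lam + j) + (1 / 2) ^ lam * (1 / 2) ^ j := by
          gcongr
      _ = 2 * (1 / 2) ^ (lam + j) := by rw [pow_add]; ring

end Vale.Agent.P309
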