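import Mathlib

open MeasureTheory ProbabilityTheory
open scoped RealInnerProductSpace ENNReal

namespace Vale.Agent.P309

/-- `ℝᵈ` with its Euclidean structure. -/
abbrev E (d : ℕ) : Type := EuclideanSpace ℝ (Fin d)

/-- The uniform probability measure on the unit sphere `S^{d-1}`, as a measure on `ℝᵈ`:
normalised surface measure. -/
noncomputable def unifSphere (d : ℕ) : Measure (E d) :=
  ((volume : Measure (E d)).toSphere Set.univ)⁻¹ •
    (volume : Measure (E d)).toSphere.map Subtype.val

/-- A randomized memory-bounded learner in dimension `d` whose persistent state is an element of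
`Fin K`.  `Ω` with the probability measure `P` carries all the internal randomness (it is drawn
independently of the signal and of the rows).  At index `t`, in state `q`, after reading the pair
`(x, y)` the new state is `next t ω q x y`, and the learner stops if `stop t ω q x y` is `true`.
If it ends in state `q` after reading `t` samples it outputs the unit vector `out t ω q`. -/
structure Learner (d K : ℕ) where
  /-- sample space of the internal randomness -/
  Ω : Type
  /-- its sigma-algebra -/
  mΩ : MeasurableSpace Ω
  /-- law of the internal randomness -/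
  P : Measure Ω
  isProb : IsProbabilityMeasure P
  /-- initial state -/
  init : Ω → Fin K
  /-- transition rule -/
  next : ℕ → Ω → Fin K → E d → ℝ → Fin K
  /-- stopping rule -/
  stop : ℕ → Ω → Fin K → E d → ℝ → Bool
  /-- output rule -/
  out : ℕ → Ω → Fin K → E d
  norm_out : ∀ t ω q, ‖out t ω q‖ = 1
  meas_init : Measurable init
  meas_next : ∀ t q, Measurable fun z : Ω × E d × ℝ => next t z.1 q z.2.1 z.2.2
  meas_stop : ∀ t q, Measurable fun z : Ω × E d × ℝ => stop t z.1 q z.2.1 z.2.2
  meas_out : ∀ t q, Measurable fun ω => out t ω q

attribute [instance] Learner.mΩ Learner.isProb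

/-- The run of the learner on the signal `s` and the rows `x 0, …, x (t-1)` (with exact labels
`⟪x i, s⟫`): the number of samples read, the state, and whether the learner has stopped. -/
noncomputable def Learner.run {d K : ℕ} (L : Learner d K) (ω : L.Ω) (s : E d) :
    (t : ℕ) → (Fin t → E d) → ℕ × Fin K × Bool
  | 0, _ => (0, L.init ω, false)
  | t + 1, x =>
    let r := L.run ω s t (Fin.init x)
    if r.2.2 then r
    else (t + 1, L.next t ω r.2.1 (x (Fin.last t)) ⟪x (Fin.last t), s⟫,
      L.stop t ω r.2.1 (x (Fin.last t)) ⟪x (Fin.last t), s⟫)

/-- The output of the learner with horizon `T`. -/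
noncomputable def Learner.output {d K : ℕ} (L : Learner d K) (T : ℕ) (ω : L.Ω) (s : E d)
    (x : Fin T → E d) : E d :=
  L.out (L.run ω s T x).1 ω (L.run ω s T x).2.1

/-- The learner with horizon `T` succeeds at accuracy `ε`: for a uniformly random signal `s` on
the sphere, independent standard Gaussian rows and independent internal randomness, the angle
between its output and `s` is at most `ε` with probability at least `2/3`. -/
def Learner.Succeeds {d K : ℕ} (L : Learner d K) (T : ℕ) (ε : ℝ) : Prop :=
  2 / 3 ≤ (L.P.prod ((unifSphere d).prod (Measure.pi fun _ : Fin T => stdGaussian (E d))))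
    {z | Real.arccos ⟪L.output T z.1 z.2.1 z.2.2, z.2.1⟫ ≤ ε}

end Vale.Agent.P309
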