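import Vale.Agent.P309.Moment

open MeasureTheory ProbabilityTheory
open scoped RealInnerProductSpace ENNReal

namespace Vale.Agent.P309

namespace EnergyAux

theorem measurableSet_cube (n j : ℕ) (u : Fin n → ℝ) : MeasurableSet (cube n j u) := by
  unfold cube
  rw [show {u' : Fin n → ℝ | ∀ i, ⌊(2 : ℝ) ^ j * u' i⌋ = ⌊(2 : ℝ) ^ j * u i⌋} =
    ⋂ i, {u' : Fin n → ℝ | ⌊(2 : ℝ) ^ j * u' i⌋ = ⌊(2 : ℝ) ^ j * u i⌋} by ext u'; simp]
  refine MeasurableSet.iInter fun i => ?_
  exact (Int.measurable_floor.comp ((measurable_pi_apply i).const_mul _))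
    (measurableSet_singleton _)

theorem cube_sub {d n : ℕ} (j : ℕ) (x : Fin n → E d) (s₀ : E d) :
    (obs x) ⁻¹' (cube n j (obs x s₀)) ⊆ {s | ∀ i, |⟪x i, s - s₀⟫| ≤ (1 / 2) ^ j} := by
  intro s hs i
  have h1 : |(2 : ℝ) ^ j * obs x s i - (2 : ℝ) ^ j * obs x s₀ i| < 1 :=
    Int.abs_sub_lt_one_of_floor_eq_floor (hs i)
  rw [← mul_sub, abs_mul, abs_of_pos (by positivity : (0 : ℝ) < 2 ^ j)] at h1
  have h2 : ⟪x i, s - s₀⟫ = obs x s i - obs x s₀ i := by
    simp only [obs, inner_sub_right]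
  rw [h2, one_div, inv_pow, ← one_div, le_div_iff₀ (by positivity : (0 : ℝ) < 2 ^ j), mul_comm]
  exact h1.le

theorem meas_inner {d : ℕ} {α : Type*} [MeasurableSpace α] {f g : α → E d} (hf : Measurable f)
    (hg : Measurable g) (η : ℝ) : MeasurableSet {a | |⟪f a, g a⟫| ≤ η} :=
  measurableSet_le (hf.inner hg).abs measurable_const

/-- the set of `((x, s₀), S)` -/
theorem measurableSet_Z (d n p : ℕ) (η : ℝ) :
    MeasurableSet {q : ((Fin n → E d) × E d) × (Fin p → E d) |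
      ∀ a i, |⟪q.1.1 i, q.2 a - q.1.2⟫| ≤ η} := by
  rw [show {q : ((Fin n → E d) × E d) × (Fin p → E d) |
      ∀ a i, |⟪q.1.1 i, q.2 a - q.1.2⟫| ≤ η} =
      ⋂ a, ⋂ i, {q : ((Fin n → E d) × E d) × (Fin p → E d) |
        |⟪q.1.1 i, q.2 a - q.1.2⟫| ≤ η} by ext q; simp]
  refine MeasurableSet.iInter fun a => MeasurableSet.iInter fun i => ?_
  have h1 : Measurable fun q : ((Fin n → E d) × E d) × (Fin p → E d) => q.1.1 i :=
    (measurable_pi_apply i).comp (measurable_fst.comp measurable_fst)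
  have h2 : Measurable fun q : ((Fin n → E d) × E d) × (Fin p → E d) => q.2 a - q.1.2 := by
    exact Measurable.sub ((measurable_pi_apply a).comp measurable_snd)
      (measurable_snd.comp measurable_fst)
  exact meas_inner h1 h2 η

end EnergyAux

open EnergyAux

theorem energy_le {d n : ℕ} (ν : Measure (E d)) [IsFiniteMeasure ν] (p j : ℕ) (B : ℝ≥0∞)
    (hB : ∀ᵐ s₀ ∂ν, ∀ U : Submodule ℝ (E d), Module.finrank ℝ U < p →
      ∫⁻ s, (ENNReal.ofReal (Metric.infDist (s - s₀) (U : Set (E d))))⁻¹ ^ n ∂ν ≤ B) :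
    ∫⁻ x, ∫⁻ u, ((ν.map (obs x)) (cube n j u) * 2 ^ (j * n)) ^ p ∂(ν.map (obs x)) ∂(rows d n) ≤
      ν Set.univ * B ^ p := by
  set η : ℝ := (1 / 2) ^ j with hη
  have hη0 : 0 < η := by positivity
  set π : Measure (Fin p → E d) := Measure.pi fun _ => ν with hπ
  -- the joint set
  set Z : Set (((Fin n → E d) × E d) × (Fin p → E d)) :=
    {q | ∀ a i, |⟪q.1.1 i, q.2 a - q.1.2⟫| ≤ η} with hZ
  have hZm : MeasurableSet Z := measurableSet_Z d n p η
  have step1 : ∀ x : Fin n → E d,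
      ∫⁻ u, ((ν.map (obs x)) (cube n j u) * 2 ^ (j * n)) ^ p ∂(ν.map (obs x)) ≤
      ∫⁻ s₀, (2 ^ (j * n)) ^ p * π (Prod.mk (x, s₀) ⁻¹' Z) ∂ν := by
    intro x
    refine (lintegral_map_le _ _).trans (lintegral_mono fun s₀ => ?_)
    have h1 : (ν.map (obs x)) (cube n j (obs x s₀)) ≤ ν {s | ∀ i, |⟪x i, s - s₀⟫| ≤ η} := by
      rw [Measure.map_apply (measurable_obs x) (measurableSet_cube n j _)]
      exact measure_mono (cube_sub j x s₀)
    have h2 : (ν {s | ∀ i, |⟪x i, s - s₀⟫| ≤ η}) ^ p = π (Prod.mk (x, s₀) ⁻¹' Z) := by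
      have : Prod.mk (x, s₀) ⁻¹' Z =
          Set.univ.pi fun _ : Fin p => {s | ∀ i, |⟪x i, s - s₀⟫| ≤ η} := by
        ext S; simp [hZ]
      rw [this, hπ, Measure.pi_pi]
      simp
    calc ((ν.map (obs x)) (cube n j (obs x s₀)) * 2 ^ (j * n)) ^ p
        ≤ (ν {s | ∀ i, |⟪x i, s - s₀⟫| ≤ η} * 2 ^ (j * n)) ^ p := by gcongr
      _ = _ := by rw [mul_pow, h2, mul_comm]
  calc ∫⁻ x, ∫⁻ u, ((ν.map (obs x)) (cube n j u) * 2 ^ (j * n)) ^ p ∂(ν.map (obs x)) ∂(rows d n)
      ≤ ∫⁻ x, ∫⁻ s₀, (2 ^ (j * n)) ^ p * π (Prod.mk (x, s₀) ⁻¹' Z) ∂ν ∂(rows d n) :=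
        lintegral_mono step1
    _ = ∫⁻ s₀, ∫⁻ x, (2 ^ (j * n)) ^ p * π (Prod.mk (x, s₀) ⁻¹' Z) ∂(rows d n) ∂ν := by
        refine lintegral_lintegral_swap ?_
        exact ((measurable_measure_prodMk_left hZm).const_mul _).aemeasurable
    _ ≤ ∫⁻ _s₀, B ^ p ∂ν := by
        refine lintegral_mono_ae ?_
        filter_upwards [hB] with s₀ hs₀
        set Z' : Set ((Fin n → E d) × (Fin p → E d)) :=
          {q | ∀ a i, |⟪q.1 i, q.2 a - s₀⟫| ≤ η} with hZ'
        have hZ'm : MeasurableSet Z' := by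
          have : Measurable fun q : (Fin n → E d) × (Fin p → E d) => ((q.1, s₀), q.2) := by
            fun_prop
          exact this hZm
        have h3 : ∫⁻ x, π (Prod.mk (x, s₀) ⁻¹' Z) ∂(rows d n) =
            ∫⁻ S, rows d n ((fun x => (x, S)) ⁻¹' Z') ∂π := by
          rw [← Measure.prod_apply_symm hZ'm, Measure.prod_apply hZ'm]
          rfl
        have h4 : ∀ S : Fin p → E d, rows d n ((fun x => (x, S)) ⁻¹' Z') =
            (stdGaussian (E d) {x | ∀ a, |⟪x, S a - s₀⟫| ≤ η}) ^ n := by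
          intro S
          have : (fun x : Fin n → E d => (x, S)) ⁻¹' Z' =
              Set.univ.pi fun _ : Fin n => {x | ∀ a, |⟪x, S a - s₀⟫| ≤ η} := by
            ext x
            simp only [hZ', Set.mem_preimage, Set.mem_ofPred_eq, Set.mem_pi, Set.mem_univ,
              true_implies]
            exact ⟨fun h i a => h a i, fun h a i => h i a⟩
          rw [this, rows, Measure.pi_pi]
          simp
        have hmom := moment_le ν n p s₀ hη0 B hs₀
        calc ∫⁻ x, (2 ^ (j * n)) ^ p * π (Prod.mk (x, s₀) ⁻¹' Z) ∂(rows d n)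
            = (2 ^ (j * n)) ^ p * ∫⁻ x, π (Prod.mk (x, s₀) ⁻¹' Z) ∂(rows d n) := by
              refine lintegral_const_mul _ ?_
              have h5 : Measurable fun x : Fin n → E d => (x, s₀) := by fun_prop
              exact (measurable_measure_prodMk_left hZm).comp h5
          _ = (2 ^ (j * n)) ^ p * ∫⁻ S, (stdGaussian (E d) {x | ∀ a, |⟪x, S a - s₀⟫| ≤ η}) ^ n
                ∂π := by
              rw [h3]
              simp only [h4]
          _ ≤ (2 ^ (j * n)) ^ p * (ENNReal.ofReal η ^ n * B) ^ p := by gcongr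
          _ = B ^ p := by
              rw [← mul_pow, ← mul_assoc]
              have h6 : (2 : ℝ≥0∞) ^ (j * n) * ENNReal.ofReal η ^ n = 1 := by
                rw [pow_mul, ← mul_pow, hη, one_div, ENNReal.ofReal_pow (by norm_num),
                  ENNReal.ofReal_inv_of_pos (by norm_num), ← mul_pow]
                have : (2 : ℝ≥0∞) * (ENNReal.ofReal 2)⁻¹ = 1 := by
                  rw [show ENNReal.ofReal 2 = 2 by norm_num]
                  exact ENNReal.mul_inv_cancel (by norm_num) (by norm_num)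
                rw [this, one_pow, one_pow]
              rw [h6, one_mul]
    _ = ν Set.univ * B ^ p := by
        rw [lintegral_const, mul_comm]

end Vale.Agent.P309
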