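import Vale.Agent.P309.Core
import Vale.Agent.P309.Bridge

open MeasureTheory ProbabilityTheory
open scoped RealInnerProductSpace ENNReal

namespace Vale.Agent.P309

theorem two_inv_mul (n : ℕ) : (2⁻¹ : ℝ≥0∞) ^ n * 2 ^ n = 1 := by
  rw [← mul_pow, ENNReal.inv_mul_cancel two_ne_zero ENNReal.ofNat_ne_top, one_pow]

theorem norm_sub_le_of_arccos {d : ℕ} {z s : E d} (hz : ‖z‖ = 1) (hs : ‖s‖ = 1) {ε : ℝ}
    (h : Real.arccos ⟪z, s⟫ ≤ ε) : ‖s - z‖ ≤ ε := by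
  have h1 : |⟪z, s⟫| ≤ 1 := by
    have := abs_real_inner_le_norm z s
    rwa [hz, hs, mul_one] at this
  have h2 : Real.cos (Real.arccos ⟪z, s⟫) = ⟪z, s⟫ :=
    Real.cos_arccos (abs_le.1 h1).1 (abs_le.1 h1).2
  have h3 := Real.one_sub_sq_div_two_le_cos (x := Real.arccos ⟪z, s⟫)
  have h4 : ‖s - z‖ ^ 2 = 2 - 2 * ⟪z, s⟫ := by
    rw [norm_sub_sq_real, hz, hs, real_inner_comm]; ring
  have h5 : 0 ≤ Real.arccos ⟪z, s⟫ := Real.arccos_nonneg _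
  have h6 : ‖s - z‖ ^ 2 ≤ (Real.arccos ⟪z, s⟫) ^ 2 := by rw [h4]; linarith
  exact ((sq_le_sq₀ (norm_nonneg _) h5).1 h6).trans h

/-- Exponential beats polynomial. -/
theorem exists_large (c : ℕ) : ∃ D₀ : ℕ, ∀ D ≥ D₀, 3 * (c * D ^ 4) < 2 * 2 ^ D := by
  have h := tendsto_pow_const_mul_const_pow_of_abs_lt_one 4 (r := (1 / 2 : ℝ))
    (by rw [abs_of_pos] <;> norm_num)
  have h2 := (h.eventually (gt_mem_nhds (show (0 : ℝ) < 2 / (3 * (c + 1)) by positivity)))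
  obtain ⟨D₀, hD₀⟩ := Filter.eventually_atTop.1 h2
  refine ⟨D₀, fun D hD => ?_⟩
  have h3 := hD₀ D hD
  have h4 : (D : ℝ) ^ 4 * (1 / 2) ^ D * 2 ^ D = (D : ℝ) ^ 4 := by
    rw [mul_assoc, ← mul_pow]; norm_num
  have h5 : (0 : ℝ) < 2 ^ D := by positivity
  have h6 : (D : ℝ) ^ 4 < 2 / (3 * (c + 1)) * 2 ^ D := by
    rw [← h4]; exact mul_lt_mul_of_pos_right h3 h5
  have h7 : (3 : ℝ) * (((c : ℝ) + 1) * (D : ℝ) ^ 4) < (2 : ℝ) * (2 : ℝ) ^ D := by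
    have h8 : (0 : ℝ) < 3 * ((c : ℝ) + 1) := by positivity
    calc (3 : ℝ) * (((c : ℝ) + 1) * (D : ℝ) ^ 4) = (3 * ((c : ℝ) + 1)) * (D : ℝ) ^ 4 := by ring
      _ < (3 * ((c : ℝ) + 1)) * (2 / (3 * ((c : ℝ) + 1)) * (2 : ℝ) ^ D) :=
          mul_lt_mul_of_pos_left h6 h8
      _ = (2 : ℝ) * (2 : ℝ) ^ D := by field_simp
  have h9 : (3 : ℝ) * (c * (D : ℝ) ^ 4) ≤ 3 * (((c : ℝ) + 1) * (D : ℝ) ^ 4) := by
    have : (0 : ℝ) ≤ (D : ℝ) ^ 4 := by positivity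
    nlinarith
  exact_mod_cast lt_of_le_of_lt h9 h7

theorem err_le {d D L g z t N C : ℕ} (hD : 0 < D) (hz : z = D) (hg : g = (1627 + 32258 * C) * D)
    (ht : t = 2 * C * d ^ 2 + 25 * d + D) (hdD : d ≤ 127 * D) (hN : N ≤ 2 ^ (2 * C * d ^ 2)) :
    err d D L g z t N ≤ (6 * (L + 1) ^ 2 : ℕ) * 2⁻¹ ^ D := by
  have hN' : (N : ℝ≥0∞) ≤ 2 ^ (2 * C * d ^ 2) := by exact_mod_cast hN
  have h1 : (N : ℝ≥0∞) * (2⁻¹ ^ g * 2 ^ (1626 * D)) ^ D ≤ 2⁻¹ ^ D := by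
    have e1 : (2⁻¹ : ℝ≥0∞) ^ g * 2 ^ (1626 * D) = 2⁻¹ ^ ((1 + 32258 * C) * D) := by
      rw [hg, show (1627 + 32258 * C) * D = (1 + 32258 * C) * D + 1626 * D by ring, pow_add,
        mul_assoc, two_inv_mul, mul_one]
    rw [e1, ← pow_mul]
    have e2 : 2 * C * d ^ 2 ≤ 32258 * C * D ^ 2 := by
      have : d ^ 2 ≤ (127 * D) ^ 2 := Nat.pow_le_pow_left hdD 2
      nlinarith
    obtain ⟨c, hc⟩ := Nat.exists_eq_add_of_le e2
    have e3 : (1 + 32258 * C) * D * D = 2 * C * d ^ 2 + (c + D ^ 2) := by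
      calc (1 + 32258 * C) * D * D = 32258 * C * D ^ 2 + D ^ 2 := by ring
        _ = _ := by rw [hc]; ring
    calc (N : ℝ≥0∞) * 2⁻¹ ^ ((1 + 32258 * C) * D * D)
        ≤ 2 ^ (2 * C * d ^ 2) * 2⁻¹ ^ ((1 + 32258 * C) * D * D) := by gcongr
      _ = (2⁻¹ ^ (2 * C * d ^ 2) * 2 ^ (2 * C * d ^ 2)) * 2⁻¹ ^ (c + D ^ 2) := by
          rw [e3, pow_add (2⁻¹ : ℝ≥0∞) (2 * C * d ^ 2)]; ring
      _ = 2⁻¹ ^ (c + D ^ 2) := by rw [two_inv_mul, one_mul]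
      _ ≤ 2⁻¹ ^ D := by
          refine pow_le_pow_of_le_one bot_le (ENNReal.inv_le_one.2 one_le_two) ?_
          nlinarith
  have h2 : (N : ℝ≥0∞) * (2 ^ (25 * d) * 2⁻¹ ^ t) ≤ 2⁻¹ ^ D := by
    calc (N : ℝ≥0∞) * (2 ^ (25 * d) * 2⁻¹ ^ t)
        ≤ 2 ^ (2 * C * d ^ 2) * (2 ^ (25 * d) * 2⁻¹ ^ t) := by gcongr
      _ = (2⁻¹ ^ (2 * C * d ^ 2) * 2 ^ (2 * C * d ^ 2)) * (2⁻¹ ^ (25 * d) * 2 ^ (25 * d)) *
          2⁻¹ ^ D := by rw [ht, pow_add, pow_add]; ring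
      _ = 2⁻¹ ^ D := by rw [two_inv_mul, two_inv_mul, one_mul, one_mul]
  unfold err
  calc (L + 1 : ℝ≥0∞) ^ 2 * (2 * 2⁻¹ ^ z) +
        (L + 1) ^ 2 * (2 * 2⁻¹ ^ D + N * (2⁻¹ ^ g * 2 ^ (1626 * D)) ^ D) +
        N * (2 ^ (25 * d) * 2⁻¹ ^ t)
      ≤ (L + 1 : ℝ≥0∞) ^ 2 * (2 * 2⁻¹ ^ D) + (L + 1) ^ 2 * (2 * 2⁻¹ ^ D + 2⁻¹ ^ D) +
        2⁻¹ ^ D := by
        rw [hz]; gcongr
    _ ≤ (L + 1 : ℝ≥0∞) ^ 2 * (2 * 2⁻¹ ^ D) + (L + 1) ^ 2 * (2 * 2⁻¹ ^ D + 2⁻¹ ^ D) +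
        (L + 1) ^ 2 * 2⁻¹ ^ D := by
        gcongr
        calc (2⁻¹ : ℝ≥0∞) ^ D = 1 * 2⁻¹ ^ D := (one_mul _).symm
          _ ≤ (L + 1) ^ 2 * 2⁻¹ ^ D := by
              gcongr
              exact one_le_pow₀ (by exact le_add_self)
    _ = (6 * (L + 1) ^ 2 : ℕ) * 2⁻¹ ^ D := by push_cast; ring

theorem num_card {C d l K T : ℕ} (hC : 1 ≤ C) (hd : 256 ≤ d) (hK : K ≤ 2 ^ (C * d ^ 2))
    (hT : T < d * l) (hl : l ≤ 110 * C * d) : (T + 1) * (K * 2) ≤ 2 ^ (2 * C * d ^ 2) := by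
  have h1 : T + 1 ≤ 110 * (C * d ^ 2) := by
    have : d * l ≤ d * (110 * C * d) := Nat.mul_le_mul_left d hl
    nlinarith
  have h2 : 220 * (C * d ^ 2) ≤ 2 ^ (C * d ^ 2) := by
    have h3 : ∀ n : ℕ, 12 ≤ n → 220 * n ≤ 2 ^ n := by
      intro n hn
      induction n, hn using Nat.le_induction with
      | base => norm_num
      | succ n hn ih =>
        rw [pow_succ]
        omega
    exact h3 _ (by nlinarith)
  calc (T + 1) * (K * 2) ≤ (110 * (C * d ^ 2)) * (2 ^ (C * d ^ 2) * 2) := by gcongr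
    _ = (220 * (C * d ^ 2)) * 2 ^ (C * d ^ 2) := by ring
    _ ≤ 2 ^ (C * d ^ 2) * 2 ^ (C * d ^ 2) := by gcongr
    _ = 2 ^ (2 * C * d ^ 2) := by rw [← pow_add]; congr 1; ring

theorem num_small {C d D B : ℕ} (hD : 0 < D) (hdD : d ≤ 127 * D)
    (hB : B ≤ 110 * C * d ^ 2 + 1)
    (hlarge : 3 * ((2 + 6 * (110 * 16129 * C + 2) * (110 * 127 * C + 1) ^ 2) * D ^ 4) < 2 * 2 ^ D) :
    3 * (2 + B * (6 * (110 * C * d + 1) ^ 2)) < 2 * 2 ^ D := by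
  refine lt_of_le_of_lt ?_ hlarge
  have hd1 : 110 * C * d + 1 ≤ (110 * 127 * C + 1) * D := by nlinarith
  have hB1 : B ≤ (110 * 16129 * C + 2) * D ^ 2 := by
    have : d ^ 2 ≤ (127 * D) ^ 2 := Nat.pow_le_pow_left hdD 2
    nlinarith
  have h4 : 2 ≤ 2 * D ^ 4 := by
    have : 1 ≤ D ^ 4 := Nat.one_le_pow _ _ hD
    omega
  calc 3 * (2 + B * (6 * (110 * C * d + 1) ^ 2))
      ≤ 3 * (2 * D ^ 4 + ((110 * 16129 * C + 2) * D ^ 2) *
        (6 * ((110 * 127 * C + 1) * D) ^ 2)) := by gcongr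
    _ = _ := by ring

theorem num_small' {A B D : ℕ} (h : 3 * (2 + B * A) < 2 * 2 ^ D) :
    (2 : ℝ≥0∞) * 2⁻¹ ^ D + B * ((A : ℝ≥0∞) * 2⁻¹ ^ D) < 2 / 3 := by
  have h' : (3 : ℝ≥0∞) * (2 + B * A) < 2 * 2 ^ D := by exact_mod_cast h
  rw [ENNReal.lt_div_iff_mul_lt (Or.inl (by norm_num)) (Or.inl (by norm_num))]
  calc ((2 : ℝ≥0∞) * 2⁻¹ ^ D + B * ((A : ℝ≥0∞) * 2⁻¹ ^ D)) * 3
      = (3 * (2 + B * A)) * 2⁻¹ ^ D := by ring
    _ < (2 * 2 ^ D) * 2⁻¹ ^ D := by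
        refine ENNReal.mul_lt_mul_left ?_ ?_ h'
        · exact pow_ne_zero _ (ENNReal.inv_ne_zero.2 ENNReal.ofNat_ne_top)
        · exact ENNReal.pow_ne_top (ENNReal.inv_ne_top.2 two_ne_zero)
    _ = 2 * (2⁻¹ ^ D * 2 ^ D) := by ring
    _ = 2 := by rw [two_inv_mul, mul_one]

theorem num_L {C d D : ℕ} (hC : 1 ≤ C) (hd : 256 ≤ d) (hD : D = d / 64) (l' : ℕ)
    (hl' : 110 * C * d < l') :
    25 * d + (2 * C * d ^ 2 + 25 * d + D) + 8 * D * l' ≤ (d - 1) * l' := by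
  have h1 : 8 * D + 1 + d / 2 ≤ d := by omega
  have h2 : (8 * D + d / 2) * l' ≤ (d - 1) * l' := Nat.mul_le_mul_right l' (by omega)
  have h3 : d / 2 * (110 * C * d) ≤ d / 2 * l' := Nat.mul_le_mul_left _ hl'.le
  have h4 : d ≤ 4 * (d / 2) := by omega
  have h5 : d * (110 * C * d) ≤ 4 * (d / 2) * (110 * C * d) := Nat.mul_le_mul_right _ h4
  have h6 : D ≤ d := by omega
  have h7 : 4 * (d / 2 * (110 * C * d)) = 4 * (d / 2) * (110 * C * d) := by ring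
  have h8 : d ≤ C * d ^ 2 := by nlinarith
  have h9 : d * (110 * C * d) = 110 * (C * d ^ 2) := by ring
  have h10 : 51 * d ≤ C * d ^ 2 := by nlinarith
  have h11 : (8 * D + d / 2) * l' = 8 * D * l' + d / 2 * l' := by ring
  have h12 : 2 * C * d ^ 2 = 2 * (C * d ^ 2) := by ring
  omega

theorem num_fin {C d D B T l : ℕ} (hC : 1 ≤ C) (hD : 0 < D) (hdD : d ≤ 127 * D)
    (hl : 77298 * C ≤ l) (hBD : D * B ≤ T + D)
    (h : 4 * D * l ≤ 75 * d + 2 * D +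
      (D + max (2 * ((1627 + 32258 * C) * D)) D) * B) : d * l ≤ 127 * 67771 * C * T := by
  have hmax : max (2 * ((1627 + 32258 * C) * D)) D = 2 * ((1627 + 32258 * C) * D) :=
    max_eq_left (by nlinarith)
  rw [hmax] at h
  have h1 : 4 * (D * l) ≤ 9527 * D + (3255 + 64516 * C) * (D * B) := by
    nlinarith
  have h2 : (3255 + 64516 * C) * (D * B) ≤ 67771 * C * (T + D) := by
    gcongr
    omega
  have h3 : (9527 + 67771 * C) * D ≤ l * D := by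
    gcongr
    omega
  have h4 : 3 * (D * l) ≤ 67771 * C * T := by nlinarith
  have h5 : d * l ≤ 127 * D * l := Nat.mul_le_mul_right l hdD
  nlinarith

theorem num_huge {C d l K T : ℕ} (hC : 1 ≤ C) (hd : 256 ≤ d) (hK : K ≤ 2 ^ (C * d ^ 2))
    (hT : T < d * l) (hl : 110 * C * d < l) :
    (((T + 1) * (K * 2) : ℕ) : ℝ) * (2 * 3 ^ d * ((1 / 2) ^ l) ^ (d - 1)) ≤ 1 / 2 := by
  have hT' : ((T + 1 : ℕ) : ℝ) ≤ 2 ^ (d + l) := by
    have : T + 1 ≤ 2 ^ (d + l) := by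
      calc T + 1 ≤ d * l := hT
        _ ≤ 2 ^ d * 2 ^ l := Nat.mul_le_mul Nat.lt_two_pow_self.le Nat.lt_two_pow_self.le
        _ = 2 ^ (d + l) := (pow_add _ _ _).symm
    exact_mod_cast this
  have hK' : (K : ℝ) ≤ 2 ^ (C * d ^ 2) := by exact_mod_cast hK
  have hexp : C * d ^ 2 + (d + l) + 1 + 1 + 2 * d + 1 ≤ l * (d - 1) := by
    have g1 : 110 * C * d * (d - 2) ≤ l * (d - 2) := Nat.mul_le_mul_right _ hl.le
    have g2 : l * (d - 1) = l * (d - 2) + l := by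
      obtain ⟨c, hc⟩ := Nat.exists_eq_add_of_le (show 2 ≤ d by omega)
      rw [hc, show 2 + c - 1 = c + 1 by omega, show 2 + c - 2 = c by omega]
      ring
    have g3 : d ≤ 2 * (d - 2) := by omega
    have g4 : 55 * C * d * d ≤ 55 * C * d * (2 * (d - 2)) := Nat.mul_le_mul_left _ g3
    have g5 : 55 * C * d * (2 * (d - 2)) = 110 * C * d * (d - 2) := by ring
    have g6 : 55 * C * d * d = 55 * (C * d ^ 2) := by ring
    have g7 : 4 * d ≤ C * d ^ 2 := by nlinarith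
    omega
  calc (((T + 1) * (K * 2) : ℕ) : ℝ) * (2 * 3 ^ d * ((1 / 2) ^ l) ^ (d - 1))
      = ((T + 1 : ℕ) : ℝ) * (K * 2) * (2 * 3 ^ d * (1 / 2) ^ (l * (d - 1))) := by
        push_cast; rw [← pow_mul]
    _ ≤ 2 ^ (d + l) * (2 ^ (C * d ^ 2) * 2) * (2 * 4 ^ d * (1 / 2) ^ (l * (d - 1))) := by
        gcongr
        norm_num
    _ = 2 ^ (C * d ^ 2 + (d + l) + 1 + 1 + 2 * d) * (1 / 2) ^ (l * (d - 1)) := by
        rw [show (4 : ℝ) ^ d = 2 ^ (2 * d) by rw [pow_mul]; norm_num]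
        rw [pow_add (2 : ℝ) (C * d ^ 2 + (d + l) + 1 + 1), pow_add (2 : ℝ) (C * d ^ 2 + (d + l) + 1),
          pow_add (2 : ℝ) (C * d ^ 2 + (d + l)), pow_add (2 : ℝ) (C * d ^ 2) (d + l), pow_one]
        ring
    _ ≤ 2 ^ (C * d ^ 2 + (d + l) + 1 + 1 + 2 * d) *
        (1 / 2) ^ (C * d ^ 2 + (d + l) + 1 + 1 + 2 * d + 1) :=
        mul_le_mul_of_nonneg_left (pow_le_pow_of_le_one (by norm_num) (by norm_num) hexp)
          (by positivity)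
    _ = 1 / 2 := by
        rw [pow_succ (1 / 2 : ℝ), ← mul_assoc, ← mul_pow]; norm_num

theorem main_nat (C : ℕ) (hC : 1 ≤ C) : ∃ d₀ : ℕ, ∀ d ≥ d₀, ∀ (l K T : ℕ), 77298 * C ≤ l →
    K ≤ 2 ^ (C * d ^ 2) → ∀ (A : Learner d K) (ε : ℝ), ε ≤ (1 / 2) ^ l → A.Succeeds T ε →
      d * l ≤ 127 * 67771 * C * T := by
  obtain ⟨D₀, hD₀⟩ := exists_large (2 + 6 * (110 * 16129 * C + 2) * (110 * 127 * C + 1) ^ 2)
  refine ⟨64 * (D₀ + 4), fun d hd l K T hl hK A ε hε hsucc => ?_⟩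
  by_contra hcon
  push Not at hcon
  obtain ⟨D, hDdef⟩ : ∃ D, D = d / 64 := ⟨_, rfl⟩
  have hDD : D₀ + 4 ≤ D := by omega
  have hD : 0 < D := by omega
  have hdD : d ≤ 127 * D := by omega
  have hDd : 16 * D ≤ d - 1 := by omega
  have hd2 : 256 ≤ d := by omega
  have hTdl : T < d * l := by
    have h1 : T ≤ 127 * 67771 * C * T := by
      have : 1 ≤ 127 * 67771 * C := by omega
      exact Nat.le_mul_of_pos_left T this
    omega
  -- reduce to balls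
  have hprob := unifSphere_prob d (by omega)
  obtain ⟨B, hB⟩ : ∃ B, B = (T + (D - 1)) / D := ⟨_, rfl⟩
  have hBD : T ≤ D * B := by
    have h1 := Nat.div_add_mod (T + (D - 1)) D
    have h2 := Nat.mod_lt (T + (D - 1)) hD
    rw [← hB] at h1
    omega
  have hBD' : D * B ≤ T + D := by
    have h1 := Nat.div_mul_le_self (T + (D - 1)) D
    rw [← hB, mul_comm] at h1
    omega
  obtain ⟨F, k₀, y, hF, hy, hsum⟩ := bridge A hsucc D B hBD
  obtain ⟨w, hw⟩ : ∃ w : (Fin (T + 1) × Fin K × Bool) → Measure (E d), w =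
    chain F (fun k => if k = k₀ then unifSphere d else 0) B := ⟨_, rfl⟩
  rw [← hw] at hsum
  have hwsum : ∑ k, w k = unifSphere d := by
    rw [hw, sum_chain _ F hF B, Finset.sum_ite_eq' Finset.univ k₀ (fun _ => unifSphere d)]
    simp
  have hwU : ∀ k, w k ≤ unifSphere d := by
    intro k S
    rw [← hwsum, Measure.finsetSum_apply]
    exact Finset.single_le_sum (f := fun i => w i S) (fun _ _ => bot_le) (Finset.mem_univ k)
  have hball : ∀ r, ε ≤ r → (2 / 3 : ℝ≥0∞) ≤ ∑ k, w k (Metric.closedBall (y k) r) := by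
    intro r hr
    refine hsum.trans (Finset.sum_le_sum fun k _ => ?_)
    have hnull : w k {s | ‖s‖ ≠ 1} = 0 :=
      le_antisymm ((hwU k _).trans (unifSphere_norm d).le) bot_le
    calc w k {s | Real.arccos ⟪y k, s⟫ ≤ ε}
        ≤ w k ({s | ‖s‖ ≠ 1} ∪ Metric.closedBall (y k) r) := by
          refine measure_mono fun s hs => ?_
          by_cases h1 : ‖s‖ = 1
          · right
            rw [Metric.mem_closedBall, dist_eq_norm]
            exact (norm_sub_le_of_arccos (hy k) h1 hs).trans hr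
          · left; exact h1
      _ ≤ w k {s | ‖s‖ ≠ 1} + w k (Metric.closedBall (y k) r) := measure_union_le _ _
      _ = w k (Metric.closedBall (y k) r) := by rw [hnull, zero_add]
  have hcard : Fintype.card (Fin (T + 1) × Fin K × Bool) = (T + 1) * (K * 2) := by
    simp [Fintype.card_prod]
  rcases le_or_gt l (110 * C * d) with hl2 | hl2
  · -- moderate precision
    have hN : Fintype.card (Fin (T + 1) × Fin K × Bool) ≤ 2 ^ (2 * C * d ^ 2) := by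
      rw [hcard]; exact num_card hC hd2 hK hTdl hl2
    have herr := err_le (L := 110 * C * d) (C := C) hD rfl rfl rfl hdD hN
    have hBle : B ≤ 110 * C * d ^ 2 + 1 := by
      have h1 : B ≤ T + 1 := by
        by_contra hc
        push Not at hc
        have h5 : D * (T + 2) ≤ D * B := Nat.mul_le_mul_left D hc
        have h6 : D * (T + 2) = D * T + 2 * D := by ring
        have h7 : T ≤ D * T := Nat.le_mul_of_pos_left T hD
        omega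
      have h2 : d * l ≤ d * (110 * C * d) := Nat.mul_le_mul_left d hl2
      have h3 : d * (110 * C * d) = 110 * C * d ^ 2 := by ring
      omega
    have hsm1 := num_small' (num_small (C := C) hD hdD hBle (hD₀ D (by omega)))
    have hsmall : 2 * 2⁻¹ ^ D + B * err d D (110 * C * d) ((1627 + 32258 * C) * D) D
        (2 * C * d ^ 2 + 25 * d + D) (Fintype.card (Fin (T + 1) × Fin K × Bool)) < 2 / 3 :=
      lt_of_le_of_lt (add_le_add le_rfl (mul_le_mul' le_rfl herr)) hsm1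
    have hfin := core (g := (1627 + 32258 * C) * D) (z := D) (t := 2 * C * d ^ 2 + 25 * d + D)
      (by omega) hD hdD hDd hl2 (fun l' hl' => num_L hC hd2 hDdef l' hl') F hF k₀ y hsmall
      (by rw [← hw]; exact hball _ hε)
    exact absurd (num_fin hC hD hdD hl hBD' hfin) (not_le.2 hcon)
  · -- huge precision
    have hsm := hball _ hε
    have h1 : ∑ k, w k (Metric.closedBall (y k) ((1 / 2) ^ l)) ≤
        ((T + 1) * (K * 2) : ℕ) * ENNReal.ofReal (2 * 3 ^ d * ((1 / 2) ^ l) ^ (d - 1)) := by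
      calc ∑ k, w k (Metric.closedBall (y k) ((1 / 2) ^ l))
          ≤ ∑ _k : Fin (T + 1) × Fin K × Bool,
              ENNReal.ofReal (2 * 3 ^ d * ((1 / 2) ^ l) ^ (d - 1)) := by
            refine Finset.sum_le_sum fun k _ => (hwU k _).trans ?_
            exact unifSphere_ball d (by omega) (y k) (by positivity)
        _ = _ := by rw [Finset.sum_const, Finset.card_univ, hcard, nsmul_eq_mul]
    have h2 : ((T + 1) * (K * 2) : ℕ) * ENNReal.ofReal (2 * 3 ^ d * ((1 / 2) ^ l) ^ (d - 1)) ≤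
        ENNReal.ofReal (1 / 2) := by
      calc (((T + 1) * (K * 2) : ℕ) : ℝ≥0∞) *
            ENNReal.ofReal (2 * 3 ^ d * ((1 / 2) ^ l) ^ (d - 1))
          = ENNReal.ofReal ((((T + 1) * (K * 2) : ℕ) : ℝ) *
              (2 * 3 ^ d * ((1 / 2) ^ l) ^ (d - 1))) := by
            rw [ENNReal.ofReal_mul (p := (((T + 1) * (K * 2) : ℕ) : ℝ)) (Nat.cast_nonneg _),
              ENNReal.ofReal_natCast]
        _ ≤ ENNReal.ofReal (1 / 2) := ENNReal.ofReal_le_ofReal (num_huge hC hd2 hK hTdl hl2)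
    have h3 : (2 / 3 : ℝ≥0∞) ≤ ENNReal.ofReal (1 / 2) := hsm.trans (h1.trans h2)
    have h4 : (2 / 3 : ℝ≥0∞) = ENNReal.ofReal (2 / 3) := by
      rw [ENNReal.ofReal_div_of_pos (by norm_num)]; norm_num
    rw [h4, ENNReal.ofReal_le_ofReal_iff (by norm_num)] at h3
    norm_num at h3

end Vale.Agent.P309
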