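import Vale.Agent.P309.Base

/-! P309 piece [D] (helper15): a measure on `ℝⁿ` whose dyadic densities have a finite `p`-th
moment is comparable to Lebesgue measure on every set. -/

open MeasureTheory ProbabilityTheory
open scoped RealInnerProductSpace ENNReal

namespace Vale.Agent.P309

/-- Index of the level-`j` dyadic cube. -/
noncomputable def cidx (n j : ℕ) (u : Fin n → ℝ) : Fin n → ℤ := fun i => ⌊(2 : ℝ) ^ j * u i⌋

theorem measurable_cidx (n j : ℕ) : Measurable (cidx n j) := by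
  unfold cidx
  refine measurable_pi_lambda _ fun i => ?_
  exact Int.measurable_floor.comp ((measurable_pi_apply i).const_mul _)

theorem cube_eq (n j : ℕ) (u : Fin n → ℝ) : cube n j u = cidx n j ⁻¹' {cidx n j u} := by
  ext u'
  simp only [cube, Set.mem_ofPred_eq, Set.mem_preimage, Set.mem_singleton_iff]
  exact funext_iff.symm

theorem cidx_preimage (n j : ℕ) (k : Fin n → ℤ) :
    cidx n j ⁻¹' {k} =
      Set.pi Set.univ fun i => Set.Ico ((k i : ℝ) / 2 ^ j) (((k i : ℝ) + 1) / 2 ^ j) := by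
  have h2 : (0 : ℝ) < 2 ^ j := by positivity
  ext u
  simp only [Set.mem_preimage, Set.mem_singleton_iff, Set.mem_univ_pi, Set.mem_Ico]
  rw [funext_iff]
  refine forall_congr' fun i => ?_
  unfold cidx
  rw [Int.floor_eq_iff, div_le_iff₀ h2, lt_div_iff₀ h2, mul_comm]

theorem volume_cidx (n j : ℕ) (k : Fin n → ℤ) :
    volume (cidx n j ⁻¹' {k}) * 2 ^ (j * n) = 1 := by
  rw [cidx_preimage, Real.volume_pi_Ico]
  have h2 : (0 : ℝ) < 2 ^ j := by positivity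
  have h : ∀ i, ENNReal.ofReal (((k i : ℝ) + 1) / 2 ^ j - (k i : ℝ) / 2 ^ j) = (2 ^ j)⁻¹ := by
    intro i
    have : ((k i : ℝ) + 1) / 2 ^ j - (k i : ℝ) / 2 ^ j = (2 ^ j)⁻¹ := by
      field_simp; ring
    rw [this, ENNReal.ofReal_inv_of_pos h2, ENNReal.ofReal_pow (by norm_num)]
    norm_num
  rw [Finset.prod_congr rfl fun i _ => h i, Finset.prod_const, Finset.card_univ,
    Fintype.card_fin, pow_mul, ← mul_pow, ENNReal.inv_mul_cancel (by simp) (by simp), one_pow]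

theorem cidx_anti {n j j' : ℕ} (h : j ≤ j') {u v : Fin n → ℝ}
    (huv : cidx n j' u = cidx n j' v) : cidx n j u = cidx n j v := by
  obtain ⟨k, rfl⟩ := Nat.exists_eq_add_of_le h
  funext i
  have hi := congrFun huv i
  simp only [cidx] at hi ⊢
  have key : ∀ x : ℝ, ⌊(2 : ℝ) ^ j * x⌋ = ⌊(2 : ℝ) ^ (j + k) * x⌋ / (2 ^ k : ℕ) := by
    intro x
    rw [← Int.floor_div_natCast]
    congr 1
    push_cast
    rw [pow_add]
    field_simp
  rw [key, key, hi]

theorem dist_le_of_cidx {n j : ℕ} {u v : Fin n → ℝ} (huv : cidx n j u = cidx n j v) :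
    dist u v ≤ (1 / 2) ^ j := by
  rw [dist_pi_le_iff (by positivity)]
  intro i
  have h1 : |(2 : ℝ) ^ j * u i - (2 : ℝ) ^ j * v i| < 1 :=
    Int.abs_sub_lt_one_of_floor_eq_floor (congrFun huv i)
  rw [← mul_sub, abs_mul, abs_of_pos (by positivity : (0 : ℝ) < 2 ^ j)] at h1
  rw [Real.dist_eq, one_div, inv_pow, ← one_div, le_div_iff₀ (by positivity)]
  linarith

theorem measurableSet_cidx_preimage {n : ℕ} (j : ℕ) (K : Set (Fin n → ℤ)) :
    MeasurableSet (cidx n j ⁻¹' K) :=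
  measurable_cidx n j (MeasurableSet.of_discrete)

/-- The part of `O` covered by cubes that leave `O` has small measure. -/
theorem tendsto_bad {n : ℕ} (ν : Measure (Fin n → ℝ)) [IsFiniteMeasure ν]
    (O : Set (Fin n → ℝ)) (hO : IsOpen O) :
    Filter.Tendsto (fun j : ℕ => ν (O \ cidx n j ⁻¹' {k | cidx n j ⁻¹' {k} ⊆ O}))
      Filter.atTop (nhds 0) := by
  have hmeas : ∀ j : ℕ, NullMeasurableSet
      (O \ cidx n j ⁻¹' {k | cidx n j ⁻¹' {k} ⊆ O}) ν := fun j =>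
    (hO.measurableSet.diff (measurableSet_cidx_preimage j _)).nullMeasurableSet
  have hanti : Antitone fun j : ℕ => O \ cidx n j ⁻¹' {k | cidx n j ⁻¹' {k} ⊆ O} := by
    intro j j' hjj' u hu
    refine ⟨hu.1, fun hu' => hu.2 ?_⟩
    simp only [Set.mem_preimage, Set.mem_ofPred_eq] at hu' ⊢
    intro v hv
    refine hu' ?_
    exact cidx_anti hjj' hv
  have hint : (⋂ j : ℕ, O \ cidx n j ⁻¹' {k | cidx n j ⁻¹' {k} ⊆ O}) = ∅ := by
    rw [Set.eq_empty_iff_forall_notMem]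
    intro u hu
    rw [Set.mem_iInter] at hu
    have huO := (hu 0).1
    obtain ⟨ε, hε, hball⟩ := Metric.isOpen_iff.1 hO u huO
    obtain ⟨j, hj⟩ := exists_pow_lt_of_lt_one hε (by norm_num : (1 / 2 : ℝ) < 1)
    refine (hu j).2 ?_
    simp only [Set.mem_preimage, Set.mem_ofPred_eq]
    intro v hv
    exact hball (lt_of_le_of_lt (dist_le_of_cidx hv) hj)
  have h := tendsto_measure_iInter_atTop hmeas hanti ⟨0, measure_ne_top ν _⟩
  rw [hint, measure_empty] at h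
  exact h

/-- One level of the estimate. -/
theorem hit_level {n : ℕ} (ν : Measure (Fin n → ℝ)) [IsFiniteMeasure ν]
    (O : Set (Fin n → ℝ)) (p : ℕ) (κ : ℝ≥0∞) (hκ : κ ≠ 0) (hκ' : κ ≠ ∞) (j : ℕ) :
    ν O ≤ κ * volume O + ((κ ^ p)⁻¹ * (∫⁻ u, (ν (cube n j u) * 2 ^ (j * n)) ^ p ∂ν) +
      ν (O \ cidx n j ⁻¹' {k | cidx n j ⁻¹' {k} ⊆ O})) := by
  set c := cidx n j with hc
  set K : Set (Fin n → ℤ) := {k | c ⁻¹' {k} ⊆ O ∧ ν (c ⁻¹' {k}) * 2 ^ (j * n) ≤ κ} with hK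
  set H : Set (Fin n → ℤ) := {k | κ < ν (c ⁻¹' {k}) * 2 ^ (j * n)} with hH
  have hcover : O ⊆ c ⁻¹' K ∪ (c ⁻¹' H ∪ (O \ c ⁻¹' {k | c ⁻¹' {k} ⊆ O})) := by
    intro u hu
    by_cases h1 : c ⁻¹' {c u} ⊆ O
    · by_cases h2 : ν (c ⁻¹' {c u}) * 2 ^ (j * n) ≤ κ
      · exact Or.inl ⟨h1, h2⟩
      · exact Or.inr (Or.inl (not_le.1 h2))
    · exact Or.inr (Or.inr ⟨hu, h1⟩)
  have hgood : ν (c ⁻¹' K) ≤ κ * volume O := by
    have hcard : K.Countable := Set.to_countable K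
    have hms : ∀ y ∈ K, MeasurableSet (c ⁻¹' {y}) := fun y _ =>
      measurable_cidx n j (measurableSet_singleton y)
    rw [← tsum_measure_preimage_singleton hcard hms]
    have hsub : c ⁻¹' K ⊆ O := by
      intro u hu
      exact hu.1 rfl
    calc ∑' b : K, ν (c ⁻¹' {(b : Fin n → ℤ)})
        ≤ ∑' b : K, κ * volume (c ⁻¹' {(b : Fin n → ℤ)}) := by
          refine ENNReal.tsum_le_tsum fun b => ?_
          have h1 : ν (c ⁻¹' {(b : Fin n → ℤ)}) * 2 ^ (j * n) ≤ κ := b.2.2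
          have h2 := volume_cidx n j (b : Fin n → ℤ)
          calc ν (c ⁻¹' {(b : Fin n → ℤ)})
              = ν (c ⁻¹' {(b : Fin n → ℤ)}) *
                (volume (c ⁻¹' {(b : Fin n → ℤ)}) * 2 ^ (j * n)) := by rw [hc, h2, mul_one]
            _ = (ν (c ⁻¹' {(b : Fin n → ℤ)}) * 2 ^ (j * n)) *
                volume (c ⁻¹' {(b : Fin n → ℤ)}) := by ring
            _ ≤ κ * volume (c ⁻¹' {(b : Fin n → ℤ)}) := mul_le_mul_left h1 _
      _ = κ * volume (c ⁻¹' K) := by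
          rw [ENNReal.tsum_mul_left, tsum_measure_preimage_singleton hcard hms]
      _ ≤ κ * volume O := mul_le_mul_right (measure_mono hsub) _
  have hbad : ν (c ⁻¹' H) ≤ (κ ^ p)⁻¹ * ∫⁻ u, (ν (cube n j u) * 2 ^ (j * n)) ^ p ∂ν := by
    have hκp : κ ^ p ≠ 0 := pow_ne_zero _ hκ
    have hκp' : κ ^ p ≠ ∞ := ENNReal.pow_ne_top hκ'
    have hf : Measurable fun u : Fin n → ℝ => (ν (cube n j u) * 2 ^ (j * n)) ^ p := by
      have : (fun u : Fin n → ℝ => (ν (cube n j u) * 2 ^ (j * n)) ^ p) =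
          (fun k : Fin n → ℤ => (ν (c ⁻¹' {k}) * 2 ^ (j * n)) ^ p) ∘ c := by
        funext u
        simp only [Function.comp_apply, cube_eq, hc]
      rw [this]
      exact (measurable_of_countable _).comp (measurable_cidx n j)
    have hm := mul_meas_ge_le_lintegral (μ := ν) hf (κ ^ p)
    have hsub : c ⁻¹' H ⊆ {u | κ ^ p ≤ (ν (cube n j u) * 2 ^ (j * n)) ^ p} := by
      intro u hu
      have hu' : κ < ν (c ⁻¹' {c u}) * 2 ^ (j * n) := hu
      simp only [Set.mem_ofPred_eq, cube_eq]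
      exact pow_le_pow_left' hu'.le p
    calc ν (c ⁻¹' H) ≤ ν {u | κ ^ p ≤ (ν (cube n j u) * 2 ^ (j * n)) ^ p} := measure_mono hsub
      _ = (κ ^ p)⁻¹ * (κ ^ p * ν {u | κ ^ p ≤ (ν (cube n j u) * 2 ^ (j * n)) ^ p}) := by
          rw [← mul_assoc, ENNReal.inv_mul_cancel hκp hκp', one_mul]
      _ ≤ _ := mul_le_mul_right hm _
  calc ν O ≤ ν (c ⁻¹' K ∪ (c ⁻¹' H ∪ (O \ c ⁻¹' {k | c ⁻¹' {k} ⊆ O}))) := measure_mono hcover
    _ ≤ ν (c ⁻¹' K) + (ν (c ⁻¹' H) + ν (O \ c ⁻¹' {k | c ⁻¹' {k} ⊆ O})) :=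
        (measure_union_le _ _).trans (add_le_add le_rfl (measure_union_le _ _))
    _ ≤ _ := add_le_add hgood (add_le_add hbad le_rfl)

theorem hit_le {n : ℕ} (ν : Measure (Fin n → ℝ)) [IsFiniteMeasure ν] (T : Set (Fin n → ℝ))
    (hT : MeasurableSet T) (p : ℕ) (κ : ℝ≥0∞) (hκ : κ ≠ 0) (hκ' : κ ≠ ∞) :
    ν T ≤ κ * volume T + (κ ^ p)⁻¹ *
      Filter.liminf (fun j : ℕ => ∫⁻ u, (ν (cube n j u) * 2 ^ (j * n)) ^ p ∂ν) Filter.atTop := by
  set I : ℕ → ℝ≥0∞ := fun j => ∫⁻ u, (ν (cube n j u) * 2 ^ (j * n)) ^ p ∂ν with hI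
  have hκp : κ ^ p ≠ 0 := pow_ne_zero _ hκ
  have hκp' : κ ^ p ≠ ∞ := ENNReal.pow_ne_top hκ'
  -- the estimate for open sets
  have hopen : ∀ O : Set (Fin n → ℝ), IsOpen O →
      ν O ≤ κ * volume O + (κ ^ p)⁻¹ * Filter.liminf I Filter.atTop := by
    intro O hO
    have hb := tendsto_bad ν O hO
    calc ν O ≤ Filter.liminf (fun j : ℕ => κ * volume O + ((κ ^ p)⁻¹ * I j +
          ν (O \ cidx n j ⁻¹' {k | cidx n j ⁻¹' {k} ⊆ O}))) Filter.atTop :=
          Filter.le_liminf_of_le (by isBoundedDefault)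
            (Filter.Eventually.of_forall fun j => hit_level ν O p κ hκ hκ' j)
      _ = κ * volume O + Filter.liminf (fun j : ℕ => ((κ ^ p)⁻¹ * I j +
          ν (O \ cidx n j ⁻¹' {k | cidx n j ⁻¹' {k} ⊆ O}))) Filter.atTop :=
          liminf_const_add _ _ _ (by isBoundedDefault) (by isBoundedDefault)
      _ = κ * volume O + Filter.liminf (fun j : ℕ => (κ ^ p)⁻¹ * I j) Filter.atTop := by
          congr 1
          exact ENNReal.liminf_add_of_right_tendsto_zero hb _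
      _ = κ * volume O + (κ ^ p)⁻¹ * Filter.liminf I Filter.atTop := by
          rw [ENNReal.liminf_const_mul_of_ne_zero_of_ne_top (ENNReal.inv_ne_zero.2 hκp')
            (ENNReal.inv_ne_top.2 hκp)]
  refine ENNReal.le_of_forall_pos_le_add fun ε hε _ => ?_
  have hε' : (ε : ℝ≥0∞) / κ ≠ 0 := by
    rw [Ne, ENNReal.div_eq_zero_iff]
    push Not
    exact ⟨by exact_mod_cast hε.ne', hκ'⟩
  obtain ⟨O, hTO, hO, hvol⟩ := T.exists_isOpen_le_add volume hε'
  calc ν T ≤ ν O := measure_mono hTO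
    _ ≤ κ * volume O + (κ ^ p)⁻¹ * Filter.liminf I Filter.atTop := hopen O hO
    _ ≤ κ * (volume T + ε / κ) + (κ ^ p)⁻¹ * Filter.liminf I Filter.atTop := by
        gcongr
    _ = κ * volume T + (κ ^ p)⁻¹ * Filter.liminf I Filter.atTop + ε := by
        rw [mul_add, ENNReal.mul_div_cancel hκ hκ']
        ring

end Vale.Agent.P309
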