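import Vale.Agent.P309.Sphere
import Vale.Agent.P309.Bridge

open MeasureTheory ProbabilityTheory
open scoped RealInnerProductSpace ENNReal

namespace Vale.Agent.P309

theorem norm_sub_le_of_arccos_le {d : ℕ} {u s : E d} (hu : ‖u‖ = 1) (hs : ‖s‖ = 1) {ε : ℝ}
    (h : Real.arccos ⟪u, s⟫ ≤ ε) : ‖u - s‖ ≤ ε := by
  have h0 : 0 ≤ Real.arccos ⟪u, s⟫ := Real.arccos_nonneg _
  have habs := abs_real_inner_le_norm u s
  rw [hu, hs, mul_one] at habs
  have hc : Real.cos (Real.arccos ⟪u, s⟫) = ⟪u, s⟫ :=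
    Real.cos_arccos (abs_le.1 habs).1 (abs_le.1 habs).2
  have h1 : ‖u - s‖ ^ 2 = 2 - 2 * ⟪u, s⟫ := by
    rw [norm_sub_sq_real, hu, hs]
    ring
  have h2 := Real.one_sub_sq_div_two_le_cos (x := Real.arccos ⟪u, s⟫)
  have h3 : ‖u - s‖ ^ 2 ≤ (Real.arccos ⟪u, s⟫) ^ 2 := by
    rw [h1]
    linarith
  exact (abs_le_of_sq_le_sq h3 h0 |> (le_abs_self _).trans).trans h

variable {d K : ℕ} (L : Learner d K)

theorem run_fst_le (ω : L.Ω) (s : E d) (t : ℕ) (x : Fin t → E d) : (L.run ω s t x).1 ≤ t := by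
  induction t with
  | zero => exact le_rfl
  | succ t ih =>
    have e2 : L.run ω s (t + 1) x =
        (if (L.run ω s t (Fin.init x)).2.2 then L.run ω s t (Fin.init x)
        else (t + 1, L.next t ω (L.run ω s t (Fin.init x)).2.1 (x (Fin.last t))
          ⟪x (Fin.last t), s⟫, L.stop t ω (L.run ω s t (Fin.init x)).2.1 (x (Fin.last t))
          ⟪x (Fin.last t), s⟫)) := rfl
    rw [e2]
    split_ifs
    · exact (ih _).trans (Nat.le_succ t)
    · exact le_rfl

/-- General counting bound: if the outputs at accuracy `ε` are among `J` unit vectors (for each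
value of the internal randomness), success forces `2/3 ≤ J * 2 * 3^d * ε^(d-1)`. -/
theorem counting_bound (hd : 2 ≤ d) {T : ℕ} {ε : ℝ} (hε : 0 < ε) (h : L.Succeeds T ε) {J : ℕ}
    (z : L.Ω → Fin J → E d) (hz : ∀ ω j, ‖z ω j‖ = 1)
    (hout : ∀ ω s (x : Fin T → E d), ∃ j, L.output T ω s x = z ω j) :
    (2 / 3 : ℝ) ≤ J * (2 * 3 ^ d * ε ^ (d - 1)) := by
  have := unifSphere_prob d hd
  have hA : MeasurableSet {z : L.Ω × E d × (Fin T → E d) |
      Real.arccos ⟪L.output T z.1 z.2.1 z.2.2, z.2.1⟫ ≤ ε} := by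
    have h1 : Measurable fun z : L.Ω × E d × (Fin T → E d) =>
        Real.arccos ⟪L.output T z.1 z.2.1 z.2.2, z.2.1⟫ :=
      Real.continuous_arccos.measurable.comp
        ((measurable_output L T).inner (measurable_fst.comp measurable_snd))
    exact h1 measurableSet_Iic
  unfold Learner.Succeeds at h
  rw [Measure.prod_apply hA] at h
  have hω : ∀ ω : L.Ω, ((unifSphere d).prod (Measure.pi fun _ : Fin T =>
      stdGaussian (E d))) (Prod.mk ω ⁻¹' {z : L.Ω × E d × (Fin T → E d) |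
      Real.arccos ⟪L.output T z.1 z.2.1 z.2.2, z.2.1⟫ ≤ ε}) ≤
      ENNReal.ofReal (J * (2 * 3 ^ d * ε ^ (d - 1))) := by
    intro ω
    have hsub : (Prod.mk ω ⁻¹' {z : L.Ω × E d × (Fin T → E d) |
        Real.arccos ⟪L.output T z.1 z.2.1 z.2.2, z.2.1⟫ ≤ ε}) ⊆
        ({s : E d | ‖s‖ ≠ 1} ∪ ⋃ j, Metric.closedBall (z ω j) ε) ×ˢ Set.univ := by
      rintro ⟨s, x⟩ hsx
      simp only [Set.mem_preimage, Set.mem_ofPred_eq] at hsx
      refine ⟨?_, Set.mem_univ _⟩
      by_cases hs : ‖s‖ = 1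
      · right
        obtain ⟨j, hj⟩ := hout ω s x
        rw [hj] at hsx
        refine Set.mem_iUnion.2 ⟨j, ?_⟩
        rw [Metric.mem_closedBall, dist_eq_norm, norm_sub_rev]
        exact norm_sub_le_of_arccos_le (hz ω j) hs hsx
      · left; exact hs
    calc _ ≤ ((unifSphere d).prod (Measure.pi fun _ : Fin T => stdGaussian (E d)))
          (({s : E d | ‖s‖ ≠ 1} ∪ ⋃ j, Metric.closedBall (z ω j) ε) ×ˢ Set.univ) :=
        measure_mono hsub
      _ = unifSphere d ({s : E d | ‖s‖ ≠ 1} ∪ ⋃ j, Metric.closedBall (z ω j) ε) := by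
        rw [Measure.prod_prod, measure_univ, mul_one]
      _ ≤ unifSphere d {s : E d | ‖s‖ ≠ 1} +
          unifSphere d (⋃ j, Metric.closedBall (z ω j) ε) := measure_union_le _ _
      _ ≤ 0 + ∑ j, unifSphere d (Metric.closedBall (z ω j) ε) := by
        rw [unifSphere_norm]
        gcongr
        exact measure_iUnion_fintype_le _ _
      _ ≤ ∑ _j : Fin J, ENNReal.ofReal (2 * 3 ^ d * ε ^ (d - 1)) := by
        rw [zero_add]
        exact Finset.sum_le_sum fun j _ => unifSphere_ball d hd _ hε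
      _ = ENNReal.ofReal (J * (2 * 3 ^ d * ε ^ (d - 1))) := by
        rw [Finset.sum_const, Finset.card_univ, Fintype.card_fin, nsmul_eq_mul,
          ENNReal.ofReal_mul (Nat.cast_nonneg _), ENNReal.ofReal_natCast]
  have h2 : (2 / 3 : ℝ≥0∞) ≤ ENNReal.ofReal (J * (2 * 3 ^ d * ε ^ (d - 1))) := by
    refine h.trans ?_
    calc _ ≤ ∫⁻ _ω, ENNReal.ofReal (J * (2 * 3 ^ d * ε ^ (d - 1))) ∂L.P := lintegral_mono hω
      _ = _ := by simp
  have h3 : (2 / 3 : ℝ≥0∞) = ENNReal.ofReal (2 / 3) := by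
    rw [ENNReal.ofReal_div_of_pos (by norm_num)]
    simp
  rw [h3] at h2
  exact (ENNReal.ofReal_le_ofReal_iff (by positivity)).1 h2

/-- If the output rule depends on the final state only, a learner with `K` states that succeeds at
accuracy `ε`, with any horizon, has `2/3 ≤ K * 2 * 3^d * ε^(d-1)`. -/
theorem infeasible (hd : 2 ≤ d) (hout : ∀ t t' ω q, L.out t ω q = L.out t' ω q) {T : ℕ} {ε : ℝ}
    (hε : 0 < ε) (h : L.Succeeds T ε) : (2 / 3 : ℝ) ≤ K * (2 * 3 ^ d * ε ^ (d - 1)) :=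
  counting_bound L hd hε h (fun ω q => L.out 0 ω q) (fun _ _ => L.norm_out _ _ _)
    fun _ _ _ => ⟨_, hout _ _ _ _⟩

/-- In general a learner with `K` states and horizon `T` that succeeds at accuracy `ε` has
`2/3 ≤ K (T + 1) * 2 * 3^d * ε^(d-1)`. -/
theorem infeasible_general (hd : 2 ≤ d) {T : ℕ} {ε : ℝ} (hε : 0 < ε) (h : L.Succeeds T ε) :
    (2 / 3 : ℝ) ≤ ((T + 1) * K : ℕ) * (2 * 3 ^ d * ε ^ (d - 1)) := by
  refine counting_bound L hd hε h (fun ω q => L.out (finProdFinEquiv.symm q).1 ω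
    (finProdFinEquiv.symm q).2) (fun _ _ => L.norm_out _ _ _) fun ω s x => ?_
  refine ⟨finProdFinEquiv (⟨(L.run ω s T x).1, Nat.lt_succ_of_le (run_fst_le L ω s T x)⟩,
    (L.run ω s T x).2.1), ?_⟩
  simp [Learner.output]

end Vale.Agent.P309
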