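import Vale.Agent.P309.Sphere
import Vale.Agent.P309.Bridge

open MeasureTheory ProbabilityTheory
open scoped RealInnerProductSpace ENNReal

namespace Vale.Agent.P309

/-- squared relative projection of `v` on the direction of `x` -/
theorem ratio_le {d : ℕ} (x v : E d) : ⟪x, v⟫ ^ 2 / ‖x‖ ^ 2 ≤ ‖v‖ ^ 2 := by
  rcases eq_or_ne x 0 with rfl | hx
  · simp
  have h1 : (0 : ℝ) < ‖x‖ ^ 2 := by positivity
  rw [div_le_iff₀ h1]
  have h2 := abs_real_inner_le_norm x v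
  calc ⟪x, v⟫ ^ 2 = |⟪x, v⟫| ^ 2 := (sq_abs _).symm
    _ ≤ (‖x‖ * ‖v‖) ^ 2 := by gcongr
    _ = ‖v‖ ^ 2 * ‖x‖ ^ 2 := by ring

theorem integrable_ratio {d : ℕ} (v : E d) :
    Integrable (fun x : E d => ⟪x, v⟫ ^ 2 / ‖x‖ ^ 2) (stdGaussian (E d)) := by
  refine Integrable.of_bound (C := ‖v‖ ^ 2) ?_ ?_
  · exact ((Measurable.pow_const (measurable_id.inner measurable_const) 2).div
      (measurable_norm.pow_const 2)).aestronglyMeasurable
  · refine Filter.Eventually.of_forall fun x => ?_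
    rw [Real.norm_eq_abs, abs_of_nonneg (by positivity)]
    exact ratio_le x v

theorem integral_ratio_iso {d : ℕ} (v : E d) (f : E d ≃ₗᵢ[ℝ] E d) :
    ∫ x, ⟪x, f v⟫ ^ 2 / ‖x‖ ^ 2 ∂(stdGaussian (E d)) =
      ∫ x, ⟪x, v⟫ ^ 2 / ‖x‖ ^ 2 ∂(stdGaussian (E d)) := by
  have h := stdGaussian_map (E := E d) f
  conv_lhs => rw [← h]
  rw [integral_map]
  · refine integral_congr_ae (Filter.Eventually.of_forall fun x => ?_)
    simp
  · exact f.continuous.aemeasurable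
  · exact ((Measurable.pow_const (measurable_id.inner measurable_const) 2).div
      (measurable_norm.pow_const 2)).aestronglyMeasurable

theorem integral_ratio_eq {d : ℕ} {u v : E d} (h : ‖u‖ = ‖v‖) :
    ∫ x, ⟪x, u⟫ ^ 2 / ‖x‖ ^ 2 ∂(stdGaussian (E d)) =
      ∫ x, ⟪x, v⟫ ^ 2 / ‖x‖ ^ 2 ∂(stdGaussian (E d)) := by
  have h1 := integral_ratio_iso v ((ℝ ∙ (v - u))ᗮ.reflection)
  rw [Submodule.reflection_sub h.symm] at h1
  exact h1

theorem ae_ne_zero {d : ℕ} (hd : 1 ≤ d) : ∀ᵐ x ∂(stdGaussian (E d)), x ≠ 0 := by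
  have h : (stdGaussian (E d)).map (fun x => ⟪EuclideanSpace.single (⟨0, hd⟩ : Fin d) (1 : ℝ), x⟫) =
      gaussianReal 0 1 := by
    apply Measure.ext_of_charFun
    ext t
    rw [charFun_gaussianReal, charFun_apply_real, integral_map]
    · have h2 := charFun_stdGaussian (E := E d) (t • EuclideanSpace.single (⟨0, hd⟩ : Fin d) (1 : ℝ))
      rw [charFun_apply] at h2
      have h3 : ∀ x : E d, ⟪x, t • EuclideanSpace.single (⟨0, hd⟩ : Fin d) (1 : ℝ)⟫ =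
          t * ⟪EuclideanSpace.single (⟨0, hd⟩ : Fin d) (1 : ℝ), x⟫ := by
        intro x
        rw [real_inner_smul_right, real_inner_comm]
      simp_rw [h3] at h2
      push_cast at h2 ⊢
      rw [h2]
      have h5 : ‖t • EuclideanSpace.single (⟨0, hd⟩ : Fin d) (1 : ℝ)‖ ^ 2 = t ^ 2 := by
        rw [norm_smul, mul_pow]
        simp
      have h6 : ((‖t • EuclideanSpace.single (⟨0, hd⟩ : Fin d) (1 : ℝ)‖ : ℝ) : ℂ) ^ 2 =
          (t : ℂ) ^ 2 := by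
        rw [← Complex.ofReal_pow, h5, Complex.ofReal_pow]
      rw [h6]
      congr 1
      simp
      ring
    · exact (measurable_const.inner measurable_id).aemeasurable
    · fun_prop
  have h4 : (stdGaussian (E d)) ((fun x => ⟪EuclideanSpace.single (⟨0, hd⟩ : Fin d) (1 : ℝ), x⟫) ⁻¹' {0}) = 0 := by
    have hm : Measurable fun x : E d => ⟪EuclideanSpace.single (⟨0, hd⟩ : Fin d) (1 : ℝ), x⟫ :=
      measurable_const.inner measurable_id
    rw [← Measure.map_apply hm (measurableSet_singleton _), h]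
    haveI := nullSingletonClass_gaussianReal (μ := 0) (v := 1) one_ne_zero
    exact measure_singleton _
  rw [ae_iff]
  refine measure_mono_null ?_ h4
  intro x hx
  simp only [ne_eq, not_not, Set.mem_ofPred_eq] at hx
  simp [hx]

theorem integral_ratio {d : ℕ} (hd : 1 ≤ d) (v : E d) :
    ∫ x, ⟪x, v⟫ ^ 2 / ‖x‖ ^ 2 ∂(stdGaussian (E d)) = ‖v‖ ^ 2 / d := by
  -- unit coordinate vectors
  have hb : ∀ i : Fin d, ∫ x, ⟪x, EuclideanSpace.single i (1 : ℝ)⟫ ^ 2 / ‖x‖ ^ 2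
      ∂(stdGaussian (E d)) =
      ∫ x, ⟪x, EuclideanSpace.single (⟨0, hd⟩ : Fin d) (1 : ℝ)⟫ ^ 2 / ‖x‖ ^ 2
      ∂(stdGaussian (E d)) := fun i => integral_ratio_eq (by simp)
  have hsum : ∑ i : Fin d, ∫ x, ⟪x, EuclideanSpace.single i (1 : ℝ)⟫ ^ 2 / ‖x‖ ^ 2
      ∂(stdGaussian (E d)) = 1 := by
    rw [← integral_finsetSum _ fun i _ => integrable_ratio _]
    have : ∀ᵐ x ∂(stdGaussian (E d)), ∑ i : Fin d,
        ⟪x, EuclideanSpace.single i (1 : ℝ)⟫ ^ 2 / ‖x‖ ^ 2 = 1 := by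
      filter_upwards [ae_ne_zero hd] with x hx
      rw [← Finset.sum_div]
      have h1 : ∑ i : Fin d, ⟪x, EuclideanSpace.single i (1 : ℝ)⟫ ^ 2 = ‖x‖ ^ 2 := by
        rw [EuclideanSpace.real_norm_sq_eq]
        refine Finset.sum_congr rfl fun i _ => ?_
        rw [EuclideanSpace.inner_single_right]
        simp
      rw [h1, div_self]
      positivity
    rw [integral_congr_ae this]
    simp
  have h0 : ∫ x, ⟪x, EuclideanSpace.single (⟨0, hd⟩ : Fin d) (1 : ℝ)⟫ ^ 2 / ‖x‖ ^ 2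
      ∂(stdGaussian (E d)) = 1 / d := by
    rw [Finset.sum_congr rfl fun i _ => hb i, Finset.sum_const, Finset.card_univ,
      Fintype.card_fin, nsmul_eq_mul] at hsum
    have hd0 : (0 : ℝ) < d := by exact_mod_cast hd
    field_simp
    linarith
  rcases eq_or_ne v 0 with rfl | hv
  · simp
  have h2 : ∫ x, ⟪x, v⟫ ^ 2 / ‖x‖ ^ 2 ∂(stdGaussian (E d)) =
      ∫ x, ⟪x, ‖v‖ • EuclideanSpace.single (⟨0, hd⟩ : Fin d) (1 : ℝ)⟫ ^ 2 / ‖x‖ ^ 2
      ∂(stdGaussian (E d)) := integral_ratio_eq (by simp [norm_smul])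
  rw [h2]
  have h3 : ∀ x : E d, ⟪x, ‖v‖ • EuclideanSpace.single (⟨0, hd⟩ : Fin d) (1 : ℝ)⟫ ^ 2 / ‖x‖ ^ 2 =
      ‖v‖ ^ 2 * (⟪x, EuclideanSpace.single (⟨0, hd⟩ : Fin d) (1 : ℝ)⟫ ^ 2 / ‖x‖ ^ 2) := by
    intro x
    rw [real_inner_smul_right]
    ring
  simp_rw [h3]
  rw [integral_const_mul, h0]
  ring

/-- the Kaczmarz update -/
noncomputable def kacz {d : ℕ} (z x : E d) (y : ℝ) : E d := z + ((y - ⟪x, z⟫) / ‖x‖ ^ 2) • x

theorem kacz_norm_sq {d : ℕ} (z x s : E d) :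
    ‖kacz z x ⟪x, s⟫ - s‖ ^ 2 = ‖z - s‖ ^ 2 - ⟪x, z - s⟫ ^ 2 / ‖x‖ ^ 2 := by
  rcases eq_or_ne x 0 with rfl | hx
  · simp [kacz]
  have h1 : (‖x‖ ^ 2) ≠ 0 := by positivity
  have e : kacz z x ⟪x, s⟫ - s = (z - s) - (⟪x, z - s⟫ / ‖x‖ ^ 2) • x := by
    unfold kacz
    rw [inner_sub_right]
    rw [show (⟪x, s⟫ - ⟪x, z⟫) / ‖x‖ ^ 2 = -((⟪x, z⟫ - ⟪x, s⟫) / ‖x‖ ^ 2) by ring, neg_smul]
    abel
  rw [e, norm_sub_sq_real, real_inner_smul_right, norm_smul, mul_pow, Real.norm_eq_abs, sq_abs,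
    real_inner_comm]
  field_simp
  ring

theorem lintegral_kacz {d : ℕ} (hd : 1 ≤ d) (z s : E d) :
    ∫⁻ x, ENNReal.ofReal (‖kacz z x ⟪x, s⟫ - s‖ ^ 2) ∂(stdGaussian (E d)) =
      ENNReal.ofReal ((1 - 1 / d) * ‖z - s‖ ^ 2) := by
  simp_rw [kacz_norm_sq]
  rw [← ofReal_integral_eq_lintegral_ofReal]
  · rw [integral_sub (integrable_const _) (integrable_ratio _), integral_ratio hd]
    simp
    congr 1
    ring
  · exact (integrable_const _).sub (integrable_ratio _)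
  · refine Filter.Eventually.of_forall fun x => ?_
    have := ratio_le x (z - s)
    simp only [Pi.zero_apply]
    linarith

end Vale.Agent.P309
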