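import Vale.Agent.P309.CountNear

/-! P309 piece [I] (helper15): negative moments of the distance to a low-dimensional subspace for
a measure with a Frostman condition on cells. -/

open MeasureTheory ProbabilityTheory
open scoped RealInnerProductSpace ENNReal

namespace Vale.Agent.P309

/-- Mass of the `2^{-(lam+j)}`-neighbourhood of the subspace. -/
theorem shell_mass {d D : ℕ} (hd : 0 < d)
    (w : Measure (E d)) (lam : ℕ) (s₀ : E d) (G : Set (E d)) (hGQ : G ⊆ Q d lam s₀)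
    (hfr : ∀ s ∈ G, ∀ j : ℕ, w (Q d (lam + j) s) ≤ w (Q d lam s₀) * 2⁻¹ ^ (8 * D * j))
    (U : Submodule ℝ (E d)) (hU : Module.finrank ℝ U ≤ D) (s₁ : E d) (hs₁ : s₁ ∈ Q d lam s₀)
    (j : ℕ) :
    w ({s | Metric.infDist (s - s₁) (U : Set (E d)) ≤ (1 / 2) ^ (lam + j)} ∩ G) ≤
      w (Q d lam s₀) * (2 ^ (25 * d + 3 * D * j) * 2⁻¹ ^ (8 * D * j)) := by
  classical
  obtain ⟨S, hSc, hS⟩ := count_near d D hd U hU lam j s₁
  have hsub : {s | Metric.infDist (s - s₁) (U : Set (E d)) ≤ (1 / 2) ^ (lam + j)} ∩ G ⊆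
      ⋃ k ∈ S, (cell d (lam + j) ⁻¹' {k} ∩ G) := by
    rintro s ⟨hs, hsG⟩
    have h1 : s ∈ Q d lam s₁ := by
      rw [Q_eq_of_mem hs₁]; exact hGQ hsG
    have h2 := hS s (norm_sub_le_of_mem_Q h1) hs
    exact Set.mem_biUnion h2 ⟨rfl, hsG⟩
  have hone : ∀ k : Fin d → ℤ, w (cell d (lam + j) ⁻¹' {k} ∩ G) ≤
      w (Q d lam s₀) * 2⁻¹ ^ (8 * D * j) := by
    intro k
    by_cases hne : (cell d (lam + j) ⁻¹' {k} ∩ G).Nonempty
    · obtain ⟨s, hsk, hsG⟩ := hne
      refine le_trans (measure_mono ?_) (hfr s hsG j)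
      rintro t ⟨ht, _⟩
      have hsk' : cell d (lam + j) s = k := hsk
      have ht' : cell d (lam + j) t = k := ht
      exact ht'.trans hsk'.symm
    · rw [Set.not_nonempty_iff_eq_empty] at hne
      rw [hne, measure_empty]
      exact zero_le
  calc w ({s | Metric.infDist (s - s₁) (U : Set (E d)) ≤ (1 / 2) ^ (lam + j)} ∩ G)
      ≤ w (⋃ k ∈ S, (cell d (lam + j) ⁻¹' {k} ∩ G)) := measure_mono hsub
    _ ≤ ∑ k ∈ S, w (cell d (lam + j) ⁻¹' {k} ∩ G) := measure_biUnion_finset_le _ _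
    _ ≤ ∑ _k ∈ S, w (Q d lam s₀) * 2⁻¹ ^ (8 * D * j) := Finset.sum_le_sum fun k _ => hone k
    _ = (S.card : ℝ≥0∞) * (w (Q d lam s₀) * 2⁻¹ ^ (8 * D * j)) := by
        rw [Finset.sum_const, nsmul_eq_mul]
    _ ≤ 2 ^ (25 * d + 3 * D * j) * (w (Q d lam s₀) * 2⁻¹ ^ (8 * D * j)) := by
        gcongr
        exact_mod_cast hSc
    _ = _ := by ring

/-- Dyadic domination of the negative power. -/
theorem inv_pow_le_tsum {D lam : ℕ} (hD : 0 < D) {δ : ℝ} (hδ0 : 0 ≤ δ)
    (hδ : δ ≤ (1 / 2) ^ lam) :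
    (ENNReal.ofReal δ)⁻¹ ^ (2 * D) ≤
      ∑' j : ℕ, (if δ ≤ (1 / 2) ^ (lam + j) then (2 : ℝ≥0∞) ^ (2 * D * (lam + j + 1)) else 0) := by
  set T : ℕ → ℝ≥0∞ := fun j =>
    if δ ≤ (1 / 2) ^ (lam + j) then (2 : ℝ≥0∞) ^ (2 * D * (lam + j + 1)) else 0 with hT
  rcases hδ0.eq_or_lt with h0 | hpos
  · -- `δ = 0`: the sum is infinite
    have htop : ∑' j, T j = ∞ := by
      by_contra hne
      obtain ⟨m, hm⟩ := ENNReal.exists_nat_gt hne
      have h1 : T m ≤ ∑' j, T j := ENNReal.le_tsum m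
      have h2 : T m = 2 ^ (2 * D * (lam + m + 1)) := by
        rw [hT]
        simp only
        rw [if_pos]
        rw [← h0]
        positivity
      have h3 : (m : ℝ≥0∞) ≤ 2 ^ (2 * D * (lam + m + 1)) := by
        have h4 : m ≤ 2 ^ (2 * D * (lam + m + 1)) := by
          refine Nat.lt_two_pow_self.le.trans (Nat.pow_le_pow_right (by norm_num) ?_)
          calc m ≤ 1 * (lam + m + 1) := by omega
            _ ≤ 2 * D * (lam + m + 1) := Nat.mul_le_mul_right _ (by omega)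
        exact_mod_cast h4
      exact absurd (lt_of_lt_of_le hm (h3.trans (h2 ▸ h1))) (lt_irrefl _)
    rw [htop]
    exact le_top
  · -- `δ > 0`
    have hex : ∃ j : ℕ, ¬ δ ≤ (1 / 2) ^ (lam + j) := by
      obtain ⟨j, hj⟩ := exists_pow_lt_of_lt_one hpos (by norm_num : (1 / 2 : ℝ) < 1)
      refine ⟨j, not_le.2 (lt_of_le_of_lt ?_ hj)⟩
      exact pow_le_pow_of_le_one (by norm_num) (by norm_num) (by omega)
    classical
    set m := Nat.find hex with hm
    have hm1 : ¬ δ ≤ (1 / 2) ^ (lam + m) := Nat.find_spec hex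
    have hm0 : m ≠ 0 := by
      intro h
      rw [h] at hm1
      exact hm1 (by simpa using hδ)
    obtain ⟨i, hi⟩ := Nat.exists_eq_succ_of_ne_zero hm0
    have hi1 : δ ≤ (1 / 2) ^ (lam + i) := by
      by_contra h
      have := Nat.find_min' hex h
      omega
    have h1 : T i ≤ ∑' j, T j := ENNReal.le_tsum i
    have h2 : T i = 2 ^ (2 * D * (lam + i + 1)) := by
      rw [hT]
      simp only
      rw [if_pos hi1]
    refine le_trans ?_ h1
    rw [h2]
    have h3 : (1 / 2) ^ (lam + i + 1) ≤ δ := by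
      rw [not_le, hi] at hm1
      exact hm1.le
    have h4 : (ENNReal.ofReal δ)⁻¹ ≤ 2 ^ (lam + i + 1) := by
      rw [ENNReal.inv_le_iff_inv_le]
      calc ((2 : ℝ≥0∞) ^ (lam + i + 1))⁻¹ = ENNReal.ofReal ((1 / 2) ^ (lam + i + 1)) := by
            rw [ENNReal.ofReal_pow (by norm_num), one_div,
              ENNReal.ofReal_inv_of_pos (by norm_num), ENNReal.inv_pow]
            norm_num
        _ ≤ ENNReal.ofReal δ := ENNReal.ofReal_le_ofReal h3
    calc (ENNReal.ofReal δ)⁻¹ ^ (2 * D) ≤ (2 ^ (lam + i + 1)) ^ (2 * D) :=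
          pow_le_pow_left' h4 _
      _ = 2 ^ (2 * D * (lam + i + 1)) := by rw [← pow_mul, mul_comm]

theorem neg_moment {d D : ℕ} (hd : 0 < d) (hD : 0 < D) (hdD : d ≤ 127 * D)
    (w : Measure (E d)) [IsFiniteMeasure w] (lam : ℕ) (s₀ : E d) (G : Set (E d))
    (hG : MeasurableSet G) (hGQ : G ⊆ Q d lam s₀)
    (hfr : ∀ s ∈ G, ∀ j : ℕ, w (Q d (lam + j) s) ≤ w (Q d lam s₀) * 2⁻¹ ^ (8 * D * j))
    (U : Submodule ℝ (E d)) (hU : Module.finrank ℝ U ≤ D) (s₁ : E d) (hs₁ : s₁ ∈ Q d lam s₀) :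
    ∫⁻ s in G, (ENNReal.ofReal (Metric.infDist (s - s₁) (U : Set (E d))))⁻¹ ^ (2 * D) ∂w ≤
      w (Q d lam s₀) * 2 ^ (2 * D * (lam + 1600)) := by
  classical
  set A : ℕ → Set (E d) := fun j =>
    {s | Metric.infDist (s - s₁) (U : Set (E d)) ≤ (1 / 2) ^ (lam + j)} with hA
  have hcont : Continuous fun s : E d => Metric.infDist (s - s₁) (U : Set (E d)) :=
    (Metric.continuous_infDist_pt _).comp (continuous_id.sub continuous_const)
  have hAm : ∀ j, MeasurableSet (A j) := fun j =>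
    (isClosed_le hcont continuous_const).measurableSet
  have hpt : ∀ s ∈ G, (ENNReal.ofReal (Metric.infDist (s - s₁) (U : Set (E d))))⁻¹ ^ (2 * D) ≤
      ∑' j : ℕ, (A j).indicator (fun _ => (2 : ℝ≥0∞) ^ (2 * D * (lam + j + 1))) s := by
    intro s hs
    have h1 : s ∈ Q d lam s₁ := by
      rw [Q_eq_of_mem hs₁]; exact hGQ hs
    have h2 : Metric.infDist (s - s₁) (U : Set (E d)) ≤ (1 / 2) ^ lam := by
      refine le_trans (Metric.infDist_le_dist_of_mem U.zero_mem) ?_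
      rw [dist_zero_right]
      exact norm_sub_le_of_mem_Q h1
    refine (inv_pow_le_tsum hD Metric.infDist_nonneg h2).trans_eq ?_
    refine tsum_congr fun j => ?_
    simp only [Set.indicator_apply, hA, Set.mem_ofPred_eq]
  calc ∫⁻ s in G, (ENNReal.ofReal (Metric.infDist (s - s₁) (U : Set (E d))))⁻¹ ^ (2 * D) ∂w
      ≤ ∫⁻ s in G, ∑' j : ℕ,
          (A j).indicator (fun _ => (2 : ℝ≥0∞) ^ (2 * D * (lam + j + 1))) s ∂w :=
        setLIntegral_mono' hG hpt
    _ = ∑' j : ℕ, ∫⁻ s in G,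
          (A j).indicator (fun _ => (2 : ℝ≥0∞) ^ (2 * D * (lam + j + 1))) s ∂w :=
        lintegral_tsum fun j => (measurable_const.indicator (hAm j)).aemeasurable
    _ = ∑' j : ℕ, (2 : ℝ≥0∞) ^ (2 * D * (lam + j + 1)) * w (A j ∩ G) := by
        refine tsum_congr fun j => ?_
        rw [lintegral_indicator_const (hAm j), Measure.restrict_apply (hAm j)]
    _ ≤ ∑' j : ℕ, (2 : ℝ≥0∞) ^ (2 * D * (lam + j + 1)) *
          (w (Q d lam s₀) * (2 ^ (25 * d + 3 * D * j) * 2⁻¹ ^ (8 * D * j))) := by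
        refine ENNReal.tsum_le_tsum fun j => mul_le_mul_right ?_ _
        exact shell_mass hd w lam s₀ G hGQ hfr U hU s₁ hs₁ j
    _ ≤ ∑' j : ℕ, (w (Q d lam s₀) * 2 ^ (2 * D * lam + 3177 * D)) * 2⁻¹ ^ j := by
        refine ENNReal.tsum_le_tsum fun j => ?_
        have hkey : (2 : ℝ≥0∞) ^ (2 * D * (lam + j + 1)) *
            (2 ^ (25 * d + 3 * D * j) * 2⁻¹ ^ (8 * D * j)) ≤
            2 ^ (2 * D * lam + 3177 * D) * 2⁻¹ ^ j := by
          have e1 : (2 : ℝ≥0∞) ^ (2 * D * (lam + j + 1)) *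
              (2 ^ (25 * d + 3 * D * j) * 2⁻¹ ^ (8 * D * j)) =
              2 ^ (2 * D * lam + 2 * D + 25 * d) * (2 ^ (5 * D * j) * 2⁻¹ ^ (5 * D * j)) *
                2⁻¹ ^ (3 * D * j) := by
            have h8 : (2⁻¹ : ℝ≥0∞) ^ (8 * D * j) = 2⁻¹ ^ (5 * D * j) * 2⁻¹ ^ (3 * D * j) := by
              rw [← pow_add]
              congr 1
              ring
            have h2 : (2 : ℝ≥0∞) ^ (2 * D * (lam + j + 1)) * 2 ^ (25 * d + 3 * D * j) =
                2 ^ (2 * D * lam + 2 * D + 25 * d) * 2 ^ (5 * D * j) := by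
              rw [← pow_add, ← pow_add]
              congr 1
              ring
            rw [h8]
            calc (2 : ℝ≥0∞) ^ (2 * D * (lam + j + 1)) * (2 ^ (25 * d + 3 * D * j) *
                  (2⁻¹ ^ (5 * D * j) * 2⁻¹ ^ (3 * D * j)))
                = (2 ^ (2 * D * (lam + j + 1)) * 2 ^ (25 * d + 3 * D * j)) *
                  (2⁻¹ ^ (5 * D * j) * 2⁻¹ ^ (3 * D * j)) := by ring
              _ = _ := by rw [h2]; ring
          rw [e1, ← mul_pow, ENNReal.mul_inv_cancel (by norm_num) (by norm_num), one_pow, mul_one]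
          refine mul_le_mul' ?_ ?_
          · exact pow_le_pow_right₀ (by norm_num) (by omega)
          · refine pow_le_pow_right_of_le_one' (by norm_num) ?_
            calc j = 1 * j := (one_mul j).symm
              _ ≤ 3 * D * j := Nat.mul_le_mul_right _ (by omega)
        calc (2 : ℝ≥0∞) ^ (2 * D * (lam + j + 1)) *
              (w (Q d lam s₀) * (2 ^ (25 * d + 3 * D * j) * 2⁻¹ ^ (8 * D * j)))
            = w (Q d lam s₀) * ((2 : ℝ≥0∞) ^ (2 * D * (lam + j + 1)) *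
              (2 ^ (25 * d + 3 * D * j) * 2⁻¹ ^ (8 * D * j))) := by ring
          _ ≤ w (Q d lam s₀) * (2 ^ (2 * D * lam + 3177 * D) * 2⁻¹ ^ j) :=
              mul_le_mul_right hkey _
          _ = _ := by ring
    _ = w (Q d lam s₀) * 2 ^ (2 * D * lam + 3177 * D) * 2 := by
        rw [ENNReal.tsum_mul_left, ENNReal.tsum_geometric]
        congr 1
        rw [ENNReal.one_sub_inv_two, inv_inv]
    _ = w (Q d lam s₀) * 2 ^ (2 * D * lam + 3177 * D + 1) := by
        rw [pow_succ, mul_assoc]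
    _ ≤ w (Q d lam s₀) * 2 ^ (2 * D * (lam + 1600)) := by
        refine mul_le_mul_right (pow_le_pow_right₀ (by norm_num) ?_) _
        have : 2 * D * (lam + 1600) = 2 * D * lam + 3200 * D := by ring
        omega

end Vale.Agent.P309
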