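import Vale.Agent.P309.Energy
import Vale.Agent.P309.Hit
import Vale.Agent.P309.Window
import Vale.Agent.P309.Neg

open MeasureTheory ProbabilityTheory
open scoped RealInnerProductSpace ENNReal

namespace Vale.Agent.P309

namespace LocalBlockAux

open EnergyAux

/-- The energy is measurable in the rows. -/
theorem measurable_energy {d n : ℕ} (ν : Measure (E d)) [IsFiniteMeasure ν] (p j : ℕ) :
    Measurable fun x : Fin n → E d =>
      ∫⁻ u, ((ν.map (obs x)) (cube n j u) * 2 ^ (j * n)) ^ p ∂(ν.map (obs x)) := by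
  have hcube : MeasurableSet {q : (Fin n → ℝ) × (Fin n → ℝ) | q.2 ∈ cube n j q.1} := by
    rw [show {q : (Fin n → ℝ) × (Fin n → ℝ) | q.2 ∈ cube n j q.1} =
      ⋂ i, {q : (Fin n → ℝ) × (Fin n → ℝ) |
        ⌊(2 : ℝ) ^ j * q.2 i⌋ = ⌊(2 : ℝ) ^ j * q.1 i⌋} by ext q; simp [cube]]
    refine MeasurableSet.iInter fun i => ?_
    refine measurableSet_eq_fun ?_ ?_
    · exact Int.measurable_floor.comp (((measurable_pi_apply i).comp measurable_snd).const_mul _)
    · exact Int.measurable_floor.comp (((measurable_pi_apply i).comp measurable_fst).const_mul _)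
  have h1 : ∀ x : Fin n → E d,
      ∫⁻ u, ((ν.map (obs x)) (cube n j u) * 2 ^ (j * n)) ^ p ∂(ν.map (obs x)) =
      ∫⁻ s₀, (ν {s | obs x s ∈ cube n j (obs x s₀)} * 2 ^ (j * n)) ^ p ∂ν := by
    intro x
    rw [lintegral_map ?_ (measurable_obs x)]
    · refine lintegral_congr fun s₀ => ?_
      rw [Measure.map_apply (measurable_obs x) (measurableSet_cube n j _)]
      rfl
    · refine Measurable.pow_const (Measurable.mul_const ?_ _) _
      exact measurable_measure_prodMk_left hcube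
  simp only [h1]
  have h2 : MeasurableSet {q : ((Fin n → E d) × E d) × E d |
      obs q.1.1 q.2 ∈ cube n j (obs q.1.1 q.1.2)} := by
    have hm : Measurable fun q : ((Fin n → E d) × E d) × E d =>
        (obs q.1.1 q.1.2, obs q.1.1 q.2) := by
      refine Measurable.prodMk (measurable_obs_pair.comp measurable_fst) ?_
      exact measurable_obs_pair.comp ((measurable_fst.comp measurable_fst).prodMk measurable_snd)
    exact hm hcube
  have h3 : Measurable fun q : (Fin n → E d) × E d =>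
      (ν {s | obs q.1 s ∈ cube n j (obs q.1 q.2)} * 2 ^ (j * n)) ^ p := by
    refine Measurable.pow_const (Measurable.mul_const ?_ _) _
    exact measurable_measure_prodMk_left h2
  exact h3.lintegral_prod_right'

/-- Tonelli for the transition probabilities. -/
theorem tr_tonelli {d n : ℕ} {ι : Type*} (ν : Measure (E d)) [IsFiniteMeasure ν]
    (F : (Fin n → E d) → (Fin n → ℝ) → ι) (k : ι)
    (hF : MeasurableSet {p : (Fin n → E d) × (Fin n → ℝ) | F p.1 p.2 = k}) :
    ∫⁻ s, tr F k s ∂ν = ∫⁻ x, ν {s | F x (obs x s) = k} ∂(rows d n) := by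
  have hm : MeasurableSet {q : E d × (Fin n → E d) | F q.2 (obs q.2 q.1) = k} :=
    (measurable_snd.prodMk (measurable_obs_pair.comp
      (measurable_snd.prodMk measurable_fst))) hF
  have h1 : ∫⁻ s, tr F k s ∂ν = (ν.prod (rows d n)) {q | F q.2 (obs q.2 q.1) = k} := by
    rw [Measure.prod_apply hm]; rfl
  have h2 : (ν.prod (rows d n)) {q | F q.2 (obs q.2 q.1) = k} =
      ∫⁻ x, ν {s | F x (obs x s) = k} ∂(rows d n) := by
    rw [Measure.prod_apply_symm hm]; rfl
  rw [h1, h2]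

end LocalBlockAux

open LocalBlockAux EnergyAux

theorem local_block {d D : ℕ} (hd : 0 < d) (hD : 0 < D) (hdD : d ≤ 127 * D) {ι : Type*}
    [Fintype ι] (w : Measure (E d)) [IsFiniteMeasure w]
    (F : (Fin D → E d) → (Fin D → ℝ) → ι)
    (hF : ∀ k, MeasurableSet {p : (Fin D → E d) × (Fin D → ℝ) | F p.1 p.2 = k})
    (lam : ℕ) (s₀ : E d) (G : Set (E d)) (hG : MeasurableSet G) (hGQ : G ⊆ Q d lam s₀)
    (hfr : ∀ s ∈ G, ∀ j : ℕ, w (Q d (lam + j) s) ≤ w (Q d lam s₀) * 2⁻¹ ^ (8 * D * j))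
    (Dk : ι → Set (E d)) (hDm : ∀ k, MeasurableSet (Dk k)) (hDG : ∀ k, Dk k ⊆ G) (g : ℕ)
    (hDk : ∀ k, w (Dk k) ≤ w (Q d lam s₀) * 2⁻¹ ^ (2 * g)) :
    ∑ k, ∫⁻ s in Dk k, tr F k s ∂w ≤
      w (Q d lam s₀) * (2 * 2⁻¹ ^ D + Fintype.card ι * (2⁻¹ ^ g * 2 ^ (1626 * D)) ^ D) := by
  classical
  set W := w (Q d lam s₀) with hW
  set ρ : ℝ := (1 / 2) ^ lam with hρ
  have hρ0 : 0 < ρ := by positivity
  have hWtop : W ≠ ∞ := measure_ne_top _ _
  rcases eq_or_ne W 0 with hW0 | hW0
  · -- trivial case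
    have h0 : ∀ k, ∫⁻ s in Dk k, tr F k s ∂w = 0 := by
      intro k
      have : w (Dk k) = 0 := by
        have := hDk k
        rw [hW0, zero_mul] at this
        exact le_antisymm this zero_le
      rw [Measure.restrict_eq_zero.2 this, lintegral_zero_measure]
    simp [h0]
  -- the window
  set ball : (Fin D → E d) → Set (Fin D → ℝ) :=
    fun x => {u | ∑ i, (u i - obs x s₀ i) ^ 2 ≤ 16 * D * ρ ^ 2} with hball
  have hballm : ∀ x, MeasurableSet (ball x) := fun x =>
    measurableSet_le (by fun_prop) measurable_const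
  set T : ι → (Fin D → E d) → Set (Fin D → ℝ) := fun k x => {u | F x u = k} with hT
  have hTm : ∀ k x, MeasurableSet (T k x) := fun k x =>
    (measurable_const.prodMk measurable_id) (hF k)
  set ν : ι → Measure (E d) := fun k => w.restrict (Dk k) with hν
  -- first reduction
  have h1 : ∀ k, ∫⁻ s in Dk k, tr F k s ∂w =
      ∫⁻ x, ν k {s | F x (obs x s) = k} ∂(rows d D) := fun k =>
    tr_tonelli (ν k) F k (hF k)
  set κ : ℝ≥0∞ := 2⁻¹ ^ D * W * ((ENNReal.ofReal (2 ^ 25 * ρ)) ^ D)⁻¹ with hκ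
  have hρ1 : ENNReal.ofReal (2 ^ 25 * ρ) ≠ 0 := by
    simp only [ne_eq, ENNReal.ofReal_eq_zero, not_le]; positivity
  have hρ2 : ENNReal.ofReal (2 ^ 25 * ρ) ≠ ∞ := ENNReal.ofReal_ne_top
  have hκ0 : κ ≠ 0 := by
    rw [hκ]
    refine mul_ne_zero (mul_ne_zero (pow_ne_zero _ (by norm_num)) hW0) ?_
    exact ENNReal.inv_ne_zero.2 (ENNReal.pow_ne_top hρ2)
  have hκ1 : κ ≠ ∞ := by
    rw [hκ]
    refine ENNReal.mul_ne_top (ENNReal.mul_ne_top (ENNReal.pow_ne_top (by norm_num)) hWtop) ?_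
    exact ENNReal.inv_ne_top.2 (pow_ne_zero _ hρ1)
  set B : ℝ≥0∞ := W * 2⁻¹ ^ g * 2 ^ (D * (lam + 1600)) with hB
  -- pointwise bound
  set en : ι → ℕ → (Fin D → E d) → ℝ≥0∞ := fun k j x =>
    ∫⁻ u, (((ν k).map (obs x)) (cube D j u) * 2 ^ (j * D)) ^ D ∂((ν k).map (obs x)) with hen
  have h2 : ∀ k x, ν k {s | F x (obs x s) = k} ≤
      w ({s | F x (obs x s) = k} ∩ {s | s ∈ Q d lam s₀ ∧ obs x s ∉ ball x}) +
      (κ * volume (T k x ∩ ball x) + (κ ^ D)⁻¹ *
        Filter.liminf (fun j => en k j x) Filter.atTop) := by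
    intro k x
    have ha : {s | F x (obs x s) = k} ⊆
        ({s | F x (obs x s) = k} ∩ {s | obs x s ∉ ball x}) ∪ (obs x ⁻¹' (T k x ∩ ball x)) := by
      intro s hs
      by_cases hb : obs x s ∈ ball x
      · exact Or.inr ⟨hs, hb⟩
      · exact Or.inl ⟨hs, hb⟩
    have hms : MeasurableSet {s | F x (obs x s) = k} := measurable_obs x (hTm k x)
    have hmb : MeasurableSet {s | obs x s ∉ ball x} := measurable_obs x (hballm x).compl
    calc ν k {s | F x (obs x s) = k}
        ≤ ν k ({s | F x (obs x s) = k} ∩ {s | obs x s ∉ ball x}) +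
          ν k (obs x ⁻¹' (T k x ∩ ball x)) := (measure_mono ha).trans (measure_union_le _ _)
      _ ≤ _ := by
        refine add_le_add ?_ ?_
        · rw [hν]
          simp only
          rw [Measure.restrict_apply (hms.inter hmb)]
          refine measure_mono ?_
          rintro s ⟨⟨hs1, hs2⟩, hs3⟩
          exact ⟨hs1, hGQ (hDG k hs3), hs2⟩
        · rw [← Measure.map_apply (measurable_obs x) ((hTm k x).inter (hballm x))]
          exact hit_le _ _ ((hTm k x).inter (hballm x)) D κ hκ0 hκ1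
  -- the three terms
  set Y : ℝ≥0∞ := 2⁻¹ ^ g * 2 ^ (1626 * D) with hY
  have hBκ : B = κ * Y := by
    have hR : ENNReal.ofReal (2 ^ 25 * ρ) = 2 ^ 25 * 2⁻¹ ^ lam := by
      rw [hρ, one_div, ENNReal.ofReal_mul (by positivity), ENNReal.ofReal_pow (by norm_num),
        ENNReal.ofReal_pow (by norm_num), ENNReal.ofReal_inv_of_pos (by norm_num)]
      norm_num
    have h2ne0 : (2 : ℝ≥0∞) ≠ 0 := by norm_num
    have h2net : (2 : ℝ≥0∞) ≠ ∞ := by norm_num
    have h22 : (2 : ℝ≥0∞) * 2⁻¹ = 1 := ENNReal.mul_inv_cancel h2ne0 h2net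
    have h22p : ∀ m : ℕ, (2 : ℝ≥0∞) ^ m * 2⁻¹ ^ m = 1 := fun m => by
      rw [← mul_pow, h22, one_pow]
    have hRR : (2 ^ 25 * 2⁻¹ ^ lam : ℝ≥0∞) * (2⁻¹ ^ 25 * 2 ^ lam) = 1 := by
      calc (2 ^ 25 * 2⁻¹ ^ lam : ℝ≥0∞) * (2⁻¹ ^ 25 * 2 ^ lam)
          = (2 ^ 25 * 2⁻¹ ^ 25) * (2 ^ lam * 2⁻¹ ^ lam) := by ring
        _ = 1 := by rw [h22p, h22p, one_mul]
    have hRinv : ((2 ^ 25 * 2⁻¹ ^ lam : ℝ≥0∞) ^ D)⁻¹ = (2⁻¹ ^ 25 * 2 ^ lam) ^ D := by
      refine (ENNReal.eq_inv_of_mul_eq_one_left ?_).symm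
      rw [← mul_pow, mul_comm, hRR, one_pow]
    rw [hB, hκ, hY, hR, hRinv]
    have : (2⁻¹ : ℝ≥0∞) ^ D * W * (2⁻¹ ^ 25 * 2 ^ lam) ^ D * (2⁻¹ ^ g * 2 ^ (1626 * D)) =
        W * 2⁻¹ ^ g * 2 ^ (D * (lam + 1600)) * ((2 ^ D * 2⁻¹ ^ D) * (2 ^ (25 * D) * 2⁻¹ ^ (25 * D))) := by
      have e1 : (1626 * D) = D * 1600 + D + 25 * D := by ring
      rw [e1, mul_add D lam 1600, pow_add, pow_add, pow_add, mul_pow, ← pow_mul, ← pow_mul,
        mul_comm D lam]
      ring
    rw [this, h22p, h22p, one_mul, mul_one]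
  have hmA : MeasurableSet {q : (Fin D → E d) × E d | q.2 ∈ Q d lam s₀ ∧
      obs q.1 q.2 ∉ ball q.1} := by
    have hb1 : MeasurableSet {q : (Fin D → E d) × E d |
        ∑ i, (obs q.1 q.2 i - obs q.1 s₀ i) ^ 2 ≤ 16 * D * ρ ^ 2} := by
      refine measurableSet_le ?_ measurable_const
      refine Finset.measurable_sum _ fun i _ => ?_
      refine Measurable.pow_const (Measurable.sub ?_ ?_) _
      · exact (measurable_pi_apply i).comp measurable_obs_pair
      · exact (measurable_pi_apply i).comp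
          (measurable_obs_pair.comp (measurable_fst.prodMk measurable_const))
    exact (measurable_snd (measurableSet_Q d lam s₀)).inter hb1.compl
  have hAint : ∫⁻ x, w {s | s ∈ Q d lam s₀ ∧ obs x s ∉ ball x} ∂(rows d D) ≤ W * 2⁻¹ ^ D := by
    have e1 : ∫⁻ x, w {s | s ∈ Q d lam s₀ ∧ obs x s ∉ ball x} ∂(rows d D) =
        ∫⁻ s, rows d D {x | s ∈ Q d lam s₀ ∧ obs x s ∉ ball x} ∂w := by
      have e2 : ((rows d D).prod w) {q : (Fin D → E d) × E d | q.2 ∈ Q d lam s₀ ∧
          obs q.1 q.2 ∉ ball q.1} =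
          ∫⁻ x, w {s | s ∈ Q d lam s₀ ∧ obs x s ∉ ball x} ∂(rows d D) := by
        rw [Measure.prod_apply hmA]; rfl
      have e3 : ((rows d D).prod w) {q : (Fin D → E d) × E d | q.2 ∈ Q d lam s₀ ∧
          obs q.1 q.2 ∉ ball q.1} =
          ∫⁻ s, rows d D {x | s ∈ Q d lam s₀ ∧ obs x s ∉ ball x} ∂w := by
        rw [Measure.prod_apply_symm hmA]; rfl
      rw [← e2, e3]
    rw [e1]
    calc ∫⁻ s, rows d D {x | s ∈ Q d lam s₀ ∧ obs x s ∉ ball x} ∂w
        ≤ ∫⁻ s, (Q d lam s₀).indicator (fun _ => (2⁻¹ : ℝ≥0∞) ^ D) s ∂w := by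
          refine lintegral_mono fun s => ?_
          by_cases hs : s ∈ Q d lam s₀
          · rw [Set.indicator_of_mem hs]
            have hn : ‖s - s₀‖ ≤ ρ := norm_sub_le_of_mem_Q hs
            refine le_trans (measure_mono ?_) (window_prob (s - s₀) hρ0 hn)
            rintro x ⟨-, hx⟩
            simp only [hball, Set.mem_ofPred_eq, not_le] at hx
            simp only [Set.mem_ofPred_eq]
            have : ∀ i, obs x (s - s₀) i = obs x s i - obs x s₀ i := fun i => by
              simp only [obs, inner_sub_right]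
            simp only [this]
            exact hx
          · have : {x : Fin D → E d | s ∈ Q d lam s₀ ∧ obs x s ∉ ball x} = ∅ := by
              ext x; simp [hs]
            rw [this, measure_empty]
            exact zero_le
      _ = W * 2⁻¹ ^ D := by
          rw [lintegral_indicator_const (measurableSet_Q d lam s₀), mul_comm]
  have hκvol : ∀ x, κ * volume (ball x) ≤ W * 2⁻¹ ^ D := by
    intro x
    calc κ * volume (ball x) ≤ κ * ENNReal.ofReal (2 ^ 25 * ρ) ^ D := by
          gcongr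
          exact window_vol (obs x s₀) hρ0
      _ = 2⁻¹ ^ D * W * (((ENNReal.ofReal (2 ^ 25 * ρ)) ^ D)⁻¹ *
            ENNReal.ofReal (2 ^ 25 * ρ) ^ D) := by rw [hκ]; ring
      _ = 2⁻¹ ^ D * W := by
          rw [ENNReal.inv_mul_cancel (pow_ne_zero _ hρ1) (ENNReal.pow_ne_top hρ2), mul_one]
      _ = W * 2⁻¹ ^ D := mul_comm _ _
  have hhalf : ∀ k, ∀ s₁ ∈ Dk k, ∀ U : Submodule ℝ (E d), Module.finrank ℝ U < D →
      ∫⁻ s, (ENNReal.ofReal (Metric.infDist (s - s₁) (U : Set (E d))))⁻¹ ^ D ∂(ν k) ≤ B := by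
    intro k s₁ hs₁ U hU
    have hs₁Q : s₁ ∈ Q d lam s₀ := hGQ (hDG k hs₁)
    have hneg := neg_moment hd hD hdD w lam s₀ G hG hGQ hfr U hU.le s₁ hs₁Q
    have hfm : Measurable fun s : E d =>
        (ENNReal.ofReal (Metric.infDist (s - s₁) (U : Set (E d))))⁻¹ := by
      refine Measurable.inv ?_
      exact (((Metric.continuous_infDist_pt _).comp
        (continuous_id.sub continuous_const)).measurable).ennreal_ofReal
    set f : E d → ℝ≥0∞ := fun s =>
      (ENNReal.ofReal (Metric.infDist (s - s₁) (U : Set (E d))))⁻¹ with hf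
    have hcs := ENNReal.lintegral_mul_le_Lp_mul_Lq (ν k) Real.HolderConjugate.two_two
      (f := fun _ => (1 : ℝ≥0∞)) (g := fun s => f s ^ D) aemeasurable_const
      (hfm.pow_const D).aemeasurable
    have h3 : ∫⁻ s, f s ^ D ∂(ν k) =
        ∫⁻ s, ((fun _ : E d => (1 : ℝ≥0∞)) * (fun s => f s ^ D)) s ∂(ν k) := by
      refine lintegral_congr fun s => ?_
      simp
    rw [h3]
    refine hcs.trans ?_
    have h4 : ∫⁻ _s, (1 : ℝ≥0∞) ^ (2 : ℝ) ∂(ν k) ≤ W * 2⁻¹ ^ (2 * g) := by
      simp only [ENNReal.one_rpow, lintegral_one]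
      rw [hν]
      simp only [Measure.restrict_apply_univ]
      exact hDk k
    have h5 : ∫⁻ s, (f s ^ D) ^ (2 : ℝ) ∂(ν k) ≤ W * 2 ^ (2 * D * (lam + 1600)) := by
      calc ∫⁻ s, (f s ^ D) ^ (2 : ℝ) ∂(ν k) = ∫⁻ s in Dk k, f s ^ (2 * D) ∂w := by
            refine lintegral_congr fun s => ?_
            rw [show (2 : ℝ) = ((2 : ℕ) : ℝ) by norm_num, ENNReal.rpow_natCast, ← pow_mul,
              mul_comm]
        _ ≤ ∫⁻ s in G, f s ^ (2 * D) ∂w := lintegral_mono_set (hDG k)
        _ ≤ _ := hneg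
    calc (∫⁻ _s, (1 : ℝ≥0∞) ^ (2 : ℝ) ∂(ν k)) ^ (1 / (2 : ℝ)) *
          (∫⁻ s, (f s ^ D) ^ (2 : ℝ) ∂(ν k)) ^ (1 / (2 : ℝ))
        ≤ (W * 2⁻¹ ^ (2 * g)) ^ (1 / (2 : ℝ)) *
          (W * 2 ^ (2 * D * (lam + 1600))) ^ (1 / (2 : ℝ)) := by gcongr
      _ = ((W * 2⁻¹ ^ (2 * g)) * (W * 2 ^ (2 * D * (lam + 1600)))) ^ (1 / (2 : ℝ)) :=
          (ENNReal.mul_rpow_of_nonneg _ _ (by norm_num)).symm
      _ = (B ^ 2) ^ (1 / (2 : ℝ)) := by
          congr 1
          rw [hB, mul_pow, mul_pow, ← pow_mul, ← pow_mul]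
          rw [show 2 * g = g * 2 by ring, show 2 * D * (lam + 1600) = D * (lam + 1600) * 2 by ring]
          ring
      _ = B := by
          rw [show (B ^ 2 : ℝ≥0∞) = B ^ ((2 : ℕ) : ℝ) by rw [ENNReal.rpow_natCast],
            ← ENNReal.rpow_mul]
          norm_num
  have hen_le : ∀ k j, ∫⁻ x, en k j x ∂(rows d D) ≤ W * B ^ D := by
    intro k j
    have h3 := energy_le (n := D) (ν k) D j B (by
      rw [hν]
      simp only
      refine (ae_restrict_iff' (hDm k)).2 (Filter.Eventually.of_forall fun s₁ hs₁ => ?_)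
      exact hhalf k s₁ hs₁)
    refine h3.trans ?_
    gcongr
    rw [hν]
    simp only [Measure.restrict_apply_univ]
    exact measure_mono ((hDG k).trans hGQ)
  have hliminf : ∀ k, ∫⁻ x, (κ ^ D)⁻¹ * Filter.liminf (fun j => en k j x) Filter.atTop
      ∂(rows d D) ≤ W * Y ^ D := by
    intro k
    have hm : ∀ j, Measurable (en k j) := fun j => measurable_energy (ν k) D j
    rw [lintegral_const_mul _ (Measurable.liminf hm)]
    have h3 : ∫⁻ x, Filter.liminf (fun j => en k j x) Filter.atTop ∂(rows d D) ≤ W * B ^ D := by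
      refine (lintegral_liminf_le hm).trans ?_
      refine Filter.liminf_le_of_le ?_ ?_
      · exact ⟨0, Filter.Eventually.of_forall fun _ => zero_le⟩
      · intro b hb
        obtain ⟨j, hj⟩ := hb.exists
        exact hj.trans (hen_le k j)
    calc (κ ^ D)⁻¹ * ∫⁻ x, Filter.liminf (fun j => en k j x) Filter.atTop ∂(rows d D)
        ≤ (κ ^ D)⁻¹ * (W * B ^ D) := by gcongr
      _ = ((κ ^ D)⁻¹ * κ ^ D) * (W * Y ^ D) := by rw [hBκ, mul_pow]; ring
      _ = W * Y ^ D := by
          rw [ENNReal.inv_mul_cancel (pow_ne_zero _ hκ0) (ENNReal.pow_ne_top hκ1), one_mul]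
  -- summation
  have hsum : ∀ x, ∑ k, ν k {s | F x (obs x s) = k} ≤
      w {s | s ∈ Q d lam s₀ ∧ obs x s ∉ ball x} + (W * 2⁻¹ ^ D +
        ∑ k, (κ ^ D)⁻¹ * Filter.liminf (fun j => en k j x) Filter.atTop) := by
    intro x
    calc ∑ k, ν k {s | F x (obs x s) = k}
        ≤ ∑ k, (w ({s | F x (obs x s) = k} ∩ {s | s ∈ Q d lam s₀ ∧ obs x s ∉ ball x}) +
          (κ * volume (T k x ∩ ball x) + (κ ^ D)⁻¹ *
            Filter.liminf (fun j => en k j x) Filter.atTop)) :=
          Finset.sum_le_sum fun k _ => h2 k x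
      _ = ∑ k, w ({s | F x (obs x s) = k} ∩ {s | s ∈ Q d lam s₀ ∧ obs x s ∉ ball x}) +
          (∑ k, κ * volume (T k x ∩ ball x) + ∑ k, (κ ^ D)⁻¹ *
            Filter.liminf (fun j => en k j x) Filter.atTop) := by
          rw [Finset.sum_add_distrib, Finset.sum_add_distrib]
      _ ≤ _ := by
          have hmb : MeasurableSet {s | s ∈ Q d lam s₀ ∧ obs x s ∉ ball x} :=
            (measurableSet_Q d lam s₀).inter (measurable_obs x (hballm x).compl)
          refine add_le_add ?_ (add_le_add ?_ le_rfl)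
          · rw [← measure_biUnion_finset]
            · exact measure_mono (by
                intro s hs
                simp only [Finset.mem_univ, Set.iUnion_true, Set.mem_iUnion] at hs
                obtain ⟨k, hk⟩ := hs
                exact hk.2)
            · intro k _ k' _ hkk'
              refine Set.disjoint_left.2 fun s hs hs' => hkk' ?_
              have e1 : F x (obs x s) = k := hs.1
              have e2 : F x (obs x s) = k' := hs'.1
              rw [← e1, e2]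
            · intro k _
              exact (measurable_obs x (hTm k x)).inter hmb
          · rw [← Finset.mul_sum, ← measure_biUnion_finset]
            · refine le_trans ?_ (hκvol x)
              gcongr
              intro u hu
              simp only [Finset.mem_univ, Set.iUnion_true, Set.mem_iUnion] at hu
              obtain ⟨k, hk⟩ := hu
              exact hk.2
            · intro k _ k' _ hkk'
              refine Set.disjoint_left.2 fun u hu hu' => hkk' ?_
              have e1 : F x u = k := hu.1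
              have e2 : F x u = k' := hu'.1
              rw [← e1, e2]
            · intro k _
              exact (hTm k x).inter (hballm x)
  have hmk : ∀ k, Measurable fun x : Fin D → E d => ν k {s | F x (obs x s) = k} := by
    intro k
    have hm : MeasurableSet {q : (Fin D → E d) × E d | F q.1 (obs q.1 q.2) = k} :=
      (measurable_fst.prodMk measurable_obs_pair) (hF k)
    exact measurable_measure_prodMk_left hm
  have hmA' : Measurable fun x : Fin D → E d =>
      w {s | s ∈ Q d lam s₀ ∧ obs x s ∉ ball x} := measurable_measure_prodMk_left hmA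
  calc ∑ k, ∫⁻ s in Dk k, tr F k s ∂w
      = ∑ k, ∫⁻ x, ν k {s | F x (obs x s) = k} ∂(rows d D) :=
        Finset.sum_congr rfl fun k _ => h1 k
    _ = ∫⁻ x, ∑ k, ν k {s | F x (obs x s) = k} ∂(rows d D) := by
        rw [lintegral_finsetSum _ fun k _ => hmk k]
    _ ≤ ∫⁻ x, (w {s | s ∈ Q d lam s₀ ∧ obs x s ∉ ball x} + (W * 2⁻¹ ^ D +
        ∑ k, (κ ^ D)⁻¹ * Filter.liminf (fun j => en k j x) Filter.atTop)) ∂(rows d D) :=
        lintegral_mono hsum
    _ = ∫⁻ x, w {s | s ∈ Q d lam s₀ ∧ obs x s ∉ ball x} ∂(rows d D) + (W * 2⁻¹ ^ D +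
        ∑ k, ∫⁻ x, (κ ^ D)⁻¹ * Filter.liminf (fun j => en k j x) Filter.atTop
          ∂(rows d D)) := by
        rw [lintegral_add_left hmA', lintegral_add_left measurable_const, lintegral_const,
          measure_univ, mul_one, lintegral_finsetSum]
        intro k _
        exact (Measurable.liminf fun j => measurable_energy (ν k) D j).const_mul _
    _ ≤ W * 2⁻¹ ^ D + (W * 2⁻¹ ^ D + ∑ _k : ι, W * Y ^ D) := by
        gcongr with k _
        exact hliminf k
    _ = W * (2 * 2⁻¹ ^ D + Fintype.card ι * Y ^ D) := by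
        rw [Finset.sum_const, Finset.card_univ, nsmul_eq_mul]
        ring

end Vale.Agent.P309
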