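import Vale.Agent.P309.SmallBall

open MeasureTheory ProbabilityTheory
open scoped RealInnerProductSpace ENNReal

namespace Vale.Agent.P309

namespace MomentAux

theorem measurable_ball {d : ℕ} (p : ℕ) (s₀ : E d) (η : ℝ) :
    Measurable fun S : Fin p → E d => stdGaussian (E d) {x | ∀ i, |⟪x, S i - s₀⟫| ≤ η} := by
  have h : MeasurableSet {q : (Fin p → E d) × E d | ∀ i, |⟪q.2, q.1 i - s₀⟫| ≤ η} := by
    rw [show {q : (Fin p → E d) × E d | ∀ i, |⟪q.2, q.1 i - s₀⟫| ≤ η} =
      ⋂ i, {q : (Fin p → E d) × E d | |⟪q.2, q.1 i - s₀⟫| ≤ η} by ext q; simp]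
    refine MeasurableSet.iInter fun i => ?_
    refine measurableSet_le ?_ measurable_const
    have h1 : Measurable fun q : (Fin p → E d) × E d => q.1 i - s₀ :=
      ((measurable_pi_apply i).comp measurable_fst).sub measurable_const
    exact (measurable_snd.inner h1).abs
  exact measurable_measure_prodMk_left h

end MomentAux

open MomentAux

theorem moment_le {d : ℕ} (ν : Measure (E d)) [IsFiniteMeasure ν] (n p : ℕ) (s₀ : E d) {η : ℝ}
    (hη : 0 < η) (B : ℝ≥0∞)
    (hB : ∀ U : Submodule ℝ (E d), Module.finrank ℝ U < p →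
      ∫⁻ s, (ENNReal.ofReal (Metric.infDist (s - s₀) (U : Set (E d))))⁻¹ ^ n ∂ν ≤ B) :
    ∫⁻ S : Fin p → E d, (stdGaussian (E d) {x | ∀ i, |⟪x, S i - s₀⟫| ≤ η}) ^ n
      ∂(Measure.pi fun _ => ν) ≤ (ENNReal.ofReal η ^ n * B) ^ p := by
  induction p with
  | zero =>
    simp
  | succ p ih =>
    have ih' := ih (fun U hU => hB U (hU.trans (Nat.lt_succ_self p)))
    set f : (Fin (p + 1) → E d) → ℝ≥0∞ :=
      fun S => (stdGaussian (E d) {x | ∀ i, |⟪x, S i - s₀⟫| ≤ η}) ^ n with hf
    have hfm : Measurable f := (measurable_ball (p + 1) s₀ η).pow_const n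
    have hmp := measurePreserving_piFinSuccAbove (fun _ : Fin (p + 1) => ν) (Fin.last p)
    have h1 : ∫⁻ S, f S ∂(Measure.pi fun _ => ν) =
        ∫⁻ q : E d × (Fin p → E d), f ((MeasurableEquiv.piFinSuccAbove
          (fun _ : Fin (p + 1) => E d) (Fin.last p)).symm q)
          ∂(ν.prod (Measure.pi fun _ => ν)) := by
      rw [← hmp.symm.lintegral_comp hfm]
    have hFm : Measurable fun q : E d × (Fin p → E d) => f ((MeasurableEquiv.piFinSuccAbove
          (fun _ : Fin (p + 1) => E d) (Fin.last p)).symm q) :=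
      hfm.comp (MeasurableEquiv.measurable _)
    have h2 := lintegral_prod_symm (μ := ν) (ν := (Measure.pi fun _ : Fin p => ν)) _
      hFm.aemeasurable
    rw [h1, h2]
    calc ∫⁻ S : Fin p → E d, ∫⁻ s : E d, f ((MeasurableEquiv.piFinSuccAbove
          (fun _ : Fin (p + 1) => E d) (Fin.last p)).symm (s, S)) ∂ν ∂(Measure.pi fun _ => ν)
        ≤ ∫⁻ S : Fin p → E d, (stdGaussian (E d) {x | ∀ i, |⟪x, S i - s₀⟫| ≤ η}) ^ n *
            (ENNReal.ofReal η ^ n * B) ∂(Measure.pi fun _ => ν) := by
          refine lintegral_mono fun S => ?_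
          set U : Submodule ℝ (E d) := Submodule.span ℝ (Set.range fun i => S i - s₀) with hU
          have hfin : Module.finrank ℝ U < p + 1 := by
            refine Nat.lt_succ_of_le ?_
            have := finrank_range_le_card (R := ℝ) (fun i => S i - s₀)
            rw [Fintype.card_fin] at this
            exact this
          have hmeas : Measurable fun s : E d =>
              (ENNReal.ofReal (Metric.infDist (s - s₀) (U : Set (E d))))⁻¹ ^ n := by
            refine (Measurable.inv ?_).pow_const n
            exact (((Metric.continuous_infDist_pt _).comp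
              (continuous_id.sub continuous_const)).measurable).ennreal_ofReal
          calc ∫⁻ s : E d, f ((MeasurableEquiv.piFinSuccAbove
                (fun _ : Fin (p + 1) => E d) (Fin.last p)).symm (s, S)) ∂ν
              ≤ ∫⁻ s : E d, ((stdGaussian (E d) {x | ∀ i, |⟪x, S i - s₀⟫| ≤ η}) ^ n *
                  ENNReal.ofReal η ^ n) *
                  (ENNReal.ofReal (Metric.infDist (s - s₀) (U : Set (E d))))⁻¹ ^ n ∂ν := by
                refine lintegral_mono fun s => ?_
                have hsb := small_ball U (fun i => S i - s₀)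
                  (fun i => Submodule.subset_span ⟨i, rfl⟩) (s - s₀) hη
                have hset : {x : E d | ∀ i, |⟪x, ((MeasurableEquiv.piFinSuccAbove
                    (fun _ : Fin (p + 1) => E d) (Fin.last p)).symm (s, S)) i - s₀⟫| ≤ η} =
                    {x | (∀ i, |⟪x, S i - s₀⟫| ≤ η) ∧ |⟪x, s - s₀⟫| ≤ η} := by
                  ext x
                  simp only [Set.mem_ofPred_eq, MeasurableEquiv.piFinSuccAbove_symm_apply,
                    Fin.forall_fin_succ']
                  simp
                simp only [hf]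
                rw [hset, ← mul_pow, ← mul_pow]
                refine pow_le_pow_left' ?_ n
                calc _ ≤ _ := hsb
                  _ = _ := by rw [mul_assoc]
            _ = ((stdGaussian (E d) {x | ∀ i, |⟪x, S i - s₀⟫| ≤ η}) ^ n *
                  ENNReal.ofReal η ^ n) *
                ∫⁻ s, (ENNReal.ofReal (Metric.infDist (s - s₀) (U : Set (E d))))⁻¹ ^ n ∂ν := by
                rw [lintegral_const_mul _ hmeas]
            _ ≤ ((stdGaussian (E d) {x | ∀ i, |⟪x, S i - s₀⟫| ≤ η}) ^ n *
                  ENNReal.ofReal η ^ n) * B := by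
                gcongr
                exact hB U hfin
            _ = _ := by rw [mul_assoc]
      _ = (∫⁻ S : Fin p → E d, (stdGaussian (E d) {x | ∀ i, |⟪x, S i - s₀⟫| ≤ η}) ^ n
            ∂(Measure.pi fun _ => ν)) * (ENNReal.ofReal η ^ n * B) := by
          rw [lintegral_mul_const _ ((measurable_ball p s₀ η).pow_const n)]
      _ ≤ (ENNReal.ofReal η ^ n * B) ^ p * (ENNReal.ofReal η ^ n * B) := by
          gcongr
      _ = _ := by rw [pow_succ]

end Vale.Agent.P309
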