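import Vale.Agent.P309.Base

open MeasureTheory ProbabilityTheory
open scoped RealInnerProductSpace ENNReal

namespace Vale.Agent.P309

theorem le_phi {L b : ℕ} (f : ℕ → ℝ≥0∞) {l : ℕ} (hl : l ≤ L) : f l * 2 ^ (b * l) ≤ phi L b f :=
  Finset.le_sup (f := fun l => f l * 2 ^ (b * l)) (Finset.mem_range.2 (by omega))

theorem exists_phi_eq (L b : ℕ) (f : ℕ → ℝ≥0∞) : ∃ l ≤ L, phi L b f = f l * 2 ^ (b * l) := by
  obtain ⟨l, hl, h⟩ := Finset.exists_mem_eq_sup (Finset.range (L + 1)) ⟨0, by simp⟩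
    (fun l => f l * 2 ^ (b * l))
  exact ⟨l, by have := Finset.mem_range.1 hl; omega, h⟩

theorem phi_ne_top {L b : ℕ} {f : ℕ → ℝ≥0∞} (hf : ∀ l, f l ≠ ∞) : phi L b f ≠ ∞ := by
  obtain ⟨l, _, h⟩ := exists_phi_eq L b f
  rw [h]
  exact ENNReal.mul_ne_top (hf l) (ENNReal.pow_ne_top ENNReal.ofNat_ne_top)

theorem phi_ne_zero {L b : ℕ} {f : ℕ → ℝ≥0∞} (hf : f 0 ≠ 0) : phi L b f ≠ 0 := by
  have h := le_phi (L := L) (b := b) f (Nat.zero_le L)
  simp only [mul_zero, pow_zero, mul_one] at h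
  intro h0
  rw [h0] at h
  exact hf (le_antisymm h bot_le)

/-- Learning step of the potential argument. -/
theorem potential_learn {L a h : ℕ} (α γ : ℕ → ℝ≥0∞) (Z Γ : ℝ≥0∞)
    (h1 : ∀ l' l, l' ≤ l → l ≤ L → γ l' * α l ≤ Z * (γ l * α l'))
    (h3 : ∀ lam, lam ≤ L → α lam * 2 ^ (a * lam) = phi L a α → ∀ l, lam ≤ l → l ≤ L →
      γ l * α lam ≤ Γ * (γ lam * α l)) :
    phi L h γ * phi L a α ≤ max Γ Z * (phi L h α * phi L a γ) := by
  obtain ⟨lam, hlam, hl⟩ := exists_phi_eq L a α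
  obtain ⟨l, hlL, hg⟩ := exists_phi_eq L h γ
  rw [hl, hg]
  have hA : α l * 2 ^ (h * l) ≤ phi L h α := le_phi α hlL
  have hG : γ lam * 2 ^ (a * lam) ≤ phi L a γ := le_phi γ hlam
  have key : γ l * α lam ≤ max Γ Z * (γ lam * α l) := by
    rcases le_total lam l with hle | hle
    · exact (h3 lam hlam hl.symm l hle hlL).trans (mul_le_mul_left (le_max_left _ _) _)
    · exact (h1 l lam hle hlam).trans (mul_le_mul_left (le_max_right _ _) _)
  calc γ l * 2 ^ (h * l) * (α lam * 2 ^ (a * lam))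
      = (γ l * α lam) * (2 ^ (h * l) * 2 ^ (a * lam)) := by ring
    _ ≤ (max Γ Z * (γ lam * α l)) * (2 ^ (h * l) * 2 ^ (a * lam)) := mul_le_mul_left key _
    _ = max Γ Z * ((α l * 2 ^ (h * l)) * (γ lam * 2 ^ (a * lam))) := by ring
    _ ≤ max Γ Z * (phi L h α * phi L a γ) := by gcongr

/-- Forgetting step of the potential argument. -/
theorem potential_forget {L a h : ℕ} (hah : a ≤ h) (β γ : ℕ → ℝ≥0∞) (Z : ℝ≥0∞) (hZ1 : 1 ≤ Z)
    (h2 : ∀ l' l, l' ≤ l → l ≤ L → γ l' * β l ≤ Z * (γ l * β l')) :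
    phi L h β * phi L a γ ≤ Z * (phi L h γ * phi L a β) := by
  obtain ⟨lh, hlh, hb⟩ := exists_phi_eq L h β
  obtain ⟨ls, hls, hg⟩ := exists_phi_eq L a γ
  rw [hb, hg]
  rcases le_total ls lh with hle | hle
  · have hG : γ lh * 2 ^ (h * lh) ≤ phi L h γ := le_phi γ hlh
    have hB : β ls * 2 ^ (a * ls) ≤ phi L a β := le_phi β hls
    calc β lh * 2 ^ (h * lh) * (γ ls * 2 ^ (a * ls))
        = (γ ls * β lh) * (2 ^ (h * lh) * 2 ^ (a * ls)) := by ring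
      _ ≤ (Z * (γ lh * β ls)) * (2 ^ (h * lh) * 2 ^ (a * ls)) :=
          mul_le_mul_left (h2 ls lh hle hlh) _
      _ = Z * ((γ lh * 2 ^ (h * lh)) * (β ls * 2 ^ (a * ls))) := by ring
      _ ≤ Z * (phi L h γ * phi L a β) := by gcongr
  · have hG : γ ls * 2 ^ (h * ls) ≤ phi L h γ := le_phi γ hls
    have hB : β lh * 2 ^ (a * lh) ≤ phi L a β := le_phi β hlh
    obtain ⟨c, rfl⟩ := Nat.exists_eq_add_of_le hah
    calc β lh * 2 ^ ((a + c) * lh) * (γ ls * 2 ^ (a * ls))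
        = β lh * 2 ^ (a * lh) * (γ ls * (2 ^ (a * ls) * 2 ^ (c * lh))) := by
          rw [add_mul, pow_add]; ring
      _ ≤ β lh * 2 ^ (a * lh) * (γ ls * (2 ^ (a * ls) * 2 ^ (c * ls))) := by
          gcongr
          exact one_le_two
      _ = β lh * 2 ^ (a * lh) * (γ ls * 2 ^ ((a + c) * ls)) := by
          rw [← pow_add, ← add_mul]
      _ ≤ phi L a β * phi L (a + c) γ := by gcongr
      _ = 1 * (phi L (a + c) γ * phi L a β) := by ring
      _ ≤ Z * (phi L (a + c) γ * phi L a β) := by gcongr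

theorem potential_step {L a h : ℕ} (hah : a ≤ h) (α β γ : ℕ → ℝ≥0∞) (Z Γ V : ℝ≥0∞)
    (hα : ∀ l, α l ≠ ∞) (hγα : ∀ l, γ l ≤ α l) (hγ0 : γ 0 ≠ 0) (hZ1 : 1 ≤ Z)
    (h1 : ∀ l' l, l' ≤ l → l ≤ L → γ l' * α l ≤ Z * (γ l * α l'))
    (h2 : ∀ l' l, l' ≤ l → l ≤ L → γ l' * β l ≤ Z * (γ l * β l'))
    (h3 : ∀ lam, lam ≤ L → α lam * 2 ^ (a * lam) = phi L a α → ∀ l, lam ≤ l → l ≤ L →
      γ l * α lam ≤ Γ * (γ lam * α l))
    (hV : phi L h α ≤ V * phi L a α) :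
    phi L h β ≤ V * (Z * max Γ Z) * phi L a β := by
  have hγt : ∀ l, γ l ≠ ∞ := fun l => ne_top_of_le_ne_top (hα l) (hγα l)
  have hα0 : α 0 ≠ 0 := fun h0 => hγ0 (le_antisymm (by simpa [h0] using hγα 0) bot_le)
  have A := potential_learn (h := h) α γ Z Γ h1 h3
  have B := potential_forget hah β γ Z hZ1 h2
  have hg1 : phi L h γ ≠ 0 := phi_ne_zero hγ0
  have hg2 : phi L a γ ≠ 0 := phi_ne_zero hγ0
  have hg1' : phi L h γ ≠ ∞ := phi_ne_top hγt
  have hg2' : phi L a γ ≠ ∞ := phi_ne_top hγt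
  have ha0 : phi L a α ≠ 0 := phi_ne_zero hα0
  have ha0' : phi L a α ≠ ∞ := phi_ne_top hα
  have C : (phi L h γ * phi L a γ * phi L a α) * phi L h β ≤
      (phi L h γ * phi L a γ * phi L a α) * (V * (Z * max Γ Z) * phi L a β) := by
    calc (phi L h γ * phi L a γ * phi L a α) * phi L h β
        = (phi L h γ * phi L a α) * (phi L h β * phi L a γ) := by ring
      _ ≤ (max Γ Z * (phi L h α * phi L a γ)) * (Z * (phi L h γ * phi L a β)) :=
          mul_le_mul' A B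
      _ ≤ (max Γ Z * ((V * phi L a α) * phi L a γ)) * (Z * (phi L h γ * phi L a β)) := by
          gcongr
      _ = (phi L h γ * phi L a γ * phi L a α) * (V * (Z * max Γ Z) * phi L a β) := by ring
  exact (ENNReal.mul_le_mul_iff_right (mul_ne_zero (mul_ne_zero hg1 hg2) ha0)
    (ENNReal.mul_ne_top (ENNReal.mul_ne_top hg1' hg2') ha0')).1 C

end Vale.Agent.P309
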