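import Vale.Agent.P309.Base

open MeasureTheory ProbabilityTheory
open scoped RealInnerProductSpace ENNReal

namespace Vale.Agent.P309

/-- Summing the measures of the fibres of a measurable map to a countable type. -/
theorem tsum_fiber {α β : Type*} [MeasurableSpace α] [MeasurableSpace β] [Countable β]
    [MeasurableSingletonClass β] (μ : Measure α) {f : α → β} (hf : Measurable f) {A : Set α}
    (hA : MeasurableSet A) : ∑' c, μ (A ∩ f ⁻¹' {c}) = μ A := by
  rw [← measure_iUnion]
  · congr 1
    ext x
    simp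
  · intro i j hij
    refine Set.disjoint_left.2 fun x hx hx' => hij ?_
    rw [← (show f x = i from hx.2), ← (show f x = j from hx'.2)]
  · exact fun c => hA.inter (hf (measurableSet_singleton c))

theorem measure_le_tsum_fiber {α β : Type*} [MeasurableSpace α] [Countable β]
    (μ : Measure α) (f : α → β) (A : Set α) : μ A ≤ ∑' c, μ (A ∩ f ⁻¹' {c}) := by
  refine le_trans (measure_mono ?_) (measure_iUnion_le _)
  intro x hx
  exact Set.mem_iUnion.2 ⟨f x, hx, rfl⟩

/-- A set saturated for the level-`l` cells is measurable. -/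
theorem measurableSet_of_saturated {d l : ℕ} {S : Set (E d)} (hS : ∀ s ∈ S, Q d l s ⊆ S) :
    MeasurableSet S := by
  have : S = cell d l ⁻¹' (cell d l '' S) := by
    ext x
    constructor
    · intro hx; exact ⟨x, hx, rfl⟩
    · rintro ⟨y, hy, hxy⟩
      exact hS y hy (show cell d l x = cell d l y from hxy.symm)
  rw [this]
  exact measurable_cell d l (Set.to_countable _).measurableSet

theorem cell_ratio_aux {d : ℕ} (v w : Measure (E d)) [IsFiniteMeasure v] [IsFiniteMeasure w]
    {l' l : ℕ} (h : l' ≤ l) (Z : ℝ≥0∞) (hZ : Z ≠ 0) (hZ' : Z ≠ ∞) (s₀ : E d) :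
    v ({s | Z * (v (Q d l s) * w (Q d l' s)) < v (Q d l' s) * w (Q d l s)} ∩ Q d l' s₀) ≤
      v (Q d l' s₀) / Z := by
  set Bad : Set (E d) := {s | Z * (v (Q d l s) * w (Q d l' s)) < v (Q d l' s) * w (Q d l s)}
    with hBad
  set q : Set (E d) := Q d l' s₀ with hq
  by_cases hw : w q = 0
  · have : Bad ∩ q = ∅ := by
      ext s
      simp only [Set.mem_inter_iff, Set.mem_empty_iff_false, iff_false, not_and]
      intro hs hsq
      have h1 : Q d l' s = q := Q_eq_of_mem hsq
      have h2 : w (Q d l s) = 0 := measure_mono_null ((Q_anti h s).trans h1.le) hw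
      simp only [hBad, Set.mem_ofPred_eq, h2, mul_zero] at hs
      exact not_lt_zero hs
    rw [this]; simp
  have hwt : w q ≠ ∞ := measure_ne_top _ _
  calc v (Bad ∩ q) ≤ ∑' c, v (Bad ∩ q ∩ cell d l ⁻¹' {c}) := measure_le_tsum_fiber _ _ _
    _ ≤ ∑' c, w (q ∩ cell d l ⁻¹' {c}) * (v q / (Z * w q)) := by
        refine ENNReal.tsum_le_tsum fun c => ?_
        rcases Set.eq_empty_or_nonempty (Bad ∩ q ∩ cell d l ⁻¹' {c}) with he | ⟨s, ⟨hs, hsq⟩, hsc⟩
        · rw [he]; simp
        · have h1 : Q d l' s = q := Q_eq_of_mem hsq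
          have h2 : cell d l ⁻¹' {c} = Q d l s := by
            ext x
            have : cell d l s = c := hsc
            simp [Q, this]
          have h3 : q ∩ cell d l ⁻¹' {c} = Q d l s := by
            rw [h2]; exact Set.inter_eq_right.2 ((Q_anti h s).trans h1.le)
          have h4 : Z * (v (Q d l s) * w q) < v q * w (Q d l s) := by
            have := hs
            simp only [hBad, Set.mem_ofPred_eq, h1] at this
            exact this
          rw [h3]
          calc v (Bad ∩ q ∩ cell d l ⁻¹' {c}) ≤ v (Q d l s) := by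
                refine measure_mono ?_
                rw [← h2]; exact Set.inter_subset_right
            _ ≤ w (Q d l s) * (v q / (Z * w q)) := by
                rw [← mul_div_assoc, ENNReal.le_div_iff_mul_le (Or.inl (mul_ne_zero hZ hw))
                  (Or.inl (ENNReal.mul_ne_top hZ' hwt))]
                calc v (Q d l s) * (Z * w q) = Z * (v (Q d l s) * w q) := by ring
                  _ ≤ v q * w (Q d l s) := h4.le
                  _ = w (Q d l s) * v q := by ring
    _ = w q * (v q / (Z * w q)) := by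
        rw [ENNReal.tsum_mul_right, tsum_fiber w (measurable_cell d l) (measurableSet_Q d l' s₀)]
    _ = v q / Z := by
        rw [← mul_div_assoc, mul_comm Z, ENNReal.mul_div_mul_left _ _ hw hwt]

theorem cell_ratio {d : ℕ} (v w : Measure (E d)) [IsFiniteMeasure v] [IsFiniteMeasure w]
    {l' l : ℕ} (h : l' ≤ l) (Z : ℝ≥0∞) (hZ : Z ≠ 0) (hZ' : Z ≠ ∞) (S : Set (E d))
    (hS : ∀ s ∈ S, Q d l' s ⊆ S) :
    v {s | s ∈ S ∧ Z * (v (Q d l s) * w (Q d l' s)) < v (Q d l' s) * w (Q d l s)} ≤
      v S / Z := by
  set Bad : Set (E d) := {s | Z * (v (Q d l s) * w (Q d l' s)) < v (Q d l' s) * w (Q d l s)}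
    with hBad
  have hSm := measurableSet_of_saturated hS
  calc v {s | s ∈ S ∧ Z * (v (Q d l s) * w (Q d l' s)) < v (Q d l' s) * w (Q d l s)}
      ≤ ∑' c, v ({s | s ∈ S ∧ Z * (v (Q d l s) * w (Q d l' s)) < v (Q d l' s) * w (Q d l s)} ∩
          cell d l' ⁻¹' {c}) := measure_le_tsum_fiber _ _ _
    _ ≤ ∑' c, v (S ∩ cell d l' ⁻¹' {c}) / Z := by
        refine ENNReal.tsum_le_tsum fun c => ?_
        rcases Set.eq_empty_or_nonempty (S ∩ cell d l' ⁻¹' {c}) with he | ⟨s₀, hs₀, hsc⟩
        · have : {s | s ∈ S ∧ Z * (v (Q d l s) * w (Q d l' s)) < v (Q d l' s) * w (Q d l s)} ∩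
              cell d l' ⁻¹' {c} = ∅ := by
            apply Set.eq_empty_of_subset_empty
            rw [← he]
            exact Set.inter_subset_inter_left _ (fun s hs => hs.1)
          rw [this]; simp
        · have h2 : cell d l' ⁻¹' {c} = Q d l' s₀ := by
            ext x
            have : cell d l' s₀ = c := hsc
            simp [Q, this]
          rw [h2, Set.inter_eq_right.2 (hS s₀ hs₀)]
          refine le_trans (measure_mono ?_) (cell_ratio_aux v w h Z hZ hZ' s₀)
          rintro s ⟨hs, hsq⟩
          exact ⟨hs.2, hsq⟩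
    _ = v S / Z := by
        simp only [div_eq_mul_inv]
        rw [ENNReal.tsum_mul_right, tsum_fiber v (measurable_cell d l') hSm]

end Vale.Agent.P309
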