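import Vale.Agent.P309.Base

open MeasureTheory ProbabilityTheory
open scoped RealInnerProductSpace ENNReal

namespace Vale.Agent.P309

namespace SmallBallAux

/-- The density of the standard Gaussian on `ℝ` is at most `1/2`. -/
theorem pdf_le (y : ℝ) : gaussianPDF 0 1 y ≤ 2⁻¹ := by
  have h0 : gaussianPDFReal 0 1 y ≤ 1 / 2 := by
    rw [gaussianPDFReal]
    have h1 : Real.exp (-(y - 0) ^ 2 / (2 * ((1 : NNReal) : ℝ))) ≤ 1 := by
      rw [Real.exp_le_one_iff]
      have : 0 ≤ (y - 0) ^ 2 := sq_nonneg _
      simp only [NNReal.coe_one, mul_one]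
      linarith
    have h2 : (Real.sqrt (2 * Real.pi * ((1 : NNReal) : ℝ)))⁻¹ ≤ 1 / 2 := by
      have hpi := Real.pi_gt_three
      have h3 : (2 : ℝ) ≤ Real.sqrt (2 * Real.pi * ((1 : NNReal) : ℝ)) := by
        apply Real.le_sqrt_of_sq_le
        simp only [NNReal.coe_one, mul_one]
        linarith
      rw [one_div]
      exact inv_anti₀ (by norm_num) h3
    have h4 : 0 ≤ (Real.sqrt (2 * Real.pi * ((1 : NNReal) : ℝ)))⁻¹ := by positivity
    calc (Real.sqrt (2 * Real.pi * ((1 : NNReal) : ℝ)))⁻¹ *
          Real.exp (-(y - 0) ^ 2 / (2 * ((1 : NNReal) : ℝ)))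
        ≤ (Real.sqrt (2 * Real.pi * ((1 : NNReal) : ℝ)))⁻¹ * 1 := by gcongr
      _ ≤ 1 / 2 := by rw [mul_one]; exact h2
  rw [gaussianPDF]
  calc ENNReal.ofReal (gaussianPDFReal 0 1 y) ≤ ENNReal.ofReal (1 / 2) :=
        ENNReal.ofReal_le_ofReal h0
    _ = 2⁻¹ := by
        rw [one_div, ENNReal.ofReal_inv_of_pos (by norm_num)]
        norm_num

theorem real_ball (c : ℝ) {r η : ℝ} (hr : 0 < r) (hη : 0 < η) :
    gaussianReal 0 1 {y : ℝ | |c + y * r| ≤ η} ≤
      ENNReal.ofReal η * (ENNReal.ofReal r)⁻¹ := by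
  have hset : {y : ℝ | |c + y * r| ≤ η} = Set.Icc ((-η - c) / r) ((η - c) / r) := by
    ext y
    simp only [Set.mem_ofPred_eq, Set.mem_Icc, abs_le, div_le_iff₀ hr, le_div_iff₀ hr]
    constructor
    · rintro ⟨h1, h2⟩; constructor <;> linarith
    · rintro ⟨h1, h2⟩; constructor <;> linarith
  rw [hset, gaussianReal_of_var_ne_zero _ one_ne_zero, withDensity_apply _ measurableSet_Icc]
  calc ∫⁻ y in Set.Icc ((-η - c) / r) ((η - c) / r), gaussianPDF 0 1 y
      ≤ ∫⁻ _y in Set.Icc ((-η - c) / r) ((η - c) / r), 2⁻¹ := lintegral_mono fun y => pdf_le y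
    _ = 2⁻¹ * ENNReal.ofReal ((η - c) / r - (-η - c) / r) := by
        rw [setLIntegral_const, Real.volume_Icc]
    _ = ENNReal.ofReal η * (ENNReal.ofReal r)⁻¹ := by
        rw [← ENNReal.ofReal_inv_of_pos hr, ← ENNReal.ofReal_mul hη.le]
        have : (2 : ℝ≥0∞)⁻¹ = ENNReal.ofReal (1 / 2) := by
          rw [one_div, ENNReal.ofReal_inv_of_pos (by norm_num)]
          norm_num
        rw [this, ← ENNReal.ofReal_mul (by norm_num)]
        congr 1
        field_simp
        ring

end SmallBallAux

open SmallBallAux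

theorem small_ball {d : ℕ} (U : Submodule ℝ (E d)) {p : ℕ} (v : Fin p → E d)
    (hv : ∀ i, v i ∈ U) (w : E d) {η : ℝ} (hη : 0 < η) :
    stdGaussian (E d) {x | (∀ i, |⟪x, v i⟫| ≤ η) ∧ |⟪x, w⟫| ≤ η} ≤
      stdGaussian (E d) {x | ∀ i, |⟪x, v i⟫| ≤ η} *
        (ENNReal.ofReal η * (ENNReal.ofReal (Metric.infDist w (U : Set (E d))))⁻¹) := by
  set r := Metric.infDist w (U : Set (E d)) with hrdef
  have hr0 : 0 ≤ r := Metric.infDist_nonneg
  rcases hr0.eq_or_lt with hr | hr
  · -- degenerate case
    rw [← hr]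
    simp only [ENNReal.ofReal_zero, ENNReal.inv_zero]
    rw [ENNReal.mul_top (by simpa using hη)]
    rcases eq_or_ne (stdGaussian (E d) {x | ∀ i, |⟪x, v i⟫| ≤ η}) 0 with h0 | h0
    · rw [h0, zero_mul]
      exact (measure_mono fun x hx => hx.1).trans h0.le
    · rw [ENNReal.mul_top h0]
      exact le_top
  · -- main case
    classical
    set z : E d := w - U.starProjection w with hz
    have hzr : r ≤ ‖z‖ := by
      rw [hrdef, hz, ← dist_eq_norm]
      exact Metric.infDist_le_dist_of_mem (Submodule.starProjection_apply_mem U w)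
    have hzpos : 0 < ‖z‖ := hr.trans_le hzr
    set e : E d := ‖z‖⁻¹ • z with he
    have henorm : ‖e‖ = 1 := by
      rw [he, norm_smul, norm_inv, norm_norm]
      exact inv_mul_cancel₀ hzpos.ne'
    have hzU : ∀ u ∈ U, ⟪z, u⟫ = 0 := fun u hu => Submodule.starProjection_inner_eq_zero w u hu
    have heU : ∀ u ∈ U, ⟪e, u⟫ = 0 := fun u hu => by
      rw [he, real_inner_smul_left, hzU u hu, mul_zero]
    have hew : ⟪e, w⟫ = ‖z‖ := by
      have h1 : w = z + U.starProjection w := by rw [hz]; abel
      have h2 : ⟪z, w⟫ = ‖z‖ ^ 2 := by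
        conv_lhs => rw [h1]
        rw [inner_add_right, hzU _ (Submodule.starProjection_apply_mem U w), add_zero,
          real_inner_self_eq_norm_sq]
      rw [he, real_inner_smul_left, h2]
      field_simp
    -- orthonormal basis containing `e`
    obtain ⟨u, b, hsub, hb⟩ := Orthonormal.exists_orthonormalBasis_extension (𝕜 := ℝ)
      (v := ({e} : Set (E d))) (by
        rw [orthonormal_subtype_iff_ite]
        intro x hx y hy
        rw [Set.mem_singleton_iff] at hx hy
        rw [hx, hy, if_pos rfl, real_inner_self_eq_norm_sq, henorm, one_pow])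
    have heu : e ∈ u := hsub rfl
    set i₀ : u := ⟨e, heu⟩ with hi₀
    have hbi₀ : b i₀ = e := by rw [hb]
    set μ : u → Measure ℝ := fun _ => gaussianReal 0 1 with hμ
    have hmeas : Measurable (fun y : u → ℝ => ∑ i, y i • b i) := by fun_prop
    rw [stdGaussian_eq_map_pi_orthonormalBasis b]
    have hm1 : ∀ v' : E d, MeasurableSet {x : E d | |⟪x, v'⟫| ≤ η} := fun v' =>
      (isClosed_le ((continuous_id.inner continuous_const).abs) continuous_const).measurableSet
    have hmA : MeasurableSet {x : E d | ∀ i, |⟪x, v i⟫| ≤ η} := by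
      rw [show {x : E d | ∀ i, |⟪x, v i⟫| ≤ η} = ⋂ i, {x : E d | |⟪x, v i⟫| ≤ η} by
        ext x; simp]
      exact MeasurableSet.iInter fun i => hm1 _
    have hmB : MeasurableSet {x : E d | (∀ i, |⟪x, v i⟫| ≤ η) ∧ |⟪x, w⟫| ≤ η} := by
      exact hmA.inter (hm1 w)
    rw [Measure.map_apply hmeas hmA, Measure.map_apply hmeas hmB]
    set A := (fun y : u → ℝ => ∑ i, y i • b i) ⁻¹' {x : E d | ∀ i, |⟪x, v i⟫| ≤ η} with hA
    set B := (fun y : u → ℝ => ∑ i, y i • b i) ⁻¹'
      {x : E d | (∀ i, |⟪x, v i⟫| ≤ η) ∧ |⟪x, w⟫| ≤ η} with hB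
    have hAm : MeasurableSet A := hmeas hmA
    have hBm : MeasurableSet B := hmeas hmB
    have hupd : ∀ (y : u → ℝ) (t : ℝ), (∑ i, (Function.update y i₀ t) i • b i) =
        (∑ i, (Function.update y i₀ 0) i • b i) + t • e := by
      intro y t
      rw [← Finset.add_sum_erase _ _ (Finset.mem_univ i₀),
        ← Finset.add_sum_erase _ (fun i => (Function.update y i₀ 0) i • b i)
          (Finset.mem_univ i₀)]
      simp only [Function.update_self, zero_smul, zero_add, hbi₀]
      rw [add_comm]
      congr 1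
      refine Finset.sum_congr rfl fun i hi => ?_
      rw [Function.update_of_ne (Finset.ne_of_mem_erase hi),
        Function.update_of_ne (Finset.ne_of_mem_erase hi)]
    have key : (Measure.pi μ) B ≤
        ∫⁻ y, (ENNReal.ofReal η * (ENNReal.ofReal r)⁻¹) * A.indicator 1 y ∂(Measure.pi μ) := by
      rw [← lintegral_indicator_one hBm]
      refine lintegral_le_of_lmarginal_le {i₀} (measurable_one.indicator hBm)
        ((measurable_one.indicator hAm).const_mul _) ?_
      rw [lmarginal_singleton, lmarginal_singleton]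
      intro y
      have hAiff : ∀ t : ℝ, Function.update y i₀ t ∈ A ↔ Function.update y i₀ 0 ∈ A := by
        intro t
        simp only [hA, Set.mem_preimage, Set.mem_ofPred_eq]
        refine forall_congr' fun i => ?_
        rw [hupd y t, inner_add_left, real_inner_smul_left, heU _ (hv i), mul_zero, add_zero]
      by_cases hyA : Function.update y i₀ 0 ∈ A
      · have h1 : ∀ t : ℝ, A.indicator (1 : (u → ℝ) → ℝ≥0∞) (Function.update y i₀ t) = 1 :=
          fun t => Set.indicator_of_mem ((hAiff t).2 hyA) _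
        simp only [h1]
        rw [lintegral_const, measure_univ, mul_one, mul_one]
        calc ∫⁻ t, B.indicator 1 (Function.update y i₀ t) ∂(μ i₀)
            ≤ ∫⁻ t, ({t : ℝ | |⟪∑ i, (Function.update y i₀ 0) i • b i, w⟫ + t * ‖z‖| ≤ η}).indicator
                1 t ∂(gaussianReal 0 1) := by
              refine lintegral_mono fun t => ?_
              by_cases htB : Function.update y i₀ t ∈ B
              · have h2 : |⟪∑ i, (Function.update y i₀ 0) i • b i, w⟫ + t * ‖z‖| ≤ η := by
                  have h3 : |⟪∑ i, (Function.update y i₀ t) i • b i, w⟫| ≤ η := htB.2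
                  rw [hupd y t, inner_add_left, real_inner_smul_left, hew] at h3
                  exact h3
                rw [Set.indicator_of_mem htB, Set.indicator_of_mem (by exact h2)]
                exact le_rfl
              · rw [Set.indicator_of_notMem htB]
                exact zero_le
          _ = gaussianReal 0 1
                {t : ℝ | |⟪∑ i, (Function.update y i₀ 0) i • b i, w⟫ + t * ‖z‖| ≤ η} := by
              rw [lintegral_indicator_one]
              exact (isClosed_le (by fun_prop) continuous_const).measurableSet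
          _ ≤ ENNReal.ofReal η * (ENNReal.ofReal ‖z‖)⁻¹ := real_ball _ hzpos hη
          _ ≤ ENNReal.ofReal η * (ENNReal.ofReal r)⁻¹ := by
              gcongr
      · have h1 : ∀ t : ℝ, B.indicator (1 : (u → ℝ) → ℝ≥0∞) (Function.update y i₀ t) = 0 := by
          intro t
          refine Set.indicator_of_notMem (fun h => hyA ((hAiff t).1 h.1)) _
        simp only [h1, lintegral_zero]
        exact zero_le
    calc (Measure.pi μ) B ≤ _ := key
      _ = _ := by
        rw [lintegral_const_mul _ (measurable_one.indicator hAm), lintegral_indicator_one hAm,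
          mul_comm]

end Vale.Agent.P309
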