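import Vale.Agent.P309.Ratio
import Vale.Agent.P309.Potential
import Vale.Agent.P309.CountBall
import Vale.Agent.P309.LocalBlock

open MeasureTheory ProbabilityTheory
open scoped RealInnerProductSpace ENNReal

namespace Vale.Agent.P309

/-- The masses of the cells of `s`. -/
noncomputable def mass {d : ℕ} (w : Measure (E d)) (s : E d) : ℕ → ℝ≥0∞ := fun l => w (Q d l s)

/-- Total mass of the bad set. -/
noncomputable def bad {d : ℕ} (L D : ℕ) {ι : Type*} [Fintype ι] (V : ℝ≥0∞)
    (w : ι → Measure (E d)) : ℝ≥0∞ :=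
  ∑ k, w k {s | V * phi L (8 * D) (mass (w k) s) < phi L (16 * D) (mass (w k) s)}

theorem mass_eq_of_cell {d L : ℕ} (w : Measure (E d)) {s t : E d}
    (h : cell d L s = cell d L t) {l : ℕ} (hl : l ≤ L) : mass w s l = mass w t l := by
  have := Q_eq_of_mem (show s ∈ Q d l t from cell_mono hl h)
  simp only [mass, this]

theorem phi_mass_eq_of_cell {d L b : ℕ} (w : Measure (E d)) {s t : E d}
    (h : cell d L s = cell d L t) : phi L b (mass w s) = phi L b (mass w t) := by
  unfold phi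
  refine Finset.sup_congr rfl fun l hl => ?_
  rw [mass_eq_of_cell w h (by have := Finset.mem_range.1 hl; omega)]

/-- A set whose membership depends only on the level-`L` cell is measurable. -/
theorem measurableSet_of_cell {d L : ℕ} {S : Set (E d)}
    (hS : ∀ s t : E d, cell d L t = cell d L s → s ∈ S → t ∈ S) : MeasurableSet S :=
  measurableSet_of_saturated (l := L) fun s hs t ht => hS s t ht hs

section

variable {d D L : ℕ} {ι : Type*} [Fintype ι] (w : ι → Measure (E d))
  (F : ι → (Fin D → E d) → (Fin D → ℝ) → ι)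

/-- joint law of the signal and two consecutive states -/
noncomputable def two (m k : ι) : Measure (E d) := (w m).withDensity (tr (F m) k)

theorem stepM_eq (k : ι) : stepM F w k = ∑ m, two w F m k := rfl

omit [Fintype ι] in
theorem two_le (m k : ι) : two w F m k ≤ w m := by
  unfold two
  calc (w m).withDensity (tr (F m) k) ≤ (w m).withDensity 1 :=
        withDensity_mono (Filter.Eventually.of_forall fun s => tr_le_one _ _ _)
    _ = w m := withDensity_one

theorem two_le_stepM (m k : ι) : two w F m k ≤ stepM F w k := by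
  rw [stepM_eq]
  intro s
  rw [Measure.finsetSum_apply]
  exact Finset.single_le_sum (f := fun i => two w F i k s) (fun _ _ => bot_le)
    (Finset.mem_univ m)

theorem sum_two (hF : ∀ m k, MeasurableSet {p : (Fin D → E d) × (Fin D → ℝ) | F m p.1 p.2 = k})
    (m : ι) {A : Set (E d)} (hA : MeasurableSet A) : ∑ k, two w F m k A = w m A := by
  unfold two
  simp only [withDensity_apply _ hA]
  rw [← lintegral_finsetSum _ fun k _ => measurable_tr (F m) k (hF m k)]
  simp only [sum_tr (F m) (hF m), lintegral_one, Measure.restrict_apply_univ]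

theorem sum_stepM (hF : ∀ m k, MeasurableSet {p : (Fin D → E d) × (Fin D → ℝ) | F m p.1 p.2 = k}) :
    ∑ k, stepM F w k = ∑ m, w m := by
  ext A hA
  simp only [stepM_eq, Measure.finsetSum_apply]
  rw [Finset.sum_comm]
  exact Finset.sum_congr rfl fun m _ => sum_two w F hF m hA

instance two_finite (m k : ι) [IsFiniteMeasure (w m)] : IsFiniteMeasure (two w F m k) :=
  ⟨lt_of_le_of_lt (two_le w F m k Set.univ) (measure_lt_top _ _)⟩

end

/-- number of pairs of levels bound -/
theorem drawdown_mass {d L : ℕ} (v w : Measure (E d)) [IsFiniteMeasure v] [IsFiniteMeasure w]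
    (Z : ℝ≥0∞) (hZ : Z ≠ 0) (hZ' : Z ≠ ∞) :
    v {s | ∃ l' l, l' ≤ l ∧ l ≤ L ∧
        Z * (mass v s l * mass w s l') < mass v s l' * mass w s l} ≤
      (L + 1) ^ 2 * (v Set.univ / Z) := by
  have hsub : {s : E d | ∃ l' l, l' ≤ l ∧ l ≤ L ∧
        Z * (mass v s l * mass w s l') < mass v s l' * mass w s l} ⊆
      ⋃ p ∈ Finset.range (L + 1) ×ˢ Finset.range (L + 1),
        {s | p.1 ≤ p.2 ∧ Z * (mass v s p.2 * mass w s p.1) < mass v s p.1 * mass w s p.2} := by
    rintro s ⟨l', l, h1, h2, h3⟩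
    simp only [Set.mem_iUnion]
    refine ⟨(l', l), ?_, h1, h3⟩
    simp only [Finset.mem_product, Finset.mem_range]
    omega
  refine (measure_mono hsub).trans ((measure_biUnion_finset_le _ _).trans ?_)
  calc ∑ p ∈ Finset.range (L + 1) ×ˢ Finset.range (L + 1),
        v {s | p.1 ≤ p.2 ∧ Z * (mass v s p.2 * mass w s p.1) < mass v s p.1 * mass w s p.2}
      ≤ ∑ _p ∈ Finset.range (L + 1) ×ˢ Finset.range (L + 1), v Set.univ / Z := by
        refine Finset.sum_le_sum fun p _ => ?_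
        by_cases hp : p.1 ≤ p.2
        · refine le_trans (measure_mono ?_)
            (cell_ratio v w hp Z hZ hZ' Set.univ (fun _ _ => Set.subset_univ _))
          rintro s ⟨_, hs⟩
          exact ⟨Set.mem_univ _, hs⟩
        · have : {s : E d | p.1 ≤ p.2 ∧
              Z * (mass v s p.2 * mass w s p.1) < mass v s p.1 * mass w s p.2} = ∅ := by
            ext s; simp [hp]
          rw [this]; simp
    _ = (L + 1) ^ 2 * (v Set.univ / Z) := by
        rw [Finset.sum_const, Finset.card_product, Finset.card_range, nsmul_eq_mul]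
        push_cast
        ring

/-- mass of the points whose level-0 cell is null -/
theorem null_cell {d : ℕ} (v : Measure (E d)) : v {s | mass v s 0 = 0} = 0 := by
  refine le_antisymm ?_ bot_le
  refine (measure_le_tsum_fiber v (cell d 0) _).trans ?_
  simp only [nonpos_iff_eq_zero, ENNReal.tsum_eq_zero]
  intro c
  rcases Set.eq_empty_or_nonempty ({s | mass v s 0 = 0} ∩ cell d 0 ⁻¹' {c}) with he | ⟨s, hs, hc⟩
  · rw [he]; simp
  · refine measure_mono_null (t := Q d 0 s) ?_ hs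
    rintro x ⟨_, hx⟩
    have h1 : cell d 0 x = c := hx
    have h2 : cell d 0 s = c := hc
    exact h1.trans h2.symm

/-- mass of the points whose level-0 cell has small mass -/
theorem small_cell {d : ℕ} (hd : 0 < d) (w : Measure (E d)) (hw : w {s | 1 < ‖s‖} = 0)
    (θ : ℝ≥0∞) : w {s | mass w s 0 < θ} ≤ 2 ^ (25 * d) * θ := by
  obtain ⟨S, hS, hS'⟩ := count_ball d 0 hd 0
  have hsub : {s | mass w s 0 < θ} ⊆ {s : E d | 1 < ‖s‖} ∪
      ⋃ c ∈ S, ({s | mass w s 0 < θ} ∩ cell d 0 ⁻¹' {c}) := by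
    intro s hs
    by_cases h1 : 1 < ‖s‖
    · exact Or.inl h1
    · refine Or.inr ?_
      simp only [Set.mem_iUnion]
      refine ⟨cell d 0 s, hS' s ?_, hs, rfl⟩
      rw [sub_zero]; push Not at h1; norm_num; linarith
  calc w {s | mass w s 0 < θ} ≤ w {s : E d | 1 < ‖s‖} +
        w (⋃ c ∈ S, ({s | mass w s 0 < θ} ∩ cell d 0 ⁻¹' {c})) :=
        (measure_mono hsub).trans (measure_union_le _ _)
    _ ≤ 0 + ∑ c ∈ S, w ({s | mass w s 0 < θ} ∩ cell d 0 ⁻¹' {c}) := by
        rw [hw]; gcongr; exact measure_biUnion_finset_le _ _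
    _ ≤ 0 + ∑ _c ∈ S, θ := by
        gcongr with c _
        rcases Set.eq_empty_or_nonempty ({s | mass w s 0 < θ} ∩ cell d 0 ⁻¹' {c}) with
          he | ⟨s, hs, hc⟩
        · rw [he]; simp
        · refine le_trans (measure_mono (t := Q d 0 s) ?_) (le_of_lt hs)
          rintro x ⟨_, hx⟩
          have h1 : cell d 0 x = c := hx
          have h2 : cell d 0 s = c := hc
          exact h1.trans h2.symm
    _ = S.card * θ := by rw [zero_add, Finset.sum_const, nsmul_eq_mul]
    _ ≤ 2 ^ (25 * d) * θ := by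
        gcongr
        exact_mod_cast hS

theorem local_mass {d D L : ℕ} (hd : 0 < d) (hD : 0 < D) (hdD : d ≤ 127 * D) {ι : Type*}
    [Fintype ι] (w : Measure (E d)) [IsFiniteMeasure w] (F : (Fin D → E d) → (Fin D → ℝ) → ι)
    (hF : ∀ k, MeasurableSet {p : (Fin D → E d) × (Fin D → ℝ) | F p.1 p.2 = k}) (g t : ℕ)
    (hdom : ∀ l, L < l → ∀ s, mass w s l ≤ 2⁻¹ ^ t * 2⁻¹ ^ (8 * D * l)) (lam l : ℕ)
    (hlam : lam ≤ l) (hl : l ≤ L) :
    ∑ k, (w.withDensity (tr F k)) {s | mass w s lam * 2 ^ (8 * D * lam) = phi L (8 * D) (mass w s) ∧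
        2⁻¹ ^ t ≤ mass w s 0 ∧
        2 ^ (2 * g) * (mass (w.withDensity (tr F k)) s lam * mass w s l) <
          mass (w.withDensity (tr F k)) s l * mass w s lam} ≤
      w Set.univ * (2 * 2⁻¹ ^ D + Fintype.card ι * (2⁻¹ ^ g * 2 ^ (1626 * D)) ^ D) := by
  set e : ℝ≥0∞ := 2 * 2⁻¹ ^ D + Fintype.card ι * (2⁻¹ ^ g * 2 ^ (1626 * D)) ^ D with he
  set v : ι → Measure (E d) := fun k => w.withDensity (tr F k) with hv
  have hvle : ∀ k, v k ≤ w := by
    intro k
    calc w.withDensity (tr F k) ≤ w.withDensity 1 :=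
        withDensity_mono (Filter.Eventually.of_forall fun s => tr_le_one _ _ _)
      _ = w := withDensity_one
  have hvf : ∀ k, IsFiniteMeasure (v k) := fun k =>
    ⟨lt_of_le_of_lt (hvle k Set.univ) (measure_lt_top _ _)⟩
  set G : Set (E d) := {s | mass w s lam * 2 ^ (8 * D * lam) = phi L (8 * D) (mass w s) ∧
        2⁻¹ ^ t ≤ mass w s 0} with hG
  set R : ι → Set (E d) := fun k => {s | 2 ^ (2 * g) * (mass (v k) s lam * mass w s l) <
          mass (v k) s l * mass w s lam} with hR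
  have hGm : MeasurableSet G := by
    refine measurableSet_of_cell (L := L) fun s s' h hs => ?_
    simp only [hG, Set.mem_ofPred_eq] at hs ⊢
    rw [mass_eq_of_cell w h (hlam.trans hl), phi_mass_eq_of_cell w h,
      mass_eq_of_cell w h (Nat.zero_le L)]
    exact hs
  have hRm : ∀ k, MeasurableSet (R k) := by
    intro k
    refine measurableSet_of_cell (L := L) fun s s' h hs => ?_
    simp only [hR, Set.mem_ofPred_eq] at hs ⊢
    rw [mass_eq_of_cell w h (hlam.trans hl), mass_eq_of_cell w h hl,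
      mass_eq_of_cell (v k) h (hlam.trans hl), mass_eq_of_cell (v k) h hl]
    exact hs
  -- one cell
  have hcell : ∀ s₀ : E d, ∑ k, v k (G ∩ R k ∩ Q d lam s₀) ≤ w (Q d lam s₀) * e := by
    intro s₀
    have h1 : ∀ k, v k (G ∩ R k ∩ Q d lam s₀) =
        ∫⁻ s in (G ∩ R k ∩ Q d lam s₀), tr F k s ∂w := fun k =>
      withDensity_apply _ ((hGm.inter (hRm k)).inter (measurableSet_Q d lam s₀))
    simp only [h1]
    refine local_block hd hD hdD w F hF lam s₀ (G ∩ Q d lam s₀)
      (hGm.inter (measurableSet_Q d lam s₀)) Set.inter_subset_right ?_ _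
      (fun k => (hGm.inter (hRm k)).inter (measurableSet_Q d lam s₀))
      (fun k s hs => ⟨hs.1.1, hs.2⟩) g ?_
    · rintro s ⟨hs, hsQ⟩ j
      have hQ : Q d lam s₀ = Q d lam s := (Q_eq_of_mem hsQ).symm
      rw [hQ]
      change mass w s (lam + j) ≤ mass w s lam * 2⁻¹ ^ (8 * D * j)
      have h2 : (2⁻¹ : ℝ≥0∞) ^ (8 * D * (lam + j)) * 2 ^ (8 * D * (lam + j)) = 1 := by
        rw [← mul_pow, ENNReal.inv_mul_cancel two_ne_zero ENNReal.ofNat_ne_top, one_pow]
      have h3 : (2 : ℝ≥0∞) ^ (8 * D * lam) * 2⁻¹ ^ (8 * D * (lam + j)) = 2⁻¹ ^ (8 * D * j) := by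
        rw [mul_add, pow_add, ← mul_assoc, ← mul_pow, ENNReal.mul_inv_cancel two_ne_zero
          ENNReal.ofNat_ne_top, one_pow, one_mul]
      have hphi : phi L (8 * D) (mass w s) = mass w s lam * 2 ^ (8 * D * lam) := hs.1.symm
      have main : mass w s (lam + j) ≤ phi L (8 * D) (mass w s) * 2⁻¹ ^ (8 * D * (lam + j)) := by
        rcases le_or_gt (lam + j) L with hle | hgt
        · calc mass w s (lam + j) = mass w s (lam + j) *
                (2⁻¹ ^ (8 * D * (lam + j)) * 2 ^ (8 * D * (lam + j))) := by rw [h2, mul_one]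
            _ = (mass w s (lam + j) * 2 ^ (8 * D * (lam + j))) *
                2⁻¹ ^ (8 * D * (lam + j)) := by ring
            _ ≤ phi L (8 * D) (mass w s) * 2⁻¹ ^ (8 * D * (lam + j)) := by
                gcongr; exact le_phi _ hle
        · calc mass w s (lam + j) ≤ 2⁻¹ ^ t * 2⁻¹ ^ (8 * D * (lam + j)) := hdom _ hgt s
            _ ≤ mass w s 0 * 2⁻¹ ^ (8 * D * (lam + j)) := by gcongr; exact hs.2
            _ ≤ phi L (8 * D) (mass w s) * 2⁻¹ ^ (8 * D * (lam + j)) := by
                gcongr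
                have := le_phi (L := L) (b := 8 * D) (mass w s) (Nat.zero_le L)
                simpa using this
      calc mass w s (lam + j) ≤ phi L (8 * D) (mass w s) * 2⁻¹ ^ (8 * D * (lam + j)) := main
        _ = mass w s lam * (2 ^ (8 * D * lam) * 2⁻¹ ^ (8 * D * (lam + j))) := by
            rw [hphi]; ring
        _ = mass w s lam * 2⁻¹ ^ (8 * D * j) := by rw [h3]
    · intro k
      have hb := cell_ratio w (v k) hlam ((2 : ℝ≥0∞) ^ (2 * g)) (pow_ne_zero _ two_ne_zero)
        (ENNReal.pow_ne_top ENNReal.ofNat_ne_top) (Q d lam s₀)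
        (fun s hs => (Q_eq_of_mem hs).le)
      have h4 : (2⁻¹ : ℝ≥0∞) ^ (2 * g) = ((2 : ℝ≥0∞) ^ (2 * g))⁻¹ := ENNReal.inv_pow.symm
      rw [h4, ← div_eq_mul_inv]
      refine le_trans (measure_mono ?_) hb
      rintro s ⟨⟨_, hs⟩, hsQ⟩
      refine ⟨hsQ, ?_⟩
      have hs' : (2 : ℝ≥0∞) ^ (2 * g) * (mass (v k) s lam * mass w s l) <
          mass (v k) s l * mass w s lam := hs
      calc (2 : ℝ≥0∞) ^ (2 * g) * (w (Q d l s) * v k (Q d lam s))
          = 2 ^ (2 * g) * (mass (v k) s lam * mass w s l) := by simp only [mass]; ring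
        _ < mass (v k) s l * mass w s lam := hs'
        _ = w (Q d lam s) * v k (Q d l s) := by simp only [mass]; ring
  calc ∑ k, v k {s | mass w s lam * 2 ^ (8 * D * lam) = phi L (8 * D) (mass w s) ∧
        2⁻¹ ^ t ≤ mass w s 0 ∧
        2 ^ (2 * g) * (mass (v k) s lam * mass w s l) < mass (v k) s l * mass w s lam}
      = ∑ k, v k (G ∩ R k) := by
        refine Finset.sum_congr rfl fun k _ => ?_
        congr 1
        ext s
        simp only [hG, hR, Set.mem_ofPred_eq, Set.mem_inter_iff]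
        tauto
    _ = ∑ k, ∑' c, v k (G ∩ R k ∩ cell d lam ⁻¹' {c}) := by
        refine Finset.sum_congr rfl fun k _ => ?_
        rw [tsum_fiber (v k) (measurable_cell d lam) (hGm.inter (hRm k))]
    _ = ∑' c, ∑ k, v k (G ∩ R k ∩ cell d lam ⁻¹' {c}) :=
        (Summable.tsum_finsetSum fun _ _ => ENNReal.summable).symm
    _ ≤ ∑' c, w (Set.univ ∩ cell d lam ⁻¹' {c}) * e := by
        refine ENNReal.tsum_le_tsum fun c => ?_
        rcases Set.eq_empty_or_nonempty (cell d lam ⁻¹' {c}) with he | ⟨s₀, hs₀⟩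
        · simp [he]
        · have h2 : cell d lam ⁻¹' {c} = Q d lam s₀ := by
            ext x
            have : cell d lam s₀ = c := hs₀
            simp [Q, this]
          rw [h2, Set.univ_inter]
          exact hcell s₀
    _ = w Set.univ * e := by
        rw [ENNReal.tsum_mul_right, tsum_fiber w (measurable_cell d lam) MeasurableSet.univ]

theorem block_step {d D L : ℕ} (hd : 0 < d) (hD : 0 < D) (hdD : d ≤ 127 * D) {ι : Type*}
    [Fintype ι] (w : ι → Measure (E d)) (U : Measure (E d)) (hU : ∑ m, w m = U)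
    (hU1 : U Set.univ ≤ 1) (hUs : U {s | 1 < ‖s‖} = 0) (t : ℕ)
    (hdom : ∀ l, L < l → ∀ s, U (Q d l s) ≤ 2⁻¹ ^ t * 2⁻¹ ^ (8 * D * l))
    (F : ι → (Fin D → E d) → (Fin D → ℝ) → ι)
    (hF : ∀ m k, MeasurableSet {p : (Fin D → E d) × (Fin D → ℝ) | F m p.1 p.2 = k})
    (g z : ℕ) (V : ℝ≥0∞) :
    bad L D (V * (2 ^ z * max (2 ^ (2 * g)) (2 ^ z))) (stepM F w) ≤
      bad L D V w + ((L + 1) ^ 2 * (2 * 2⁻¹ ^ z) +
        (L + 1) ^ 2 * (2 * 2⁻¹ ^ D + Fintype.card ι * (2⁻¹ ^ g * 2 ^ (1626 * D)) ^ D) +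
        Fintype.card ι * (2 ^ (25 * d) * 2⁻¹ ^ t)) := by
  classical
  set e : ℝ≥0∞ := 2 * 2⁻¹ ^ D + Fintype.card ι * (2⁻¹ ^ g * 2 ^ (1626 * D)) ^ D with he
  have hwU : ∀ m, w m ≤ U := by
    intro m A
    rw [← hU, Measure.finsetSum_apply]
    exact Finset.single_le_sum (f := fun i => w i A) (fun _ _ => bot_le) (Finset.mem_univ m)
  have hfin : ∀ m, IsFiniteMeasure (w m) := fun m =>
    ⟨lt_of_le_of_lt ((hwU m Set.univ).trans hU1) ENNReal.one_lt_top⟩
  have hsU : ∑ k, stepM F w k = U := (sum_stepM w F hF).trans hU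
  have hstU : ∀ k, stepM F w k ≤ U := by
    intro k A
    rw [← hsU, Measure.finsetSum_apply]
    exact Finset.single_le_sum (f := fun i => stepM F w i A) (fun _ _ => bot_le)
      (Finset.mem_univ k)
  have hsfin : ∀ k, IsFiniteMeasure (stepM F w k) := fun k =>
    ⟨lt_of_le_of_lt ((hstU k Set.univ).trans hU1) ENNReal.one_lt_top⟩
  have hUtot : ∑ m, w m Set.univ ≤ 1 := by
    rw [← Measure.finsetSum_apply, hU]; exact hU1
  set E0 : ι → Set (E d) := fun m =>
    {s | V * phi L (8 * D) (mass (w m) s) < phi L (16 * D) (mass (w m) s)} with hE0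
  set E1 : ι → ι → Set (E d) := fun m k => {s | ∃ l' l, l' ≤ l ∧ l ≤ L ∧
        2 ^ z * (mass (two w F m k) s l * mass (w m) s l') <
          mass (two w F m k) s l' * mass (w m) s l} with hE1
  set E2 : ι → ι → Set (E d) := fun m k => {s | ∃ l' l, l' ≤ l ∧ l ≤ L ∧
        2 ^ z * (mass (two w F m k) s l * mass (stepM F w k) s l') <
          mass (two w F m k) s l' * mass (stepM F w k) s l} with hE2
  set E3 : ι → ι → ℕ × ℕ → Set (E d) := fun m k p =>
    {s | p.1 ≤ p.2 ∧ p.2 ≤ L ∧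
      mass (w m) s p.1 * 2 ^ (8 * D * p.1) = phi L (8 * D) (mass (w m) s) ∧
        2⁻¹ ^ t ≤ mass (w m) s 0 ∧
        2 ^ (2 * g) * (mass (two w F m k) s p.1 * mass (w m) s p.2) <
          mass (two w F m k) s p.2 * mass (w m) s p.1} with hE3
  set E4 : ι → Set (E d) := fun m => {s | mass (w m) s 0 < 2⁻¹ ^ t} with hE4
  set E5 : ι → ι → Set (E d) := fun m k => {s | mass (two w F m k) s 0 = 0} with hE5
  set P : Finset (ℕ × ℕ) := Finset.range (L + 1) ×ˢ Finset.range (L + 1) with hP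
  have hPcard : (P.card : ℝ≥0∞) = (L + 1) ^ 2 := by
    rw [hP, Finset.card_product, Finset.card_range]; push_cast; ring
  set B : ι → Set (E d) := fun k =>
    {s | V * (2 ^ z * max (2 ^ (2 * g)) (2 ^ z)) * phi L (8 * D) (mass (stepM F w k) s) <
      phi L (16 * D) (mass (stepM F w k) s)} with hB
  have hsub : ∀ m k, B k ⊆ E0 m ∪ (E1 m k ∪ (E2 m k ∪ ((⋃ p ∈ P, E3 m k p) ∪
      (E4 m ∪ E5 m k)))) := by
    intro m k s hs
    by_contra hcon
    simp only [Set.mem_union, not_or] at hcon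
    obtain ⟨h0, h1, h2, h3, h4, h5⟩ := hcon
    have key := potential_step (L := L) (a := 8 * D) (h := 16 * D) (by omega)
      (mass (w m) s) (mass (stepM F w k) s) (mass (two w F m k) s) (2 ^ z) (2 ^ (2 * g)) V
      (fun l => measure_ne_top _ _) (fun l => two_le w F m k _) h5
      (one_le_pow₀ one_le_two) ?_ ?_ ?_ ?_
    · exact absurd hs (not_lt.2 key)
    · intro l' l hl' hl
      by_contra hc
      exact h1 ⟨l', l, hl', hl, not_le.1 hc⟩
    · intro l' l hl' hl
      by_contra hc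
      exact h2 ⟨l', l, hl', hl, not_le.1 hc⟩
    · intro lam hlam harg l hl hlL
      by_contra hc
      refine h3 ?_
      simp only [Set.mem_iUnion]
      refine ⟨(lam, l), ?_, hl, hlL, harg, ?_, not_le.1 hc⟩
      · simp only [hP, Finset.mem_product, Finset.mem_range]; omega
      · exact not_lt.1 h4
    · exact not_lt.1 h0
  have hE0m : ∀ m, MeasurableSet (E0 m) := by
    intro m
    refine measurableSet_of_cell (L := L) fun s s' h hs => ?_
    simp only [hE0, Set.mem_ofPred_eq] at hs ⊢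
    rw [phi_mass_eq_of_cell (w m) h, phi_mass_eq_of_cell (w m) h]
    exact hs
  have hE4m : ∀ m, MeasurableSet (E4 m) := by
    intro m
    refine measurableSet_of_cell (L := L) fun s s' h hs => ?_
    simp only [hE4, Set.mem_ofPred_eq] at hs ⊢
    rw [mass_eq_of_cell (w m) h (Nat.zero_le L)]
    exact hs
  have hZ0 : (2 : ℝ≥0∞) ^ z ≠ 0 := pow_ne_zero _ two_ne_zero
  have hZt : (2 : ℝ≥0∞) ^ z ≠ ∞ := ENNReal.pow_ne_top ENNReal.ofNat_ne_top
  have htwo : ∀ m k, IsFiniteMeasure (two w F m k) := fun m k => two_finite w F m k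
  have b1 : ∀ m k, two w F m k (B k) ≤ two w F m k (E0 m) + ((L + 1) ^ 2 *
      (two w F m k Set.univ / 2 ^ z) + ((L + 1) ^ 2 * (two w F m k Set.univ / 2 ^ z) +
      (∑ p ∈ P, two w F m k (E3 m k p) + (two w F m k (E4 m) + 0)))) := by
    intro m k
    refine (measure_mono (hsub m k)).trans ?_
    refine (measure_union_le _ _).trans (add_le_add le_rfl ?_)
    refine (measure_union_le _ _).trans (add_le_add ?_ ?_)
    · exact drawdown_mass (two w F m k) (w m) _ hZ0 hZt
    refine (measure_union_le _ _).trans (add_le_add ?_ ?_)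
    · exact drawdown_mass (two w F m k) (stepM F w k) _ hZ0 hZt
    refine (measure_union_le _ _).trans (add_le_add ?_ ?_)
    · exact measure_biUnion_finset_le _ _
    refine (measure_union_le _ _).trans (add_le_add le_rfl ?_)
    exact (null_cell _).le
  have s0 : ∑ m, ∑ k, two w F m k (E0 m) = bad L D V w := by
    unfold bad
    exact Finset.sum_congr rfl fun m _ => sum_two w F hF m (hE0m m)
  have s1 : ∑ m, ∑ k, ((L + 1 : ℝ≥0∞) ^ 2 * (two w F m k Set.univ / 2 ^ z)) ≤
      (L + 1 : ℝ≥0∞) ^ 2 * (2⁻¹ : ℝ≥0∞) ^ z := by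
    have : ∑ m, ∑ k, ((L + 1 : ℝ≥0∞) ^ 2 * (two w F m k Set.univ / 2 ^ z)) =
        (L + 1) ^ 2 * ((∑ m, w m Set.univ) * (2 ^ z)⁻¹) := by
      simp only [div_eq_mul_inv]
      rw [Finset.sum_mul, Finset.mul_sum]
      refine Finset.sum_congr rfl fun m _ => ?_
      rw [← Finset.mul_sum, ← Finset.sum_mul, sum_two w F hF m MeasurableSet.univ]
    rw [this, ENNReal.inv_pow]
    gcongr
    calc (∑ m, w m Set.univ) * 2⁻¹ ^ z ≤ 1 * 2⁻¹ ^ z := by gcongr
      _ = _ := one_mul _
  have s3 : ∑ m, ∑ k, ∑ p ∈ P, two w F m k (E3 m k p) ≤ (L + 1) ^ 2 * e := by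
    calc ∑ m, ∑ k, ∑ p ∈ P, two w F m k (E3 m k p)
        = ∑ m, ∑ p ∈ P, ∑ k, two w F m k (E3 m k p) :=
          Finset.sum_congr rfl fun m _ => Finset.sum_comm
      _ = ∑ p ∈ P, ∑ m, ∑ k, two w F m k (E3 m k p) := Finset.sum_comm
      _ ≤ ∑ p ∈ P, ∑ m, w m Set.univ * e := by
          refine Finset.sum_le_sum fun p _ => Finset.sum_le_sum fun m _ => ?_
          by_cases hp : p.1 ≤ p.2 ∧ p.2 ≤ L
          · have := local_mass (L := L) hd hD hdD (w m) (F m) (hF m) g t
              (fun l hl s => (hwU m _).trans (hdom l hl s)) p.1 p.2 hp.1 hp.2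
            refine le_trans (Finset.sum_le_sum fun k _ => measure_mono ?_) this
            rintro s ⟨_, _, hs⟩
            exact hs
          · have h0 : ∀ k, E3 m k p = ∅ := by
              intro k
              ext s
              simp only [hE3, Set.mem_ofPred_eq, Set.mem_empty_iff_false, iff_false]
              rintro ⟨ha, hb, _⟩
              exact hp ⟨ha, hb⟩
            simp [h0]
      _ ≤ ∑ _p ∈ P, 1 * e := by
          refine Finset.sum_le_sum fun p _ => ?_
          rw [← Finset.sum_mul]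
          gcongr
      _ = (L + 1) ^ 2 * e := by
          rw [Finset.sum_const, nsmul_eq_mul, hPcard, one_mul]
  have s4 : ∑ m, ∑ k, two w F m k (E4 m) ≤ Fintype.card ι * (2 ^ (25 * d) * 2⁻¹ ^ t) := by
    calc ∑ m, ∑ k, two w F m k (E4 m) = ∑ m, w m (E4 m) :=
          Finset.sum_congr rfl fun m _ => sum_two w F hF m (hE4m m)
      _ ≤ ∑ _m : ι, 2 ^ (25 * d) * 2⁻¹ ^ t := by
          refine Finset.sum_le_sum fun m _ => small_cell hd (w m) ?_ _
          exact le_antisymm ((hwU m _).trans hUs.le) bot_le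
      _ = Fintype.card ι * (2 ^ (25 * d) * 2⁻¹ ^ t) := by
          rw [Finset.sum_const, nsmul_eq_mul, Finset.card_univ]
  calc bad L D (V * (2 ^ z * max (2 ^ (2 * g)) (2 ^ z))) (stepM F w)
      = ∑ k, ∑ m, two w F m k (B k) := by
        unfold bad
        refine Finset.sum_congr rfl fun k _ => ?_
        rw [stepM_eq, Measure.finsetSum_apply]
        rfl
    _ = ∑ m, ∑ k, two w F m k (B k) := Finset.sum_comm
    _ ≤ ∑ m, ∑ k, (two w F m k (E0 m) + ((L + 1) ^ 2 *
      (two w F m k Set.univ / 2 ^ z) + ((L + 1) ^ 2 * (two w F m k Set.univ / 2 ^ z) +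
      (∑ p ∈ P, two w F m k (E3 m k p) + (two w F m k (E4 m) + 0))))) :=
        Finset.sum_le_sum fun m _ => Finset.sum_le_sum fun k _ => b1 m k
    _ = ∑ m, ∑ k, two w F m k (E0 m) + (∑ m, ∑ k, ((L + 1 : ℝ≥0∞) ^ 2 *
      (two w F m k Set.univ / 2 ^ z)) + (∑ m, ∑ k, ((L + 1 : ℝ≥0∞) ^ 2 *
      (two w F m k Set.univ / 2 ^ z)) + (∑ m, ∑ k, ∑ p ∈ P, two w F m k (E3 m k p) +
        (∑ m, ∑ k, two w F m k (E4 m))))) := by
        simp only [Finset.sum_add_distrib, add_zero]
    _ ≤ bad L D V w + ((L + 1) ^ 2 * 2⁻¹ ^ z + ((L + 1) ^ 2 * 2⁻¹ ^ z +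
        ((L + 1) ^ 2 * e + Fintype.card ι * (2 ^ (25 * d) * 2⁻¹ ^ t)))) := by
        rw [s0]
        gcongr
    _ = _ := by ring

end Vale.Agent.P309
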