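import Vale.Agent.P309.Kaczmarz

open MeasureTheory ProbabilityTheory
open scoped RealInnerProductSpace ENNReal

namespace Vale.Agent.P309

/-! ### rounding -/

/-- clip a real number to `[-1, 1]` -/
noncomputable def clip (c : ℝ) : ℝ := max (-1) (min 1 c)

theorem clip_mem (c : ℝ) : -1 ≤ clip c ∧ clip c ≤ 1 :=
  ⟨le_max_left _ _, max_le (by norm_num) (min_le_left _ _)⟩

theorem abs_clip_sub_le {c s : ℝ} (h1 : -1 ≤ s) (h2 : s ≤ 1) : |clip c - s| ≤ |c - s| := by
  unfold clip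
  rcases le_total c 1 with h | h
  · rw [min_eq_right h]
    rcases le_total (-1) c with h' | h'
    · rw [max_eq_right h']
    · rw [max_eq_left h', abs_of_nonpos (by linarith), abs_of_nonpos (by linarith)]
      linarith
  · rw [min_eq_left h, max_eq_right (by norm_num), abs_of_nonneg (by linarith),
      abs_of_nonneg (by linarith)]
    linarith

/-- the rounding index, in `{0, …, 2N}` -/
noncomputable def rix (N : ℕ) (c : ℝ) : Fin (2 * N + 1) :=
  ⟨⌊(N : ℝ) * (clip c + 1)⌋₊, by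
    have h := clip_mem c
    have h1 : (N : ℝ) * (clip c + 1) ≤ ((2 * N : ℕ) : ℝ) := by
      push_cast
      have hN : (0 : ℝ) ≤ N := Nat.cast_nonneg _
      nlinarith
    exact Nat.lt_succ_of_le (Nat.floor_le_of_le h1)⟩

/-- value of an index -/
noncomputable def rval (N : ℕ) (i : Fin (2 * N + 1)) : ℝ := (i : ℝ) / N - 1

theorem abs_rval_rix_le {N : ℕ} (hN : 1 ≤ N) (c : ℝ) : |rval N (rix N c) - clip c| ≤ 1 / N := by
  have hN0 : (0 : ℝ) < N := by exact_mod_cast hN
  have h0 : 0 ≤ (N : ℝ) * (clip c + 1) := by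
    have := (clip_mem c).1
    have : 0 ≤ clip c + 1 := by linarith
    positivity
  have h1 := Nat.floor_le h0
  have h2 := Nat.lt_floor_add_one ((N : ℝ) * (clip c + 1))
  have e : rval N (rix N c) - clip c =
      ((⌊(N : ℝ) * (clip c + 1)⌋₊ : ℝ) - (N : ℝ) * (clip c + 1)) / N := by
    unfold rval rix
    field_simp
    ring
  rw [e, abs_div, abs_of_pos hN0]
  gcongr
  rw [abs_le]
  constructor <;> linarith

theorem measurable_rix (N : ℕ) : Measurable (rix N) := by
  have h : Measurable fun c : ℝ => ⌊(N : ℝ) * (clip c + 1)⌋₊ := by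
    apply Nat.measurable_floor.comp
    unfold clip
    fun_prop
  refine measurable_to_countable' fun i => ?_
  have : rix N ⁻¹' {i} = (fun c : ℝ => ⌊(N : ℝ) * (clip c + 1)⌋₊) ⁻¹' {(i : ℕ)} := by
    ext c
    simp [rix, Fin.ext_iff]
  rw [this]
  exact h (measurableSet_singleton _)

/-- grid position of an index vector -/
noncomputable def gpos {d : ℕ} (N : ℕ) (q : Fin d → Fin (2 * N + 1)) : E d :=
  WithLp.toLp 2 fun i => rval N (q i)

/-- nearest index vector -/
noncomputable def grd {d : ℕ} (N : ℕ) (z : E d) : Fin d → Fin (2 * N + 1) := fun i => rix N (z i)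

theorem norm_gpos_grd_le {d : ℕ} {N : ℕ} (hN : 1 ≤ N) (z s : E d) (hs : ‖s‖ ≤ 1) :
    ‖gpos N (grd N z) - s‖ ≤ ‖z - s‖ + √d / N := by
  have hsi : ∀ i, -1 ≤ s i ∧ s i ≤ 1 := fun i => by
    have := PiLp.norm_apply_le s i
    rw [Real.norm_eq_abs] at this
    exact abs_le.1 (this.trans hs)
  set w : E d := WithLp.toLp 2 fun i => clip (z i) with hw
  have h1 : ‖gpos N (grd N z) - w‖ ≤ √d / N := by
    rw [EuclideanSpace.norm_eq]
    have hN0 : (0 : ℝ) < N := by exact_mod_cast hN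
    have : ∑ i, ‖(gpos N (grd N z) - w) i‖ ^ 2 ≤ d * (1 / N) ^ 2 := by
      calc ∑ i, ‖(gpos N (grd N z) - w) i‖ ^ 2 ≤ ∑ i : Fin d, (1 / (N : ℝ)) ^ 2 := by
            refine Finset.sum_le_sum fun i _ => ?_
            have := abs_rval_rix_le hN (z i)
            simp only [gpos, grd, hw, PiLp.sub_apply, Real.norm_eq_abs]
            gcongr
        _ = d * (1 / N) ^ 2 := by simp
    calc √(∑ i, ‖(gpos N (grd N z) - w) i‖ ^ 2) ≤ √(d * (1 / N) ^ 2) := Real.sqrt_le_sqrt this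
      _ = √d / N := by
        rw [Real.sqrt_mul (by positivity), Real.sqrt_sq (by positivity)]
        ring
  have h2 : ‖w - s‖ ≤ ‖z - s‖ := by
    rw [EuclideanSpace.norm_eq, EuclideanSpace.norm_eq]
    apply Real.sqrt_le_sqrt
    refine Finset.sum_le_sum fun i _ => ?_
    have := abs_clip_sub_le (c := z i) (hsi i).1 (hsi i).2
    simp only [hw, PiLp.sub_apply, Real.norm_eq_abs]
    gcongr
  calc ‖gpos N (grd N z) - s‖ = ‖(w - s) + (gpos N (grd N z) - w)‖ := by congr 1; abel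
    _ ≤ ‖w - s‖ + ‖gpos N (grd N z) - w‖ := norm_add_le _ _
    _ ≤ ‖z - s‖ + √d / N := add_le_add h2 h1

/-! ### the learner -/

/-- a unit vector in the direction of `z` -/
noncomputable def unitOf {d : ℕ} (hd : 1 ≤ d) (z : E d) : E d :=
  if z = 0 then EuclideanSpace.single (⟨0, hd⟩ : Fin d) (1 : ℝ) else (‖z‖)⁻¹ • z

theorem norm_unitOf {d : ℕ} (hd : 1 ≤ d) (z : E d) : ‖unitOf hd z‖ = 1 := by
  unfold unitOf
  split_ifs with h
  · simp
  · rw [norm_smul, norm_inv, norm_norm, inv_mul_cancel₀ (norm_ne_zero_iff.2 h)]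

theorem norm_unitOf_sub_le {d : ℕ} (hd : 1 ≤ d) (z s : E d) (hs : ‖s‖ = 1) :
    ‖unitOf hd z - s‖ ≤ 2 * ‖z - s‖ := by
  unfold unitOf
  split_ifs with h
  · subst h
    have h1 : ‖(0 : E d) - s‖ = 1 := by simp [hs]
    rw [h1]
    calc _ ≤ ‖EuclideanSpace.single (⟨0, hd⟩ : Fin d) (1 : ℝ)‖ + ‖s‖ := norm_sub_le _ _
      _ = 2 * 1 := by simp [hs]; norm_num
  · have hz : 0 < ‖z‖ := norm_pos_iff.2 h
    have h1 : ‖(‖z‖)⁻¹ • z - z‖ = |1 - ‖z‖| := by
      have e : (‖z‖)⁻¹ • z - z = ((‖z‖)⁻¹ - 1) • z := by rw [sub_smul, one_smul]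
      rw [e, norm_smul, Real.norm_eq_abs]
      rw [← abs_of_pos hz, ← abs_mul, abs_of_pos hz]
      congr 1
      field_simp
    have h2 : |1 - ‖z‖| ≤ ‖z - s‖ := by
      rw [← hs, norm_sub_rev z s]
      exact abs_norm_sub_norm_le s z
    calc ‖(‖z‖)⁻¹ • z - s‖ = ‖((‖z‖)⁻¹ • z - z) + (z - s)‖ := by congr 1; abel
      _ ≤ ‖(‖z‖)⁻¹ • z - z‖ + ‖z - s‖ := norm_add_le _ _
      _ ≤ ‖z - s‖ + ‖z - s‖ := by rw [h1]; gcongr
      _ = 2 * ‖z - s‖ := by ring

theorem measurable_grd {d : ℕ} (N : ℕ) : Measurable (grd N : E d → _) := by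
  refine measurable_pi_lambda _ fun i => ?_
  exact (measurable_rix N).comp (by fun_prop)

theorem measurable_kacz {d : ℕ} (z : E d) : Measurable fun p : E d × ℝ => kacz z p.1 p.2 := by
  unfold kacz
  fun_prop

attribute [local irreducible] grd gpos kacz

/-- The quantized Kaczmarz learner with grid `{-1, -1 + 1/N, …, 1}^d` and `K` states. -/
noncomputable def kLearner {d : ℕ} (hd : 1 ≤ d) (N K : ℕ)
    (e : (Fin d → Fin (2 * N + 1)) ↪ Fin K) : Learner d K where
  Ω := Unit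
  mΩ := inferInstance
  P := Measure.dirac ()
  isProb := inferInstance
  init := fun _ => e (grd N 0)
  next := fun _ _ q x y => e (grd N (kacz (gpos N (Function.invFun e q)) x y))
  stop := fun _ _ _ _ _ => false
  out := fun _ _ q => unitOf hd (gpos N (Function.invFun e q))
  norm_out := fun _ _ _ => norm_unitOf hd _
  meas_init := measurable_const
  meas_next := fun t q => by
    exact (measurable_of_countable e).comp
      ((measurable_grd N).comp ((measurable_kacz _).comp measurable_snd))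
  meas_stop := fun _ _ => measurable_const
  meas_out := fun _ _ => measurable_const

/-- the index vector after `t` samples -/
noncomputable def kidx {d : ℕ} (N : ℕ) (s : E d) :
    (t : ℕ) → (Fin t → E d) → (Fin d → Fin (2 * N + 1))
  | 0, _ => grd N 0
  | t + 1, x => grd N (kacz (gpos N (kidx N s t (Fin.init x))) (x (Fin.last t))
      ⟪x (Fin.last t), s⟫)

theorem run_kLearner {d : ℕ} (hd : 1 ≤ d) (N K : ℕ)
    (e : (Fin d → Fin (2 * N + 1)) ↪ Fin K) (ω : Unit) (s : E d) (t : ℕ) (x : Fin t → E d) :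
    (kLearner hd N K e).run ω s t x = (t, e (kidx N s t x), false) := by
  induction t with
  | zero => rfl
  | succ t ih =>
    have e2 : (kLearner hd N K e).run ω s (t + 1) x =
        (if ((kLearner hd N K e).run ω s t (Fin.init x)).2.2 then
          (kLearner hd N K e).run ω s t (Fin.init x)
        else (t + 1, (kLearner hd N K e).next t ω
            ((kLearner hd N K e).run ω s t (Fin.init x)).2.1 (x (Fin.last t))
          ⟪x (Fin.last t), s⟫, (kLearner hd N K e).stop t ω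
            ((kLearner hd N K e).run ω s t (Fin.init x)).2.1 (x (Fin.last t))
          ⟪x (Fin.last t), s⟫)) := rfl
    rw [e2, ih]
    simp only [kLearner, kidx, Bool.false_eq_true, if_false]
    rw [Function.leftInverse_invFun e.injective]

theorem output_kLearner {d : ℕ} (hd : 1 ≤ d) (N K : ℕ)
    (e : (Fin d → Fin (2 * N + 1)) ↪ Fin K) (ω : Unit) (s : E d) (t : ℕ) (x : Fin t → E d) :
    (kLearner hd N K e).output t ω s x = unitOf hd (gpos N (kidx N s t x)) := by
  unfold Learner.output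
  rw [run_kLearner]
  simp only [kLearner]
  rw [Function.leftInverse_invFun e.injective]

theorem measurable_gpos {d : ℕ} (N : ℕ) : Measurable (gpos N : _ → E d) :=
  measurable_of_countable _

theorem measurable_kstep {d : ℕ} (N : ℕ) (s z : E d) :
    Measurable fun y : E d => grd N (kacz z y ⟪y, s⟫) := by
  have h1 : Measurable fun y : E d => ((y, ⟪y, s⟫) : E d × ℝ) :=
    measurable_id.prodMk (measurable_id.inner measurable_const)
  exact (measurable_grd N).comp ((measurable_kacz z).comp h1)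

theorem measurable_kstep2 {d : ℕ} (N : ℕ) (s : E d) :
    Measurable fun p : (Fin d → Fin (2 * N + 1)) × E d =>
        grd N (kacz (gpos N p.1) p.2 ⟪p.2, s⟫) := by
  refine measurable_from_prod_countable_right fun q => ?_
  exact measurable_kstep N s (gpos N q)

theorem measurable_kidx {d : ℕ} (N : ℕ) (s : E d) (t : ℕ) :
    Measurable (kidx N s t : (Fin t → E d) → _) := by
  induction t with
  | zero => exact measurable_const
  | succ t ih =>
    have h1 : Measurable fun x : Fin (t + 1) → E d =>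
        (kidx N s t (Fin.init x), x (Fin.last t)) :=
      (ih.comp (measurable_init t)).prodMk (measurable_pi_apply _)
    exact (measurable_kstep2 N s).comp h1

theorem lintegral_step_le {d : ℕ} (hd : 1 ≤ d) {N : ℕ} (hN : 1 ≤ N) (z s : E d) (hs : ‖s‖ ≤ 1) :
    ∫⁻ x, ENNReal.ofReal (‖gpos N (grd N (kacz z x ⟪x, s⟫)) - s‖ ^ 2) ∂(stdGaussian (E d)) ≤
      ENNReal.ofReal (1 - 1 / (2 * d)) * ENNReal.ofReal (‖z - s‖ ^ 2) +
        ENNReal.ofReal ((1 + 2 * d) * (√d / N) ^ 2) := by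
  have hd0 : (0 : ℝ) < d := by exact_mod_cast hd
  set δ : ℝ := √d / N with hδ
  have hδ0 : 0 ≤ δ := by positivity
  have hpt : ∀ x : E d, ENNReal.ofReal (‖gpos N (grd N (kacz z x ⟪x, s⟫)) - s‖ ^ 2) ≤
      ENNReal.ofReal (1 + 1 / (2 * d)) * ENNReal.ofReal (‖kacz z x ⟪x, s⟫ - s‖ ^ 2) +
        ENNReal.ofReal ((1 + 2 * d) * δ ^ 2) := by
    intro x
    have h1 := norm_gpos_grd_le hN (kacz z x ⟪x, s⟫) s hs
    set a := ‖kacz z x ⟪x, s⟫ - s‖
    have ha : 0 ≤ a := norm_nonneg _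
    rw [← ENNReal.ofReal_mul (by positivity), ← ENNReal.ofReal_add (by positivity) (by positivity)]
    apply ENNReal.ofReal_le_ofReal
    calc ‖gpos N (grd N (kacz z x ⟪x, s⟫)) - s‖ ^ 2 ≤ (a + δ) ^ 2 := by gcongr
      _ ≤ (1 + 1 / (2 * d)) * a ^ 2 + (1 + 2 * d) * δ ^ 2 := by
        have h3 : 0 ≤ (a - 2 * d * δ) ^ 2 / (2 * d) := by positivity
        have h4 : (a - 2 * d * δ) ^ 2 / (2 * d) =
            1 / (2 * d) * a ^ 2 - 2 * a * δ + 2 * d * δ ^ 2 := by
          field_simp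
          ring
        nlinarith
  calc _ ≤ ∫⁻ x, (ENNReal.ofReal (1 + 1 / (2 * d)) *
          ENNReal.ofReal (‖kacz z x ⟪x, s⟫ - s‖ ^ 2) +
        ENNReal.ofReal ((1 + 2 * d) * δ ^ 2)) ∂(stdGaussian (E d)) := lintegral_mono hpt
    _ = ENNReal.ofReal (1 + 1 / (2 * d)) * ENNReal.ofReal ((1 - 1 / d) * ‖z - s‖ ^ 2) +
        ENNReal.ofReal ((1 + 2 * d) * δ ^ 2) := by
      rw [lintegral_add_right _ measurable_const, lintegral_const_mul' _ _ ENNReal.ofReal_ne_top,
        lintegral_kacz hd]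
      simp
    _ ≤ _ := by
      refine add_le_add ?_ le_rfl
      rw [← ENNReal.ofReal_mul (by positivity)]
      have h1d : (0 : ℝ) ≤ 1 - 1 / (2 * d) := by
        have : 1 / (2 * (d : ℝ)) ≤ 1 := by
          rw [div_le_one (by positivity)]
          have : (1 : ℝ) ≤ d := by exact_mod_cast hd
          linarith
        linarith
      rw [← ENNReal.ofReal_mul h1d]
      apply ENNReal.ofReal_le_ofReal
      rw [← mul_assoc]
      apply mul_le_mul_of_nonneg_right _ (by positivity)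
      have : (1 + 1 / (2 * (d : ℝ))) * (1 - 1 / d) = 1 - 1 / (2 * d) - 1 / (2 * d ^ 2) := by
        field_simp
        ring
      rw [this]
      have : 0 ≤ 1 / (2 * (d : ℝ) ^ 2) := by positivity
      linarith

/-- expected squared error after `t` samples -/
theorem lintegral_kidx_le {d : ℕ} (hd : 1 ≤ d) {N : ℕ} (hN : 1 ≤ N) (s : E d) (hs : ‖s‖ = 1)
    (t : ℕ) :
    ∫⁻ x : Fin t → E d, ENNReal.ofReal (‖gpos N (kidx N s t x) - s‖ ^ 2)
        ∂(Measure.pi fun _ => stdGaussian (E d)) ≤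
      ENNReal.ofReal ((1 - 1 / (2 * d)) ^ t * (1 + √d / N) ^ 2 +
        2 * d * ((1 + 2 * d) * (√d / N) ^ 2)) := by
  have hd0 : (0 : ℝ) < d := by exact_mod_cast hd
  have h1d : (0 : ℝ) ≤ 1 - 1 / (2 * d) := by
    have : 1 / (2 * (d : ℝ)) ≤ 1 := by
      rw [div_le_one (by positivity)]
      have : (1 : ℝ) ≤ d := by exact_mod_cast hd
      linarith
    linarith
  induction t with
  | zero =>
    have h0 : ‖gpos N (grd N (0 : E d)) - s‖ ≤ 1 + √d / N := by
      have := norm_gpos_grd_le hN (0 : E d) s hs.le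
      simpa [hs] using this
    calc _ = ∫⁻ x : Fin 0 → E d, ENNReal.ofReal (‖gpos N (grd N (0 : E d)) - s‖ ^ 2)
        ∂(Measure.pi fun _ => stdGaussian (E d)) := rfl
      _ = ENNReal.ofReal (‖gpos N (grd N (0 : E d)) - s‖ ^ 2) := by simp
      _ ≤ _ := by
        apply ENNReal.ofReal_le_ofReal
        have : ‖gpos N (grd N (0 : E d)) - s‖ ^ 2 ≤ (1 + √d / N) ^ 2 := by gcongr
        have h3 : 0 ≤ 2 * (d : ℝ) * ((1 + 2 * d) * (√d / N) ^ 2) := by positivity
        simp only [pow_zero, one_mul]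
        linarith
  | succ t ih =>
    have hmp := measurePreserving_piFinSuccAbove (fun _ : Fin (t + 1) => stdGaussian (E d))
      (Fin.last t)
    have hf : Measurable fun p : E d × (Fin t → E d) =>
        ENNReal.ofReal (‖gpos N (grd N (kacz (gpos N (kidx N s t p.2)) p.1 ⟪p.1, s⟫)) - s‖ ^ 2) := by
      have h4 : Measurable fun p : E d × (Fin t → E d) => (kidx N s t p.2, p.1) :=
        ((measurable_kidx N s t).comp measurable_snd).prodMk measurable_fst
      have h3 : Measurable fun p : E d × (Fin t → E d) =>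
          grd N (kacz (gpos N (kidx N s t p.2)) p.1 ⟪p.1, s⟫) := (measurable_kstep2 N s).comp h4
      exact ((((measurable_gpos N).comp h3).sub measurable_const).norm.pow_const 2).ennreal_ofReal
    have hrw : ∫⁻ x : Fin (t + 1) → E d, ENNReal.ofReal (‖gpos N (kidx N s (t + 1) x) - s‖ ^ 2)
        ∂(Measure.pi fun _ => stdGaussian (E d)) =
        ∫⁻ x : Fin t → E d, ∫⁻ y, ENNReal.ofReal
          (‖gpos N (grd N (kacz (gpos N (kidx N s t x)) y ⟪y, s⟫)) - s‖ ^ 2)
          ∂(stdGaussian (E d)) ∂(Measure.pi fun _ => stdGaussian (E d)) := by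
      rw [← lintegral_prod_symm' _ hf, ← hmp.lintegral_comp hf]
      refine lintegral_congr fun x => ?_
      have e2 : (MeasurableEquiv.piFinSuccAbove (fun _ : Fin (t + 1) => E d) (Fin.last t) x).2 =
          Fin.init x := by
        funext i
        change x ((Fin.last t).succAbove i) = x i.castSucc
        rw [Fin.succAbove_last]
      have e1 : (MeasurableEquiv.piFinSuccAbove (fun _ : Fin (t + 1) => E d) (Fin.last t) x).1 =
          x (Fin.last t) := rfl
      rw [e1, e2]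
      rfl
    rw [hrw]
    calc _ ≤ ∫⁻ x : Fin t → E d, (ENNReal.ofReal (1 - 1 / (2 * d)) *
            ENNReal.ofReal (‖gpos N (kidx N s t x) - s‖ ^ 2) +
            ENNReal.ofReal ((1 + 2 * d) * (√d / N) ^ 2)) ∂(Measure.pi fun _ => stdGaussian (E d)) :=
          lintegral_mono fun x => lintegral_step_le hd hN _ s hs.le
      _ = ENNReal.ofReal (1 - 1 / (2 * d)) * ∫⁻ x : Fin t → E d,
            ENNReal.ofReal (‖gpos N (kidx N s t x) - s‖ ^ 2)
              ∂(Measure.pi fun _ => stdGaussian (E d)) +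
            ENNReal.ofReal ((1 + 2 * d) * (√d / N) ^ 2) := by
          rw [lintegral_add_right _ measurable_const,
            lintegral_const_mul' _ _ ENNReal.ofReal_ne_top]
          simp
      _ ≤ ENNReal.ofReal (1 - 1 / (2 * d)) * ENNReal.ofReal ((1 - 1 / (2 * d)) ^ t *
            (1 + √d / N) ^ 2 + 2 * d * ((1 + 2 * d) * (√d / N) ^ 2)) +
            ENNReal.ofReal ((1 + 2 * d) * (√d / N) ^ 2) := by gcongr
      _ = _ := by
          rw [← ENNReal.ofReal_mul h1d, ← ENNReal.ofReal_add (by positivity) (by positivity)]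
          congr 1
          rw [pow_succ]
          have h5 : 1 / (2 * (d : ℝ)) * (2 * d) = 1 := by field_simp
          have h6 : ∀ p q u : ℝ, (1 - p) * (u * q + 2 * d * ((1 + 2 * d) * (√d / N) ^ 2)) +
              (1 + 2 * d) * (√d / N) ^ 2 = u * (1 - p) * q + 2 * d * ((1 + 2 * d) *
              (√d / N) ^ 2) + (1 - p * (2 * d)) * ((1 + 2 * d) * (√d / N) ^ 2) := by
            intro p q u
            ring
          rw [h6, h5]
          ring

/-! ### final estimate -/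

theorem arccos_le_of_norm_sub_le {d : ℕ} {u s : E d} (hu : ‖u‖ = 1) (hs : ‖s‖ = 1) {ε : ℝ}
    (hε : 0 < ε) (hε1 : ε ≤ 1) (h : ‖u - s‖ ≤ ε / 2) : Real.arccos ⟪u, s⟫ ≤ ε := by
  have h1 : ‖u - s‖ ^ 2 = 2 - 2 * ⟪u, s⟫ := by
    rw [norm_sub_sq_real, hu, hs]
    ring
  have h2 : ‖u - s‖ ^ 2 ≤ (ε / 2) ^ 2 := by gcongr
  have h3 : Real.cos ε ≤ ⟪u, s⟫ := by
    have h4 := Real.cos_bound (x := ε) (by rw [abs_of_pos hε]; exact hε1)
    rw [abs_of_pos hε] at h4
    have h5 := (abs_le.1 h4).2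
    have h6 : ε ^ 4 ≤ ε ^ 2 := pow_le_pow_of_le_one hε.le hε1 (by norm_num)
    nlinarith
  have hpi : ε ≤ Real.pi := by linarith [Real.pi_gt_three]
  calc Real.arccos ⟪u, s⟫ ≤ Real.arccos (Real.cos ε) := Real.antitone_arccos h3
    _ = ε := Real.arccos_cos hε.le hpi

theorem kLearner_succeeds {d : ℕ} (hd : 2 ≤ d) (N K : ℕ) (hN : 1 ≤ N)
    (e : (Fin d → Fin (2 * N + 1)) ↪ Fin K) {ε : ℝ} (hε : 0 < ε) (hε1 : ε ≤ 1) (T : ℕ)
    (hT : (1 - 1 / (2 * d)) ^ T * (1 + √d / N) ^ 2 +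
        2 * d * ((1 + 2 * d) * (√d / N) ^ 2) ≤ ε ^ 2 / 48) :
    (kLearner (by omega : 1 ≤ d) N K e).Succeeds T ε := by
  have hd1 : 1 ≤ d := by omega
  set L := kLearner (by omega : 1 ≤ d) N K e with hL
  haveI := unifSphere_prob d hd
  unfold Learner.Succeeds
  set μ := (L.P.prod ((unifSphere d).prod (Measure.pi fun _ : Fin T => stdGaussian (E d)))) with hμ
  set A : Set (L.Ω × E d × (Fin T → E d)) :=
    {z | Real.arccos ⟪L.output T z.1 z.2.1 z.2.2, z.2.1⟫ ≤ ε} with hA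
  have hAm : MeasurableSet A := by
    have h1 : Measurable fun z : L.Ω × E d × (Fin T → E d) =>
        Real.arccos ⟪L.output T z.1 z.2.1 z.2.2, z.2.1⟫ :=
      Real.continuous_arccos.measurable.comp
        ((measurable_output L T).inner (measurable_fst.comp measurable_snd))
    exact h1 measurableSet_Iic
  have hcompl : μ Aᶜ ≤ 1 / 3 := by
    rw [hμ, Measure.prod_apply hAm.compl]
    have hω : ∀ ω : L.Ω, ((unifSphere d).prod (Measure.pi fun _ : Fin T => stdGaussian (E d)))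
        (Prod.mk ω ⁻¹' Aᶜ) ≤ 1 / 3 := by
      intro ω
      rw [Measure.prod_apply (measurable_prodMk_left hAm.compl)]
      have hs : ∀ s : E d, ‖s‖ = 1 → (Measure.pi fun _ : Fin T => stdGaussian (E d))
          (Prod.mk s ⁻¹' (Prod.mk ω ⁻¹' Aᶜ)) ≤ 1 / 3 := by
        intro s hs
        have hf : Measurable fun x : Fin T → E d =>
            ENNReal.ofReal (‖gpos N (kidx N s T x) - s‖ ^ 2) :=
          ((((measurable_gpos N).comp (measurable_kidx N s T)).sub
            measurable_const).norm.pow_const 2).ennreal_ofReal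
        have hsub : (Prod.mk s ⁻¹' (Prod.mk ω ⁻¹' Aᶜ)) ⊆
            {x : Fin T → E d | ENNReal.ofReal ((ε / 4) ^ 2) ≤
              ENNReal.ofReal (‖gpos N (kidx N s T x) - s‖ ^ 2)} := by
          intro x hx
          by_contra hcon
          apply hx
          have h1 : ‖gpos N (kidx N s T x) - s‖ ^ 2 < (ε / 4) ^ 2 := by
            simp only [Set.mem_ofPred_eq, not_le] at hcon
            exact (ENNReal.ofReal_lt_ofReal_iff (by positivity)).1 hcon
          have h2 : ‖gpos N (kidx N s T x) - s‖ < ε / 4 :=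
            lt_of_pow_lt_pow_left₀ 2 (by positivity) h1
          have h3 : L.output T ω s x = unitOf hd1 (gpos N (kidx N s T x)) :=
            output_kLearner hd1 N K e ω s T x
          show Real.arccos ⟪L.output T ω s x, s⟫ ≤ ε
          rw [h3]
          refine arccos_le_of_norm_sub_le (norm_unitOf hd1 _) hs hε hε1 ?_
          have := norm_unitOf_sub_le hd1 (gpos N (kidx N s T x)) s hs
          linarith
        have hMk := mul_meas_ge_le_lintegral (μ := Measure.pi fun _ : Fin T => stdGaussian (E d))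
          hf (ENNReal.ofReal ((ε / 4) ^ 2))
        have hI := (lintegral_kidx_le hd1 hN s hs T).trans (ENNReal.ofReal_le_ofReal hT)
        have h3 : ENNReal.ofReal ((ε / 4) ^ 2) * (Measure.pi fun _ : Fin T => stdGaussian (E d))
            (Prod.mk s ⁻¹' (Prod.mk ω ⁻¹' Aᶜ)) ≤ ENNReal.ofReal (ε ^ 2 / 48) :=
          (mul_le_mul_right (measure_mono hsub) _).trans (hMk.trans hI)
        have h4 : ENNReal.ofReal (ε ^ 2 / 48) = ENNReal.ofReal ((ε / 4) ^ 2) * (1 / 3) := by
          rw [show ε ^ 2 / 48 = (ε / 4) ^ 2 * (1 / 3) by ring, ENNReal.ofReal_mul (by positivity)]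
          congr 1
          rw [ENNReal.ofReal_div_of_pos (by norm_num)]
          simp
        rw [h4] at h3
        have h5 : ENNReal.ofReal ((ε / 4) ^ 2) ≠ 0 := by
          simp only [ne_eq, ENNReal.ofReal_eq_zero, not_le]
          positivity
        exact (ENNReal.mul_le_mul_iff_right h5 ENNReal.ofReal_ne_top).1 h3
      have hae : ∀ᵐ s ∂(unifSphere d), (Measure.pi fun _ : Fin T => stdGaussian (E d))
          (Prod.mk s ⁻¹' (Prod.mk ω ⁻¹' Aᶜ)) ≤ 1 / 3 := by
        have := unifSphere_norm d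
        rw [← ae_iff (p := fun s : E d => ‖s‖ = 1)] at this
        filter_upwards [this] with s h
        exact hs s h
      calc _ ≤ ∫⁻ _s, (1 / 3 : ℝ≥0∞) ∂(unifSphere d) := lintegral_mono_ae hae
        _ = 1 / 3 := by simp
    calc _ ≤ ∫⁻ _ω, (1 / 3 : ℝ≥0∞) ∂L.P := lintegral_mono hω
      _ = 1 / 3 := by simp
  haveI : IsProbabilityMeasure μ := by rw [hμ]; infer_instance
  have h1 : (1 : ℝ≥0∞) ≤ μ A + μ Aᶜ := by
    rw [measure_add_measure_compl hAm, measure_univ]
  have h23 : (2 / 3 : ℝ≥0∞) + 1 / 3 = 1 := by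
    rw [ENNReal.div_add_div_same]
    norm_num
    exact ENNReal.div_self (by norm_num) (by norm_num)
  have h2 : (2 / 3 : ℝ≥0∞) + 1 / 3 ≤ μ A + 1 / 3 := by
    rw [h23]
    exact h1.trans (by gcongr)
  exact (ENNReal.add_le_add_iff_right (by norm_num)).1 h2

theorem kaczmarz_upper' : ∃ C : ℝ, 0 < C ∧ ∀ d : ℕ, 2 ≤ d → ∀ ε : ℝ, 0 < ε → ε ≤ 1 / d →
    ∀ K : ℕ, (2 : ℝ) ^ (C * d * Real.log (1 / ε)) ≤ K →
      ∃ T : ℕ, (T : ℝ) ≤ C * d * Real.log (1 / ε) ∧ ∃ L : Learner d K,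
        (∀ t t' ω q, L.out t ω q = L.out t' ω q) ∧ L.Succeeds T ε := by
  refine ⟨23, by norm_num, fun d hd ε hε hεd K hK => ?_⟩
  have hd2 : (2 : ℝ) ≤ d := by exact_mod_cast hd
  have hd0 : (0 : ℝ) < d := by linarith
  have hεd' : ε * d ≤ 1 := by rwa [le_div_iff₀ hd0] at hεd
  have hε2 : ε ≤ 1 / 2 := hεd.trans (by gcongr)
  have hε1 : ε ≤ 1 := by linarith
  set Λ := Real.log (1 / ε) with hΛ
  have hinv : 2 ≤ 1 / ε := by
    rw [le_div_iff₀ hε]; linarith
  have hΛ2 : Real.log 2 ≤ Λ := Real.log_le_log (by norm_num) hinv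
  have hl2 : 0.69 < Real.log 2 := by linarith [Real.log_two_gt_d9]
  have hΛ0 : 0.69 < Λ := lt_of_lt_of_le hl2 hΛ2
  set N := ⌈24 * (d : ℝ) ^ 2 / ε⌉₊ with hN
  have hNr : 24 * (d : ℝ) ^ 2 / ε ≤ N := Nat.le_ceil _
  have hNpos : (0 : ℝ) < N := lt_of_lt_of_le (by positivity) hNr
  have hN1 : 1 ≤ N := by exact_mod_cast Nat.one_le_iff_ne_zero.2 (by
    intro h; rw [h] at hNpos; simp at hNpos)
  set T := ⌈2 * (d : ℝ) * (6 + 2 * Λ)⌉₊ with hTdef
  have hTr : 2 * (d : ℝ) * (6 + 2 * Λ) ≤ T := Nat.le_ceil _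
  have hTu : (T : ℝ) ≤ 2 * (d : ℝ) * (6 + 2 * Λ) + 1 :=
    (Nat.ceil_lt_add_one (by positivity)).le
  refine ⟨T, ?_, ?_⟩
  · have h1 : (0.69 : ℝ) * d ≤ Λ * d := by gcongr
    nlinarith
  -- the embedding of the grid
  have hcard : Fintype.card (Fin d → Fin (2 * N + 1)) ≤ Fintype.card (Fin K) := by
    rw [Fintype.card_fun, Fintype.card_fin, Fintype.card_fin, Fintype.card_fin]
    have h1 : (((2 * N + 1) ^ d : ℕ) : ℝ) ≤ (2 : ℝ) ^ (23 * d * Λ) := by
      have hN2 : (N : ℝ) ≤ 25 * d ^ 2 / ε := by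
        have h2 : (N : ℝ) ≤ 24 * (d : ℝ) ^ 2 / ε + 1 := (Nat.ceil_lt_add_one (by positivity)).le
        have h3 : 1 ≤ (d : ℝ) ^ 2 / ε := by
          rw [le_div_iff₀ hε]; nlinarith
        have h4 : 25 * (d : ℝ) ^ 2 / ε = 24 * (d : ℝ) ^ 2 / ε + (d : ℝ) ^ 2 / ε := by ring
        linarith
      have hinvd : (d : ℝ) ≤ 1 / ε := by rw [le_div_iff₀ hε]; linarith
      have h5 : (2 * (N : ℝ) + 1) ≤ (1 / ε) ^ 9 := by
        have h6 : 2 * (N : ℝ) + 1 ≤ 51 * ((d : ℝ) ^ 2 * (1 / ε)) := by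
          have h3 : 1 ≤ (d : ℝ) ^ 2 * (1 / ε) := by nlinarith
          have h4 : 25 * (d : ℝ) ^ 2 / ε = 25 * ((d : ℝ) ^ 2 * (1 / ε)) := by ring
          linarith
        have h7 : (d : ℝ) ^ 2 * (1 / ε) ≤ (1 / ε) ^ 2 * (1 / ε) := by gcongr
        have h8 : (51 : ℝ) ≤ (1 / ε) ^ 6 := by
          calc (51 : ℝ) ≤ 2 ^ 6 := by norm_num
            _ ≤ (1 / ε) ^ 6 := by gcongr
        have h9 : 0 ≤ (1 / ε) ^ 2 * (1 / ε) := by positivity
        calc 2 * (N : ℝ) + 1 ≤ 51 * ((d : ℝ) ^ 2 * (1 / ε)) := h6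
          _ ≤ (1 / ε) ^ 6 * ((1 / ε) ^ 2 * (1 / ε)) := by gcongr
          _ = (1 / ε) ^ 9 := by ring
      have h10 : (1 / ε) = Real.exp Λ := by rw [hΛ, Real.exp_log (by positivity)]
      push_cast
      calc (2 * (N : ℝ) + 1) ^ d ≤ ((1 / ε) ^ 9) ^ d := by gcongr
        _ = Real.exp (9 * d * Λ) := by
          rw [h10, ← Real.exp_nat_mul, ← Real.exp_nat_mul]
          congr 1
          push_cast
          ring
        _ ≤ Real.exp (Real.log 2 * (23 * d * Λ)) := by
          apply Real.exp_le_exp.2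
          have h11 : 0 ≤ d * Λ := by positivity
          nlinarith
        _ = (2 : ℝ) ^ (23 * d * Λ) := by
          rw [Real.rpow_def_of_pos (by norm_num)]
    exact_mod_cast h1.trans hK
  obtain ⟨e⟩ := Function.Embedding.nonempty_of_card_le hcard
  refine ⟨kLearner (by omega : 1 ≤ d) N K e, fun _ _ _ _ => rfl,
    kLearner_succeeds hd N K hN1 e hε hε1 T ?_⟩
  -- numerics
  have hδ : √(d : ℝ) / N ≤ ε / (24 * d) := by
    have hsq : √(d : ℝ) ≤ d := by
      rw [Real.sqrt_le_left (by positivity)]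
      nlinarith
    rw [div_le_div_iff₀ hNpos (by positivity)]
    have h1 : 24 * (d : ℝ) ^ 2 ≤ N * ε := by rwa [div_le_iff₀ hε] at hNr
    nlinarith
  have hδ0 : 0 ≤ √(d : ℝ) / N := by positivity
  have h1 : (1 - 1 / (2 * (d : ℝ))) ^ T ≤ ε ^ 2 / 384 := by
    have h2 : (1 - 1 / (2 * (d : ℝ))) ≤ Real.exp (-(1 / (2 * (d : ℝ)))) :=
      Real.one_sub_le_exp_neg _
    have h3 : (0 : ℝ) ≤ 1 - 1 / (2 * d) := by
      have : 1 / (2 * (d : ℝ)) ≤ 1 := by
        rw [div_le_one (by positivity)]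
        linarith
      linarith
    calc (1 - 1 / (2 * (d : ℝ))) ^ T ≤ (Real.exp (-(1 / (2 * (d : ℝ))))) ^ T := by gcongr
      _ = Real.exp (-(T / (2 * (d : ℝ)))) := by
        rw [← Real.exp_nat_mul]
        congr 1
        ring
      _ ≤ Real.exp (-(6 + 2 * Λ)) := by
        apply Real.exp_le_exp.2
        apply neg_le_neg
        rw [le_div_iff₀ (by positivity)]
        linarith
      _ = Real.exp (-6) * (Real.exp (-Λ)) ^ 2 := by
        rw [← Real.exp_nat_mul, ← Real.exp_add]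
        congr 1
        push_cast
        ring
      _ = Real.exp (-6) * ε ^ 2 := by
        have hexp : Real.exp (-Λ) = ε := by
          rw [hΛ, one_div, Real.log_inv, neg_neg, Real.exp_log hε]
        rw [hexp]
      _ ≤ (1 / 384) * ε ^ 2 := by
        gcongr
        rw [Real.exp_neg, ← one_div]
        apply one_div_le_one_div_of_le (by norm_num)
        have h4 : Real.exp 6 = (Real.exp 1) ^ 6 := by
          rw [← Real.exp_nat_mul]
          norm_num
        rw [h4]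
        calc (384 : ℝ) ≤ 2.7 ^ 6 := by norm_num
          _ ≤ (Real.exp 1) ^ 6 := by
            have := Real.exp_one_gt_d9
            gcongr
            linarith
      _ = ε ^ 2 / 384 := by ring
  have h2 : (1 + √(d : ℝ) / N) ^ 2 ≤ 4 := by
    have h3 : ε / (24 * (d : ℝ)) ≤ 1 := by
      rw [div_le_one (by positivity)]
      linarith
    have h4 : 1 + √(d : ℝ) / N ≤ 2 := by linarith
    calc (1 + √(d : ℝ) / N) ^ 2 ≤ 2 ^ 2 := by gcongr
      _ = 4 := by norm_num
  have h3 : 2 * (d : ℝ) * ((1 + 2 * d) * (√d / N) ^ 2) ≤ ε ^ 2 / 96 := by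
    calc 2 * (d : ℝ) * ((1 + 2 * d) * (√d / N) ^ 2)
        ≤ 2 * (d : ℝ) * ((3 * d) * (ε / (24 * d)) ^ 2) := by
          gcongr
          linarith
      _ = ε ^ 2 / 96 := by
          field_simp
          ring
  calc _ ≤ ε ^ 2 / 384 * 4 + ε ^ 2 / 96 := by gcongr
    _ = ε ^ 2 / 48 := by ring

theorem kaczmarz_upper : ∃ C : ℝ, 0 < C ∧ ∀ d : ℕ, 2 ≤ d → ∀ ε : ℝ, 0 < ε → ε ≤ 1 / d →
    ∀ K : ℕ, (2 : ℝ) ^ (C * d * Real.log (1 / ε)) ≤ K →
      ∃ T : ℕ, (T : ℝ) ≤ C * d * Real.log (1 / ε) ∧ ∃ L : Learner d K, L.Succeeds T ε := by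
  obtain ⟨C, hC, h⟩ := kaczmarz_upper'
  refine ⟨C, hC, fun d hd ε hε hεd K hK => ?_⟩
  obtain ⟨T, hT, L, -, hL⟩ := h d hd ε hε hεd K hK
  exact ⟨T, hT, L, hL⟩

end Vale.Agent.P309
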